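import Vale.Agent.P359.Spec

namespace Vale.Agent.P359

open Finset

@[simp] theorem st_eq {α : Type} (n : ℕ) (f : ℕ → α) : st n f = f n := by
  cases n <;> rfl

@[simp] theorem nth_nil {α : Type} (d : α) (n : ℕ) : nth d [] n = d := rfl
@[simp] theorem nth_zero {α : Type} (d x : α) (l : List α) : nth d (x :: l) 0 = x := rfl
@[simp] theorem nth_succ {α : Type} (d x : α) (l : List α) (n : ℕ) :
    nth d (x :: l) (n + 1) = nth d l n := rfl

theorem nth_eq_getD {α : Type} (d : α) (l : List α) (n : ℕ) : nth d l n = l.getD n d := by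
  induction l generalizing n with
  | nil => simp
  | cons x l ih => cases n <;> simp [ih]

theorem sumZ_eq (n : ℕ) (f : ℕ → ℤ) : sumZ n f = ∑ i ∈ range n, f i := by
  induction n with
  | zero => rfl
  | succ n ih => rw [sum_range_succ, ← ih]; rfl

theorem sumQ_eq (n : ℕ) (f : ℕ → ℚ) : sumQ n f = ∑ i ∈ range n, f i := by
  induction n with
  | zero => rfl
  | succ n ih => rw [sum_range_succ, ← ih]; rfl

theorem allTo_iff (n : ℕ) (f : ℕ → Bool) : allTo n f = true ↔ ∀ i < n, f i = true := by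
  induction n with
  | zero => simp [allTo]
  | succ n ih =>
    have : allTo (n + 1) f = (f n && allTo n f) := rfl
    rw [this, Bool.and_eq_true, ih]
    constructor
    · rintro ⟨h1, h2⟩ i hi
      rcases Nat.lt_succ_iff_lt_or_eq.1 hi with h | h
      · exact h2 i h
      · rw [h]; exact h1
    · intro h
      exact ⟨h n (Nat.lt_succ_self n), fun i hi => h i (Nat.lt_succ_of_lt hi)⟩

theorem get2_tab (n : ℕ) (f : ℕ → ℕ → ℚ) (i j : ℕ) (hi : i < n) (hj : j < n) :
    get2 (tab n f) i j = f i j := by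
  simp [get2, tab, nth_eq_getD, List.getD_eq_getElem?_getD, hi, hj]

theorem psdL_sound (n : ℕ) : ∀ (M : List (List ℚ)), psdL n M = true → ∀ B : ℕ → ℕ → ℝ,
    (∀ x : ℕ → ℝ, 0 ≤ ∑ i ∈ range n, ∑ j ∈ range n, x i * x j * B i j) →
    0 ≤ ∑ i ∈ range n, ∑ j ∈ range n, (get2 M i j : ℝ) * B i j := by
  induction n with
  | zero => intro M _ B _; simp
  | succ n ih =>
    intro M h B hB
    simp only [psdL, Bool.and_eq_true, allTo_iff, decide_eq_true_eq, Bool.or_eq_true] at h
    obtain ⟨⟨h0, h1⟩, h2⟩ := h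
    have hB' : ∀ x : ℕ → ℝ, 0 ≤ ∑ i ∈ range n, ∑ j ∈ range n, x i * x j * B (i + 1) (j + 1) := by
      intro x
      have := hB (fun i => Nat.casesOn i 0 x)
      simpa [sum_range_succ'] using this
    have h3 := ih _ h2 (fun i j => B (i + 1) (j + 1)) hB'
    set a : ℚ := get2 M 0 0 with ha
    have h4 : ∑ i ∈ range n, ∑ j ∈ range n, (get2 (tab n fun i j =>
        cond (decide (get2 M 0 i.succ = 0) || decide (get2 M 0 j.succ = 0))
      (get2 M i.succ j.succ)
      (get2 M i.succ j.succ - get2 M 0 i.succ * (get2 M 0 j.succ / a))) i j : ℝ) *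
        B (i + 1) (j + 1) = ∑ i ∈ range n, ∑ j ∈ range n,
        ((get2 M (i + 1) (j + 1) : ℝ) - (get2 M 0 (i + 1) : ℝ) * (get2 M 0 (j + 1) : ℝ) / a) *
          B (i + 1) (j + 1) := by
      refine sum_congr rfl fun i hi => sum_congr rfl fun j hj => ?_
      rw [get2_tab n _ i j (mem_range.1 hi) (mem_range.1 hj)]
      congr 1
      by_cases e1 : get2 M 0 (i + 1) = 0
      · simp [e1]
      · by_cases e2 : get2 M 0 (j + 1) = 0
        · simp [e2]
        · simp [e1, e2]; ring
    rw [h4] at h3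
    have h5 := hB (fun i => (get2 M 0 i : ℝ))
    have ha0 : (0 : ℝ) ≤ (a : ℝ) := by exact_mod_cast h0
    have h6 : 0 ≤ (∑ i ∈ range (n + 1), ∑ j ∈ range (n + 1),
        (get2 M 0 i : ℝ) * (get2 M 0 j : ℝ) * B i j) / a := div_nonneg h5 ha0
    have key : ∑ i ∈ range (n + 1), ∑ j ∈ range (n + 1), (get2 M i j : ℝ) * B i j =
        (∑ i ∈ range (n + 1), ∑ j ∈ range (n + 1),
        (get2 M 0 i : ℝ) * (get2 M 0 j : ℝ) * B i j) / a + ∑ i ∈ range n, ∑ j ∈ range n,
        ((get2 M (i + 1) (j + 1) : ℝ) - (get2 M 0 (i + 1) : ℝ) * (get2 M 0 (j + 1) : ℝ) / a) *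
          B (i + 1) (j + 1) := by
      have e0 : ∀ j < n + 1, (a : ℝ) * (get2 M 0 j : ℝ) / a = (get2 M 0 j : ℝ) := by
        intro j hj
        by_cases hz : a = 0
        · have : get2 M 0 j = 0 := by
            cases j with
            | zero => exact hz
            | succ j =>
              rcases (h1 j (by omega)).2 with h | h
              · exact absurd hz h
              · exact h
          simp [this]
        · have : (a : ℝ) ≠ 0 := by exact_mod_cast hz
          field_simp
      simp only [sum_div]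
      rw [sum_range_succ' _ n, sum_range_succ' (fun i => ∑ j ∈ range (n + 1),
        (get2 M 0 i : ℝ) * (get2 M 0 j : ℝ) * B i j / a) n, add_right_comm, ← sum_add_distrib]
      congr 1
      · refine sum_congr rfl fun i hi => ?_
        rw [sum_range_succ', sum_range_succ' (fun j =>
          (get2 M 0 (i + 1) : ℝ) * (get2 M 0 j : ℝ) * B (i + 1) j / a), add_right_comm,
          ← sum_add_distrib]
        congr 1
        · refine sum_congr rfl fun j _ => ?_
          ring
        · rw [(h1 i (mem_range.1 hi)).1, ← ha]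
          have := e0 (i + 1) (by have := mem_range.1 hi; omega)
          calc (get2 M 0 (i + 1) : ℝ) * B (i + 1) 0
              = ((a : ℝ) * (get2 M 0 (i + 1) : ℝ) / a) * B (i + 1) 0 := by rw [this]
            _ = _ := by ring
      · refine sum_congr rfl fun j hj => ?_
        have := e0 j (mem_range.1 hj)
        calc (get2 M 0 j : ℝ) * B 0 j = ((a : ℝ) * (get2 M 0 j : ℝ) / a) * B 0 j := by rw [this]
          _ = _ := by ring
    rw [key]
    exact add_nonneg h6 h3

theorem psd_sound (n : ℕ) (f : ℕ → ℕ → ℚ) (h : psd n f = true) (B : ℕ → ℕ → ℝ)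
    (hB : ∀ x : ℕ → ℝ, 0 ≤ ∑ i ∈ range n, ∑ j ∈ range n, x i * x j * B i j) :
    0 ≤ ∑ i ∈ range n, ∑ j ∈ range n, (f i j : ℝ) * B i j := by
  have := psdL_sound n _ h B hB
  refine this.trans_eq (sum_congr rfl fun i hi => sum_congr rfl fun j hj => ?_)
  rw [get2_tab n f i j (mem_range.1 hi) (mem_range.1 hj)]

theorem mulLin_zero (a b : ℤ) (l : List ℤ) (prev : ℤ) :
    nth 0 (mulLin a b l prev) 0 = a * prev + b * nth 0 l 0 := by
  cases l <;> simp [mulLin]

theorem mulLin_succ (a b : ℤ) (l : List ℤ) (prev : ℤ) (j : ℕ) :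
    nth 0 (mulLin a b l prev) (j + 1) = a * nth 0 l j + b * nth 0 l (j + 1) := by
  induction l generalizing prev j with
  | nil => simp [mulLin]
  | cons c cs ih =>
    cases j with
    | zero => simp [mulLin, mulLin_zero]
    | succ j => simp [mulLin, ih]

section
variable {A : Type} [CommRing A] [Algebra ℝ A]

def Exp (x y : A) (l : List ℤ) (m : ℕ) (P : A) : Prop :=
  (∀ j, m < j → nth 0 l j = 0) ∧
    P = ∑ j ∈ range (m + 1), ((nth 0 l j : ℤ) : ℝ) • (x ^ j * y ^ (m - j))

theorem Exp.mul {x y : A} {l : List ℤ} {m : ℕ} {P : A} (h : Exp x y l m P) (a b : ℤ) :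
    Exp x y (mulLin a b l 0) (m + 1) (((a : ℝ) • x + (b : ℝ) • y) * P) := by
  obtain ⟨h1, h2⟩ := h
  constructor
  · intro j hj
    obtain ⟨j, rfl⟩ : ∃ i, j = i + 1 := ⟨j - 1, by omega⟩
    rw [mulLin_succ, h1 j (by omega), h1 (j + 1) (by omega)]; simp
  · rw [sum_range_succ' _ (m + 1), add_mul]
    simp only [mulLin_succ, mulLin_zero, Int.cast_add, Int.cast_mul, add_smul, sum_add_distrib,
      mul_zero, zero_add]
    rw [add_assoc]
    congr 1
    · rw [h2, mul_sum]
      refine sum_congr rfl fun j hj => ?_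
      have : m + 1 - (j + 1) = m - j := by omega
      rw [this, mul_smul_comm, smul_mul_assoc, smul_smul, mul_comm ((nth 0 l j : ℤ) : ℝ)]
      congr 1; ring
    · rw [sum_range_succ, h1 (m + 1) (by omega), h2, mul_sum, sum_range_succ']
      simp only [Int.cast_zero, mul_zero, zero_smul, add_zero]
      congr 1
      · refine sum_congr rfl fun j hj => ?_
        have hj := mem_range.1 hj
        have : m + 1 - (j + 1) = (m - (j + 1)) + 1 := by omega
        rw [this, mul_smul_comm, smul_mul_assoc, smul_smul, mul_comm ((nth 0 l (j + 1) : ℤ) : ℝ)]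
        congr 1; ring
      · rw [mul_smul_comm, smul_mul_assoc, smul_smul, mul_comm ((nth 0 l 0 : ℤ) : ℝ)]
        congr 1; simp; ring

theorem Exp.pow {x y : A} {l : List ℤ} {m : ℕ} {P : A} (h : Exp x y l m P) (a b : ℤ) (k : ℕ) :
    Exp x y (powLin a b k l) (m + k) (((a : ℝ) • x + (b : ℝ) • y) ^ k * P) := by
  induction k with
  | zero => simpa [powLin] using h
  | succ k ih =>
    have := ih.mul a b
    rw [← mul_assoc, ← pow_succ'] at this
    exact this

theorem exp_cl (x y : A) (a b a' b' : ℤ) (p k : ℕ) :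
    Exp x y (cl a b a' b' p k) (p + k)
      (((a : ℝ) • x + (b : ℝ) • y) ^ p * ((a' : ℝ) • x + (b' : ℝ) • y) ^ k) := by
  have h0 : Exp x y [1] 0 1 := by
    constructor
    · intro j hj
      obtain ⟨j, rfl⟩ : ∃ i, j = i + 1 := ⟨j - 1, by omega⟩
      simp
    · simp
  have h1 := (h0.pow a b p).pow a' b' k
  rw [zero_add, mul_one, mul_comm] at h1
  exact h1

theorem co_zero (a b a' b' : ℤ) (p k j : ℕ) (h : p + k < j) : co a b a' b' p k j = 0 :=
  (exp_cl (0 : ℝ) 0 a b a' b' p k).1 j h

theorem expand (x y : A) (a b a' b' : ℤ) (p k : ℕ) :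
    ((a : ℝ) • x + (b : ℝ) • y) ^ p * ((a' : ℝ) • x + (b' : ℝ) • y) ^ k =
      ∑ j ∈ range (p + k + 1), ((co a b a' b' p k j : ℤ) : ℝ) • (x ^ j * y ^ (p + k - j)) :=
  (exp_cl x y a b a' b' p k).2

/-- expansion indexed by the total degree `t` of the part without `x` -/
theorem expand' (x y h : A) (a b a' b' : ℤ) (p k l T : ℕ) (hT : l + (p + k) < T) :
    h * (((a : ℝ) • x + (b : ℝ) • y) ^ p * ((a' : ℝ) • x + (b' : ℝ) • y) ^ k) =
      ∑ t ∈ range T, (if t ≤ l + (p + k) then ((co a b a' b' p k (l + (p + k) - t) : ℤ) : ℝ) else 0) •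
        (x ^ (l + (p + k) - t) * (if l ≤ t then h * y ^ (t - l) else 0)) := by
  rw [expand, mul_sum]
  symm
  rw [← sum_subset (s₁ := (range (p + k + 1)).image fun j => l + (p + k) - j)]
  · rw [sum_image]
    · refine sum_congr rfl fun j hj => ?_
      have hj := mem_range.1 hj
      have e1 : l + (p + k) - (l + (p + k) - j) = j := by omega
      have e2 : l + (p + k) - j - l = p + k - j := by omega
      rw [if_pos (by omega), if_pos (by omega), e1, e2, mul_smul_comm]
      congr 1; ring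
    · intro i hi j hj hij
      have hi := mem_range.1 (mem_coe.1 hi)
      have hj := mem_range.1 (mem_coe.1 hj)
      simp only at hij
      omega
  · intro t ht
    obtain ⟨j, _, rfl⟩ := mem_image.1 ht
    exact mem_range.2 (by omega)
  · intro t _ ht
    by_cases h1 : t ≤ l + (p + k)
    · by_cases h2 : l ≤ t
      · exact absurd (mem_image.2 ⟨l + (p + k) - t, mem_range.2 (by omega), by omega⟩) ht
      · simp [h2]
    · simp [h1]

structure Inv (τ : A →ₗ[ℝ] A →ₗ[ℝ] ℝ) (D : Derivation ℝ A A) (C : A) (κ : ℕ) : Prop where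
  symm : ∀ x y, τ x y = τ y x
  inv : ∀ x y, τ (C * x) y = τ x (D y)
  dc : D C = (κ : ℝ) • (1 : A)

theorem fw_succ (κ j : ℕ) : fw κ (j + 1) = (j + 1) * κ * fw κ j := by
  simp [fw, Nat.factorial_succ]; ring

theorem Inv.pow {τ : A →ₗ[ℝ] A →ₗ[ℝ] ℝ} {D : Derivation ℝ A A} {C : A} {κ : ℕ}
    (H : Inv τ D C κ) {h h' : A} (hh : D h = 0) (hh' : D h' = 0) (j j' : ℕ) :
    τ (C ^ j * h) (C ^ j' * h') = if j = j' then (fw κ j : ℝ) * τ h h' else 0 := by
  induction j generalizing j' with
  | zero =>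
    cases j' with
    | zero => simp [fw]
    | succ j' =>
      rw [H.symm, pow_succ', mul_assoc, H.inv]
      simp [hh]
  | succ j ih =>
    rw [pow_succ', mul_assoc, H.inv]
    cases j' with
    | zero => simp [hh']
    | succ j' =>
      have : D (C ^ (j' + 1) * h') = (((j' : ℝ) + 1) * κ) • (C ^ j' * h') := by
        rw [Derivation.leibniz, hh', Derivation.leibniz_pow, H.dc]
        simp only [smul_zero, zero_add, smul_eq_mul, add_tsub_cancel_right, nsmul_eq_mul]
        simp only [Algebra.smul_def, map_mul, map_add, map_natCast, map_one]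
        push_cast
        ring
      rw [this, map_smul, ih, fw_succ]
      by_cases e : j = j'
      · subst e; simp; ring
      · simp [e]

theorem Inv.sum {τ : A →ₗ[ℝ] A →ₗ[ℝ] ℝ} {D : Derivation ℝ A A} {C : A} {κ : ℕ}
    (H : Inv τ D C κ) (h h' : ℕ → A) (hh : ∀ t, D (h t) = 0) (hh' : ∀ t, D (h' t) = 0)
    (c c' : ℕ → ℝ) (m T : ℕ) :
    τ (∑ t ∈ range T, (if t ≤ m then c t else 0) • (C ^ (m - t) * h t))
      (∑ t ∈ range T, (if t ≤ m then c' t else 0) • (C ^ (m - t) * h' t)) =
      ∑ t ∈ range T, (if t ≤ m then c t * c' t * (fw κ (m - t) : ℝ) else 0) * τ (h t) (h' t) := by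
  simp only [map_sum, map_smul, LinearMap.sum_apply, LinearMap.smul_apply, smul_eq_mul]
  refine sum_congr rfl fun t ht => ?_
  by_cases h1 : t ≤ m
  · rw [sum_eq_single t]
    · rw [H.pow (hh t) (hh' t)]; simp [h1]; ring
    · intro s _ hs
      by_cases h2 : s ≤ m
      · have : ¬ (m - s = m - t) := by omega
        rw [H.pow (hh s) (hh' t), if_neg this]; simp
      · simp [h2]
    · intro h; exact absurd ht h
  · simp [h1]

end

end Vale.Agent.P359
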