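import Mathlib

namespace Vale.Agent.P359

open Finset Function Equiv

noncomputable section

variable {α : Type} {n : ℕ}

abbrev St (α : Type) (n : ℕ) := (Fin n → α) → ℝ

def cs (a : α) (r : Fin n → α) : Fin (n + 1) → α := Fin.cons a r

@[simp] theorem cs_zero (a : α) (r : Fin n → α) : cs a r 0 = a := rfl
@[simp] theorem cs_succ (a : α) (r : Fin n → α) (i : Fin n) : cs a r i.succ = r i := by
  simp [cs]
@[simp] theorem cs_one (a b : α) (r : Fin n → α) : cs a (cs b r) 1 = b := rfl
@[simp] theorem upd_cs_zero (a b : α) (r : Fin n → α) : update (cs a r) 0 b = cs b r := by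
  simp [cs]
@[simp] theorem upd_cs_succ (a b : α) (r : Fin n → α) (i : Fin n) :
    update (cs a r) i.succ b = cs a (update r i b) := by
  simp [cs, Fin.cons_update]
@[simp] theorem upd_cs_one (a b c : α) (r : Fin n → α) :
    update (cs a (cs b r)) 1 c = cs a (cs c r) := by
  rw [← Fin.succ_zero_eq_one, upd_cs_succ, upd_cs_zero]

theorem cs_swap_succ (a : α) (r : Fin n → α) (i j : Fin n) :
    cs a r ∘ swap i.succ j.succ = cs a (r ∘ swap i j) := by
  funext k
  refine Fin.cases ?_ (fun k => ?_) k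
  · simp [swap_apply_of_ne_of_ne (Fin.succ_ne_zero i).symm (Fin.succ_ne_zero j).symm]
  · simp [← (Fin.succ_injective n).map_swap]

theorem cs_swap01 (a b : α) (r : Fin n → α) :
    cs a (cs b r) ∘ swap 0 1 = cs b (cs a r) := by
  funext k
  refine Fin.cases ?_ (fun k => Fin.cases ?_ (fun k => ?_) k) k
  · simp
  · simp
  · rw [comp_apply, swap_apply_of_ne_of_ne (Fin.succ_ne_zero _) (Fin.succ_succ_ne_one k)]
    simp

def Anti (ψ : St α n) : Prop := ∀ i j : Fin n, i ≠ j → ∀ x, ψ (x ∘ swap i j) = -ψ x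

theorem Anti.perm {ψ : St α n} (h : Anti ψ) (σ : Perm (Fin n)) (x : Fin n → α) :
    ψ (x ∘ σ) = ((Perm.sign σ : ℤ) : ℝ) * ψ x := by
  induction σ using Perm.swap_induction_on generalizing x with
  | one => simp
  | swap_mul f i j hij ih =>
    have : x ∘ (swap i j * f : Perm (Fin n)) = (x ∘ swap i j) ∘ f := rfl
    rw [this, ih, h i j hij]
    simp [Perm.sign_swap hij]

theorem Anti.sw01 {ψ : St α (n + 2)} (h : Anti ψ) (a b : α) (r : Fin n → α) :
    ψ (cs b (cs a r)) = -ψ (cs a (cs b r)) := by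
  rw [← cs_swap01, h 0 1 (by simp)]

theorem Anti.slice {ψ : St α (n + 1)} (h : Anti ψ) (a : α) : Anti (fun r => ψ (cs a r)) := by
  intro i j hij r
  simp only
  rw [← cs_swap_succ, h _ _ (fun e => hij (Fin.succ_injective n e))]

theorem Anti.zero : Anti (0 : St α n) := fun _ _ _ _ => by simp

theorem Anti.add {φ ψ : St α n} (h : Anti φ) (h' : Anti ψ) : Anti (φ + ψ) := fun i j hij x => by
  simp [h i j hij, h' i j hij]; ring

theorem Anti.smul {ψ : St α n} (h : Anti ψ) (c : ℝ) : Anti (c • ψ) := fun i j hij x => by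
  simp [h i j hij]

theorem Anti.sub {φ ψ : St α n} (h : Anti φ) (h' : Anti ψ) : Anti (φ - ψ) := fun i j hij x => by
  simp [h i j hij, h' i j hij]; ring

variable [Fintype α]

theorem sum_cs (F : (Fin (n + 1) → α) → ℝ) : ∑ x, F x = ∑ a, ∑ r, F (cs a r) := by
  rw [← Fintype.sum_prod_type']
  exact (Fintype.sum_equiv (Fin.consEquiv fun _ => α) _ _ (fun _ => rfl)).symm

theorem sum_perm (σ : Perm (Fin n)) (F : (Fin n → α) → ℝ) : ∑ x, F (x ∘ σ) = ∑ x, F x :=
  Fintype.sum_equiv (Equiv.arrowCongr σ.symm (Equiv.refl α)) _ _ (fun _ => rfl)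

def ip : St α n →ₗ[ℝ] St α n →ₗ[ℝ] ℝ :=
  LinearMap.mk₂ ℝ (fun φ ψ => ∑ x, φ x * ψ x)
    (fun _ _ _ => by simp [add_mul, sum_add_distrib])
    (fun _ _ _ => by simp [mul_sum, mul_assoc])
    (fun _ _ _ => by simp [mul_add, sum_add_distrib])
    (fun _ _ _ => by simp [mul_sum, mul_left_comm])

theorem ip_apply (φ ψ : St α n) : ip φ ψ = ∑ x, φ x * ψ x := rfl

theorem ip_comm (φ ψ : St α n) : ip φ ψ = ip ψ φ := by simp [ip_apply, mul_comm]

theorem ip_nonneg (φ : St α n) : 0 ≤ ip φ φ := sum_nonneg fun _ _ => mul_self_nonneg _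

theorem ip_eq_zero {φ : St α n} (h : ip φ φ = 0) : φ = 0 := by
  funext x
  have := (sum_eq_zero_iff_of_nonneg (fun x _ => mul_self_nonneg (φ x))).1 h x (mem_univ x)
  exact mul_self_eq_zero.1 this

def ann (f : α → ℝ) : St α (n + 1) →ₗ[ℝ] St α n where
  toFun ψ r := ∑ a, f a * ψ (cs a r)
  map_add' _ _ := by funext r; simp [mul_add, sum_add_distrib]
  map_smul' _ _ := by funext r; simp [mul_sum, mul_left_comm]

theorem ann_apply (f : α → ℝ) (ψ : St α (n + 1)) (r : Fin n → α) :
    ann f ψ r = ∑ a, f a * ψ (cs a r) := rfl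

def ann2 (φ : α → α → ℝ) : St α (n + 2) →ₗ[ℝ] St α n where
  toFun ψ r := ∑ a, ∑ b, φ a b * ψ (cs a (cs b r))
  map_add' _ _ := by funext r; simp [mul_add, sum_add_distrib]
  map_smul' _ _ := by funext r; simp [mul_sum, mul_left_comm]

theorem ann2_apply (φ : α → α → ℝ) (ψ : St α (n + 2)) (r : Fin n → α) :
    ann2 φ ψ r = ∑ a, ∑ b, φ a b * ψ (cs a (cs b r)) := rfl

theorem Anti.ann {ψ : St α (n + 1)} (h : Anti ψ) (f : α → ℝ) : Anti (ann f ψ) := by
  intro i j hij r
  simp only [ann_apply, ← sum_neg_distrib]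
  exact sum_congr rfl fun a _ => by rw [← mul_neg]; exact congrArg _ (h.slice a i j hij r)

theorem Anti.ann2 {ψ : St α (n + 2)} (h : Anti ψ) (φ : α → α → ℝ) : Anti (ann2 φ ψ) := by
  intro i j hij r
  simp only [ann2_apply, ← sum_neg_distrib]
  exact sum_congr rfl fun a _ => sum_congr rfl fun b _ => by
    rw [← mul_neg]; exact congrArg _ (((h.slice a).slice b) i j hij r)

theorem Anti.ann_ann {ψ : St α (n + 2)} (h : Anti ψ) (f g : α → ℝ) :
    P359.ann f (P359.ann g ψ) = - P359.ann g (P359.ann f ψ) := by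
  funext r
  simp only [ann_apply, Pi.neg_apply, mul_sum, ← sum_neg_distrib]
  rw [sum_comm]
  exact sum_congr rfl fun a _ => sum_congr rfl fun b _ => by rw [h.sw01]; ring

theorem ann_smul (c : ℝ) (f : α → ℝ) (ψ : St α (n + 1)) : ann (c • f) ψ = c • ann f ψ := by
  funext r; simp [ann_apply, mul_sum, mul_assoc]

theorem ann2_smul (c : ℝ) (f : α → α → ℝ) (ψ : St α (n + 2)) :
    ann2 (c • f) ψ = c • ann2 f ψ := by
  funext r; simp [ann2_apply, mul_sum, mul_assoc]

def one (t : α → α → ℝ) : St α n →ₗ[ℝ] St α n where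
  toFun ψ x := ∑ j, ∑ y, t (x j) y * ψ (update x j y)
  map_add' _ _ := by funext r; simp [mul_add, sum_add_distrib]
  map_smul' _ _ := by funext r; simp [mul_sum, mul_left_comm]

theorem one_apply (t : α → α → ℝ) (ψ : St α n) (x : Fin n → α) :
    one t ψ x = ∑ j, ∑ y, t (x j) y * ψ (update x j y) := rfl

theorem one_cs (t : α → α → ℝ) (ψ : St α (n + 1)) (a : α) (r : Fin n → α) :
    one t ψ (cs a r) = ∑ y, t a y * ψ (cs y r) + one t (fun r => ψ (cs a r)) r := by
  simp [one_apply, Fin.sum_univ_succ]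

theorem ann_one (f : α → ℝ) (t : α → α → ℝ) (ψ : St α (n + 1)) :
    ann f (one t ψ) = ann (fun y => ∑ a, f a * t a y) ψ + one t (ann f ψ) := by
  funext r
  simp only [ann_apply, one_cs, Pi.add_apply, mul_add, sum_add_distrib]
  congr 1
  · simp only [mul_sum, sum_mul]
    rw [sum_comm]
    simp [mul_assoc]
  · simp only [one_apply, ann_apply, mul_sum]
    rw [sum_comm]
    refine sum_congr rfl fun j _ => ?_
    rw [sum_comm]
    simp [mul_left_comm]

theorem ann2_one (φ : α → α → ℝ) (t : α → α → ℝ) (ψ : St α (n + 2)) :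
    ann2 φ (one t ψ) = ann2 (fun c d => ∑ a, φ a d * t a c + ∑ b, φ c b * t b d) ψ +
      one t (ann2 φ ψ) := by
  funext r
  simp only [ann2_apply, one_cs, Pi.add_apply, mul_add, add_mul, sum_add_distrib, add_assoc]
  congr 1
  · simp only [mul_sum, sum_mul]
    calc _ = ∑ a, ∑ c, ∑ b, φ a b * (t a c * ψ (cs c (cs b r))) :=
          sum_congr rfl fun a _ => sum_comm
      _ = ∑ c, ∑ a, ∑ b, φ a b * (t a c * ψ (cs c (cs b r))) := sum_comm
      _ = _ := by
          refine sum_congr rfl fun c _ => ?_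
          rw [sum_comm]; simp [mul_assoc]
  congr 1
  · simp only [mul_sum, sum_mul]
    refine sum_congr rfl fun a _ => ?_
    rw [sum_comm]; simp [mul_assoc]
  · simp only [one_apply, ann2_apply, mul_sum]
    calc _ = ∑ a, ∑ j, ∑ y, ∑ b, φ a b * (t (r j) y * ψ (cs a (cs b (update r j y)))) := by
          refine sum_congr rfl fun a _ => ?_
          rw [sum_comm]
          exact sum_congr rfl fun j _ => sum_comm
      _ = _ := by
          rw [sum_comm]
          refine sum_congr rfl fun j _ => ?_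
          rw [sum_comm]
          simp [mul_left_comm]

theorem sum_upd (j : Fin n) (F : (Fin n → α) → α → ℝ) :
    ∑ x, ∑ y, F x y = ∑ x, ∑ y, F (update x j y) (x j) := by
  rw [← Fintype.sum_prod_type', ← Fintype.sum_prod_type']
  let g : (Fin n → α) × α → (Fin n → α) × α := fun p => (update p.1 j p.2, p.1 j)
  have hg : Involutive g := fun p => by simp [g]
  exact (Fintype.sum_equiv hg.toPerm _ _ (fun _ => rfl)).symm

theorem one_adj (t : α → α → ℝ) (φ ψ : St α n) :
    ip φ (one t ψ) = ip (one (fun a b => t b a) φ) ψ := by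
  simp only [ip_apply, one_apply, mul_sum, sum_mul]
  rw [sum_comm, sum_comm (s := univ) (t := (univ : Finset (Fin n)))]
  refine sum_congr rfl fun j _ => ?_
  rw [sum_upd j]
  exact sum_congr rfl fun x _ => sum_congr rfl fun y _ => by simp; ring

theorem Anti.one {ψ : St α n} (h : Anti ψ) (t : α → α → ℝ) : Anti (one t ψ) := by
  intro i j hij x
  simp only [one_apply, ← sum_neg_distrib]
  refine Fintype.sum_equiv (swap i j) _ _ fun k => sum_congr rfl fun y _ => ?_
  have : update (x ∘ swap i j) k y = update x (swap i j k) y ∘ swap i j := by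
    rw [update_comp_equiv]; simp
  rw [this, h i j hij]; simp

/-- The antisymmetrisation inequality. -/
theorem jm (F G : St α (n + 2)) (hF : ∀ a, Anti fun r => F (cs a r)) (hG : Anti G) :
    0 ≤ ((n : ℝ) + 2) * (ip F F - (n + 1) * ip F (fun x => F (x ∘ swap 0 1))) +
      2 * ((n : ℝ) + 2) * ip F G + ip G G := by
  have hF' : ∀ i j : Fin (n + 1), i ≠ j → ∀ x, F (x ∘ swap i.succ j.succ) = -F x := by
    intro i j hij x
    have e : x = cs (x 0) (Fin.tail x) := by simp [cs]
    rw [e, cs_swap_succ]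
    exact hF _ i j hij _
  let S : St α (n + 2) := ∑ j : Fin (n + 1), fun x => F (x ∘ swap 0 j.succ)
  have hS : ∀ x, S x = ∑ j : Fin (n + 1), F (x ∘ swap 0 j.succ) := fun x => by simp [S]
  have hA : ∀ (k : Fin (n + 1)) x, (F - S) (x ∘ swap 0 k.succ) = -(F - S) x := by
    intro k x
    simp only [Pi.sub_apply, hS]
    rw [← add_sum_erase _ _ (mem_univ k), ← add_sum_erase _ _ (mem_univ k)]
    have e1 : (x ∘ swap 0 k.succ) ∘ swap 0 k.succ = x := by
      funext i; simp
    have e2 : ∀ j ∈ univ.erase k, F ((x ∘ swap 0 k.succ) ∘ swap 0 j.succ) =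
        -F (x ∘ swap 0 j.succ) := by
      intro j hj
      have hj := (mem_erase.1 hj).1
      rw [← hF' j k hj]
      congr 1
      have : (swap 0 k.succ * swap 0 j.succ : Perm (Fin (n + 2))) =
          swap 0 j.succ * swap j.succ k.succ := by
        rw [mul_swap_eq_swap_mul (swap 0 j.succ), swap_apply_right,
          swap_apply_of_ne_of_ne (Fin.succ_ne_zero k)
            (fun e => hj (Fin.succ_injective _ e).symm)]
      exact congrArg (fun σ : Perm (Fin (n + 2)) => x ∘ σ) this
    rw [e1, sum_congr rfl e2, sum_neg_distrib]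
    ring
  have key : ∀ A : St α (n + 2), (∀ (k : Fin (n + 1)) x, A (x ∘ swap 0 k.succ) = -A x) →
      ip (F - S) A = ((n : ℝ) + 2) * ip F A := by
    intro A hA
    have : ∀ j : Fin (n + 1), ip (fun x => F (x ∘ swap 0 j.succ)) A = -ip F A := by
      intro j
      simp only [ip_apply]
      rw [← sum_perm (swap 0 j.succ) (fun x => F x * A x), ← sum_neg_distrib]
      exact sum_congr rfl fun x _ => by rw [hA]; ring
    simp only [S, map_sub, map_sum, LinearMap.sub_apply, LinearMap.sum_apply, this]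
    simp; ring
  have h1 := key _ hA
  have h2 := key G (fun k x => hG _ _ (Fin.succ_ne_zero k).symm x)
  have h3 : ip F S = (n + 1) * ip F (fun x => F (x ∘ swap 0 1)) := by
    have : ∀ j : Fin (n + 1), ip F (fun x => F (x ∘ swap 0 j.succ)) =
        ip F (fun x => F (x ∘ swap 0 1)) := by
      intro j
      by_cases hj : j = 0
      · subst hj; rfl
      · simp only [ip_apply]
        rw [← sum_perm (swap (0 : Fin (n + 1)).succ j.succ)]
        refine sum_congr rfl fun x _ => ?_
        have e : (swap (0 : Fin (n + 1)).succ j.succ * swap 0 j.succ : Perm (Fin (n + 2))) =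
            swap 0 1 * swap (0 : Fin (n + 1)).succ j.succ := by
          rw [mul_swap_eq_swap_mul, swap_apply_right,
            swap_apply_of_ne_of_ne (Fin.succ_ne_zero _).symm (Fin.succ_ne_zero _).symm]
          rfl
        have e' : (x ∘ swap (0 : Fin (n + 1)).succ j.succ) ∘ swap 0 j.succ =
            (x ∘ swap 0 1) ∘ swap (0 : Fin (n + 1)).succ j.succ :=
          congrArg (fun σ : Perm (Fin (n + 2)) => x ∘ σ) e
        rw [e', hF' _ _ (Ne.symm hj), hF' _ _ (Ne.symm hj)]
        ring
    simp only [S, map_sum, this]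
    simp
  have h4 := ip_nonneg (F - S + G)
  rw [map_add, map_add, LinearMap.add_apply, LinearMap.add_apply, h1, h2, ip_comm G (F - S), h2,
    map_sub, h3] at h4
  linarith

theorem pauli_ann (K : ℕ) (f : ℕ → α → ℝ) (Y : ℕ → St α (n + 1)) (G : St α (n + 2))
    (hY : ∀ k, Anti (Y k)) (hG : Anti G) :
    0 ≤ ((n : ℝ) + 2) * (∑ k ∈ range K, ∑ k' ∈ range K, (∑ a, f k a * f k' a) * ip (Y k) (Y k') -
        (n + 1) * ∑ k ∈ range K, ∑ k' ∈ range K, ip (ann (f k') (Y k)) (ann (f k) (Y k'))) +
      2 * ((n : ℝ) + 2) * ∑ k ∈ range K, ip (Y k) (ann (f k) G) + ip G G := by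
  let F : St α (n + 2) := fun x => ∑ k ∈ range K, f k (x 0) * Y k (Fin.tail x)
  have hF : ∀ a r, F (cs a r) = ∑ k ∈ range K, f k a * Y k r := fun a r => by simp [F, cs]
  have h := jm F G (fun a i j hij r => by
    simp only [hF, ← sum_neg_distrib]
    exact sum_congr rfl fun k _ => by rw [hY k i j hij, mul_neg]) hG
  have e1 : ip F F = ∑ k ∈ range K, ∑ k' ∈ range K, (∑ a, f k a * f k' a) * ip (Y k) (Y k') := by
    simp only [ip_apply, sum_cs (n := n + 1), hF, sum_mul_sum]
    calc _ = ∑ a, ∑ k ∈ range K, ∑ k' ∈ range K, ∑ r, f k a * Y k r * (f k' a * Y k' r) := by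
          refine sum_congr rfl fun a _ => ?_
          rw [sum_comm]
          exact sum_congr rfl fun k _ => sum_comm
      _ = _ := by
          rw [sum_comm]
          refine sum_congr rfl fun k _ => ?_
          rw [sum_comm]
          exact sum_congr rfl fun k' _ => sum_congr rfl fun a _ => sum_congr rfl fun r _ => by ring
  have e2 : ip F (fun x => F (x ∘ swap 0 1)) =
      ∑ k ∈ range K, ∑ k' ∈ range K, ip (ann (f k') (Y k)) (ann (f k) (Y k')) := by
    simp only [ip_apply, sum_cs (n := n + 1), sum_cs (n := n), cs_swap01, hF, sum_mul_sum,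
      ann_apply]
    calc _ = ∑ a, ∑ b, ∑ k ∈ range K, ∑ k' ∈ range K, ∑ r,
            f k a * Y k (cs b r) * (f k' b * Y k' (cs a r)) := by
          refine sum_congr rfl fun a _ => sum_congr rfl fun b _ => ?_
          rw [sum_comm]
          exact sum_congr rfl fun k _ => sum_comm
      _ = ∑ a, ∑ k ∈ range K, ∑ k' ∈ range K, ∑ r, ∑ b,
            f k a * Y k (cs b r) * (f k' b * Y k' (cs a r)) := by
          refine sum_congr rfl fun a _ => ?_
          rw [sum_comm]
          refine sum_congr rfl fun k _ => ?_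
          rw [sum_comm]
          exact sum_congr rfl fun k' _ => sum_comm
      _ = _ := by
          rw [sum_comm]
          refine sum_congr rfl fun k _ => ?_
          rw [sum_comm]
          refine sum_congr rfl fun k' _ => ?_
          rw [sum_comm]
          refine sum_congr rfl fun r _ => ?_
          rw [sum_comm]
          exact sum_congr rfl fun b _ => sum_congr rfl fun a _ => by ring
  have e3 : ip F G = ∑ k ∈ range K, ip (Y k) (ann (f k) G) := by
    simp only [ip_apply, sum_cs (n := n + 1), hF, sum_mul, ann_apply, mul_sum]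
    calc _ = ∑ a, ∑ k ∈ range K, ∑ r, f k a * Y k r * G (cs a r) :=
          sum_congr rfl fun a _ => sum_comm
      _ = _ := by
          rw [sum_comm]
          refine sum_congr rfl fun k _ => ?_
          rw [sum_comm]
          exact sum_congr rfl fun r _ => sum_congr rfl fun a _ => by ring
  rw [e1, e2, e3] at h
  exact h

end

end Vale.Agent.P359
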