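import Vale.Agent.P359.Data

namespace Vale.Agent.P359

theorem pt0 : chkPT 0 = true := by decide +kernel

theorem pt1 : chkPT 1 = true := by decide +kernel

theorem pt2 : chkPT 2 = true := by decide +kernel

theorem pt3 : chkPT 3 = true := by decide +kernel

theorem pt4 : chkPT 4 = true := by decide +kernel

theorem pt5 : chkPT 5 = true := by decide +kernel

theorem pt6 : chkPT 6 = true := by decide +kernel

theorem pt7 : chkPT 7 = true := by decide +kernel

theorem pt8 : chkPT 8 = true := by decide +kernel

theorem pt9 : chkPT 9 = true := by decide +kernel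

theorem pt10 : chkPT 10 = true := by decide +kernel

theorem pt11 : chkPT 11 = true := by decide +kernel

theorem pt12 : chkPT 12 = true := by decide +kernel

theorem chkPT_all (t : ℕ) (h1 : 0 ≤ t) (h2 : t < 13) : chkPT t = true := by
  interval_cases t
  exacts [pt0, pt1, pt2, pt3, pt4, pt5, pt6, pt7, pt8, pt9, pt10, pt11, pt12]

end Vale.Agent.P359
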