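import Vale.Agent.P359.Data

namespace Vale.Agent.P359

theorem rc0 : chkR 0 = true := by decide +kernel

theorem rc1 : chkR 1 = true := by decide +kernel

theorem rc2 : chkR 2 = true := by decide +kernel

theorem rc3 : chkR 3 = true := by decide +kernel

theorem rc4 : chkR 4 = true := by decide +kernel

theorem rc5 : chkR 5 = true := by decide +kernel

theorem rc6 : chkR 6 = true := by decide +kernel

theorem rc7 : chkR 7 = true := by decide +kernel

theorem rc8 : chkR 8 = true := by decide +kernel

theorem rc9 : chkR 9 = true := by decide +kernel

theorem rc10 : chkR 10 = true := by decide +kernel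

theorem rc11 : chkR 11 = true := by decide +kernel

theorem rc12 : chkR 12 = true := by decide +kernel

theorem rc13 : chkR 13 = true := by decide +kernel

theorem rc14 : chkR 14 = true := by decide +kernel

theorem rc15 : chkR 15 = true := by decide +kernel

theorem rc16 : chkR 16 = true := by decide +kernel

theorem rc17 : chkR 17 = true := by decide +kernel

theorem rc18 : chkR 18 = true := by decide +kernel

theorem rc19 : chkR 19 = true := by decide +kernel

theorem rc20 : chkR 20 = true := by decide +kernel

theorem rc21 : chkR 21 = true := by decide +kernel

theorem rc22 : chkR 22 = true := by decide +kernel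

theorem rc23 : chkR 23 = true := by decide +kernel

theorem rc24 : chkR 24 = true := by decide +kernel

theorem rc25 : chkR 25 = true := by decide +kernel

theorem rc26 : chkR 26 = true := by decide +kernel

theorem rc27 : chkR 27 = true := by decide +kernel

theorem rc28 : chkR 28 = true := by decide +kernel

theorem rc29 : chkR 29 = true := by decide +kernel

theorem rc30 : chkR 30 = true := by decide +kernel

theorem rc31 : chkR 31 = true := by decide +kernel

theorem rc32 : chkR 32 = true := by decide +kernel

theorem rc33 : chkR 33 = true := by decide +kernel

theorem rc34 : chkR 34 = true := by decide +kernel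

theorem rc35 : chkR 35 = true := by decide +kernel

theorem rc36 : chkR 36 = true := by decide +kernel

theorem gc0 : chkG 0 = true := by decide +kernel

theorem gc1 : chkG 1 = true := by decide +kernel

theorem gc2 : chkG 2 = true := by decide +kernel

theorem gc3 : chkG 3 = true := by decide +kernel

theorem gc4 : chkG 4 = true := by decide +kernel

theorem gc5 : chkG 5 = true := by decide +kernel

theorem gc6 : chkG 6 = true := by decide +kernel

theorem gc7 : chkG 7 = true := by decide +kernel

theorem gc8 : chkG 8 = true := by decide +kernel

theorem gc9 : chkG 9 = true := by decide +kernel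

theorem gc10 : chkG 10 = true := by decide +kernel

theorem gc11 : chkG 11 = true := by decide +kernel

theorem gc12 : chkG 12 = true := by decide +kernel

theorem gc13 : chkG 13 = true := by decide +kernel

theorem gc14 : chkG 14 = true := by decide +kernel

theorem chkS_ok : chkS = true := by decide +kernel

theorem c0_le : c0 ≤ 92 / 100 := by decide +kernel

theorem chkR_all (t : ℕ) (h1 : 0 ≤ t) (h2 : t < 37) : chkR t = true := by
  interval_cases t
  exacts [rc0, rc1, rc2, rc3, rc4, rc5, rc6, rc7, rc8, rc9, rc10, rc11, rc12, rc13, rc14, rc15, rc16, rc17, rc18, rc19, rc20, rc21, rc22, rc23, rc24, rc25, rc26, rc27, rc28, rc29, rc30, rc31, rc32, rc33, rc34, rc35, rc36]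

theorem chkG_all (t : ℕ) (h1 : 0 ≤ t) (h2 : t < 15) : chkG t = true := by
  interval_cases t
  exacts [gc0, gc1, gc2, gc3, gc4, gc5, gc6, gc7, gc8, gc9, gc10, gc11, gc12, gc13, gc14]

end Vale.Agent.P359
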