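import Mathlib

namespace Vale.Agent.P359

open scoped InnerProductSpace

noncomputable section

/-- Labels `k = 0, …, Q` of the orthonormal basis `e_k = √(Q choose k) u^k v^(Q-k)` of `U_Q`. -/
abbrev Orb (Q : ℕ) := Fin (Q + 1)

/-- `U_Q^{⊗N}` in the orthonormal product basis. -/
abbrev Tens (Q N : ℕ) := EuclideanSpace ℂ (Fin N → Orb Q)

/-- `U_Q ⊗ U_Q` in the orthonormal product basis. -/
abbrev Pair (Q : ℕ) := EuclideanSpace ℂ (Orb Q × Orb Q)

/-- The orthogonal projection of `x` onto the subspace `K`. -/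
def orthProj {E : Type} [NormedAddCommGroup E] [InnerProductSpace ℂ E] [FiniteDimensional ℂ E]
    (K : Submodule ℂ E) (x : E) : E := K.starProjection x

/-- `Re ⟨ψ, φ⟩`. -/
def reInner {Q N : ℕ} (ψ φ : Tens Q N) : ℝ := (⟪ψ, φ⟫_ℂ).re

/-- Membership in the fermionic subspace `⋀^N U_Q`. -/
def IsAntisym {Q N : ℕ} (ψ : Tens Q N) : Prop :=
  ∀ (σ : Equiv.Perm (Fin N)) (x : Fin N → Orb Q),
    ψ (x ∘ σ) = ((Equiv.Perm.sign σ : ℤ) : ℂ) * ψ x

/-- Matrix element `⟨e_k, L₊ e_l⟩` of the raising operator `L₊ = u ∂/∂v` on `U_Q`. -/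
def raise (Q : ℕ) (k l : Orb Q) : ℂ :=
  if (k : ℕ) = (l : ℕ) + 1 then ((√((((l : ℕ) : ℝ) + 1) * ((Q : ℝ) - ((l : ℕ) : ℝ))) : ℝ) : ℂ) else 0

/-- The total raising operator `L₊ ⊗ 1 + 1 ⊗ L₊`. -/
def pairRaise (Q : ℕ) (φ : Pair Q) : Pair Q :=
  WithLp.toLp 2 fun p => ∑ l, raise Q p.1 l * φ (l, p.2) + ∑ l, raise Q p.2 l * φ (p.1, l)

/-- The lowest weight vector `e_0 ⊗ e_1 - e_1 ⊗ e_0` of the spin `Q - 1` component. -/
def lowest (Q : ℕ) : Pair Q :=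
  WithLp.toLp 2 fun p =>
    if (p.1 : ℕ) = 0 ∧ (p.2 : ℕ) = 1 then 1 else if (p.1 : ℕ) = 1 ∧ (p.2 : ℕ) = 0 then -1 else 0

/-- The irreducible component of total spin `Q - 1` in `U_Q ⊗ U_Q`. -/
def spinSub (Q : ℕ) : Submodule ℂ (Pair Q) :=
  Submodule.span ℂ (Set.range fun n : ℕ => (pairRaise Q)^[n] (lowest Q))

/-- The projection `P^(1)` acting on tensor factors `i` and `j`. -/
def pairProj {Q N : ℕ} (i j : Fin N) (ψ : Tens Q N) : Tens Q N :=
  WithLp.toLp 2 fun x => orthProj (spinSub Q)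
    (WithLp.toLp 2 fun p => ψ (Function.update (Function.update x i p.1) j p.2)) (x i, x j)

/-- `H_{N,Q} ψ = ∑_{i<j} P^(1)_{ij} ψ`. -/
def ham {Q N : ℕ} (ψ : Tens Q N) : Tens Q N := ∑ i, ∑ j ∈ Finset.Ioi i, pairProj i j ψ

/-- `∏_{i<j} (u_i v_j - u_j v_i)^3` with `u_i = X (inl i)` and `v_i = X (inr i)`. -/
def laughlinPoly (N : ℕ) : MvPolynomial (Fin N ⊕ Fin N) ℂ :=
  ∏ i, ∏ j ∈ Finset.Ioi i,
    (MvPolynomial.X (Sum.inl i) * MvPolynomial.X (Sum.inr j) -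
      MvPolynomial.X (Sum.inl j) * MvPolynomial.X (Sum.inr i)) ^ 3

/-- Coordinates of the Laughlin vector in the orthonormal product basis, `Q = 3 (N - 1)`. -/
def laughlin (N : ℕ) : Tens (3 * (N - 1)) N :=
  WithLp.toLp 2 fun x =>
    MvPolynomial.coeff (Finsupp.equivFunOnFinite.symm
        (Sum.elim (fun i => (x i : ℕ)) (fun i => 3 * (N - 1) - (x i : ℕ)))) (laughlinPoly N) /
      ∏ i, ((√(((3 * (N - 1)).choose (x i) : ℕ) : ℝ) : ℝ) : ℂ)

/-- The orthogonal projection onto the span of the vector `L`. -/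
def lineProj {Q N : ℕ} (L ψ : Tens Q N) : Tens Q N := orthProj (Submodule.span ℂ {L}) ψ

/-- `(I - P) ψ`, where `P` is the orthogonal projection onto the span of `L`. -/
def lineCompl {Q N : ℕ} (L ψ : Tens Q N) : Tens Q N := ψ - lineProj L ψ

end

end Vale.Agent.P359
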