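import Vale.Agent.P359.Lim

namespace Vale.Agent.P359

open Finset MvPolynomial

noncomputable section

variable {τ3 : R2 →ₗ[ℝ] R2 →ₗ[ℝ] ℝ} {τ4 : R3 →ₗ[ℝ] R3 →ₗ[ℝ] ℝ}

def nu (τ3 : R2 →ₗ[ℝ] R2 →ₗ[ℝ] ℝ) (l : ℕ) : ℝ := τ3 (d3 ^ l) (d3 ^ l)

def hh (a t : ℕ) : R3 :=
  if a = 0 then (if 1 ≤ t then r4 * s4 ^ (t - 1) else 0)
  else if a ≤ t then d4 ^ a * g4 ^ (t - a) else 0

def eta (τ4 : R3 →ₗ[ℝ] R3 →ₗ[ℝ] ℝ) (t a b : ℕ) : ℝ := τ4 (hh a t) (hh b t)

theorem mono3 (m k : ℕ) : (X 0 ^ m * X 1 ^ k : R2) = ((1 : ℝ) / 3) ^ (m + k) •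
    (1 * ((((2 : ℤ) : ℝ) • y3 + ((1 : ℤ) : ℝ) • d3) ^ m *
      (((1 : ℤ) : ℝ) • y3 + ((-1 : ℤ) : ℝ) • d3) ^ k)) := by
  have e1 : (((2 : ℤ) : ℝ) • y3 + ((1 : ℤ) : ℝ) • d3) = (3 : ℝ) • X 0 := by
    simp only [y3, d3]; push_cast; module
  have e2 : (((1 : ℤ) : ℝ) • y3 + ((-1 : ℤ) : ℝ) • d3) = (3 : ℝ) • X 1 := by
    simp only [y3, d3]; push_cast; module
  rw [e1, e2, smul_pow, smul_pow, one_mul, smul_mul_smul_comm, smul_smul, ← pow_add, ← mul_pow]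
  simp

theorem mono4 (h : R3) (p k : ℕ) : (h * (y4 ^ p * X 2 ^ k) : R3) = ((1 : ℝ) / 4) ^ (p + k) •
    (h * ((((3 : ℤ) : ℝ) • C4 + ((1 : ℤ) : ℝ) • g4) ^ p *
      (((1 : ℤ) : ℝ) • C4 + ((-1 : ℤ) : ℝ) • g4) ^ k)) := by
  have e1 : (((3 : ℤ) : ℝ) • C4 + ((1 : ℤ) : ℝ) • g4) = (4 : ℝ) • y4 := by
    simp only [y4, C4, g4]; push_cast; module
  have e2 : (((1 : ℤ) : ℝ) • C4 + ((-1 : ℤ) : ℝ) • g4) = (4 : ℝ) • X 2 := by
    simp only [C4, g4]; push_cast; module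
  rw [e1, e2, smul_pow, smul_pow, smul_mul_smul_comm, mul_smul_comm, smul_smul, ← pow_add,
    ← mul_pow]
  simp

theorem Lim.ev3 (H : Lim τ3 τ4) (m k m' k' : ℕ) (e : m' + k' = m + k) (hT : m + k < 33) :
    τ3 (X 0 ^ m * X 1 ^ k) (X 0 ^ m' * X 1 ^ k') =
      ∑ l ∈ range 33, (t3 m k m' k' l : ℝ) * nu τ3 l := by
  rw [mono3, mono3 m' k', map_smul, map_smul, LinearMap.smul_apply,
    H.i3.exp D3_d (by simp) (by simp) 2 1 1 (-1) m k m' k' 0 0 33 (by omega) (by omega), e,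
    smul_smul, smul_eq_mul, mul_sum]
  refine sum_congr rfl fun l _ => ?_
  simp only [zero_add, zero_le, if_true, one_mul, tsub_zero, t3, co3, nu]
  split_ifs
  · push_cast
    rw [← mul_pow]
    have : ((1 : ℝ) / 3 * (1 / 3)) = 9⁻¹ := by norm_num
    rw [this, inv_pow]
    ring
  · simp

theorem Lim.evA (H : Lim τ3 τ4) :
    Aterm τ3 (fun n => (fw 2 n : ℝ)) = ∑ l ∈ range 33, (aK l : ℝ) * nu τ3 l := by
  simp only [Aterm, aK, sumQ_eq]
  push_cast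
  simp only [sum_mul]
  rw [sum_comm]
  refine sum_congr rfl fun n hn => ?_
  have hn := mem_range.1 hn
  have h1 := H.ev3 0 (n + 1) n 1 (by omega) (by omega)
  have h2 := H.ev3 0 n n 0 (by omega) (by omega)
  simp only [pow_zero, one_mul, pow_one, mul_one] at h1 h2
  rw [h1, h2, mul_sum, ← sum_sub_distrib, sum_div]
  refine sum_congr rfl fun l _ => ?_
  ring

theorem Lim.ev4 (H : Lim τ3 τ4) (a b p k' p' k : ℕ) (ha : 1 ≤ a) (hb : 1 ≤ b)
    (e : b + (p' + k) = a + (p + k')) (hT : a + (p + k') < 37) :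
    τ4 (d4 ^ a * (y4 ^ p * X 2 ^ k')) (d4 ^ b * (y4 ^ p' * X 2 ^ k)) =
      ((1 : ℝ) / 4) ^ (p + k' + (p' + k)) * ∑ t ∈ range 37, (if a ≤ t ∧ t - a ≤ p + k' then
        ((co4 p k' (p + k' - (t - a)) * co4 p' k (p + k' - (t - a)) *
          fw 4 (p + k' - (t - a)) : ℤ) : ℝ) else 0) * eta τ4 t a b := by
  have hd : ∀ a : ℕ, D4 (d4 ^ a) = 0 := fun a => by simp [Derivation.leibniz_pow, D4_d]
  rw [mono4, mono4 (d4 ^ b), map_smul, map_smul, LinearMap.smul_apply,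
    H.i4.exp D4_g (hd a) (hd b) 3 1 1 (-1) p k' p' k a b 37 e hT,
    smul_smul, smul_eq_mul, ← pow_add, add_comm (p' + k)]
  congr 1
  refine sum_congr rfl fun t _ => ?_
  have ha0 : a ≠ 0 := by omega
  have hb0 : b ≠ 0 := by omega
  simp only [eta, hh, if_neg ha0, if_neg hb0, co4]
  by_cases h1 : a ≤ t
  · by_cases h2 : t - a ≤ p + k'
    · have e1 : a + (p + k') - t = p + k' - (t - a) := by omega
      rw [if_pos (by omega), if_pos (And.intro h1 h2), e1]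
    · rw [if_neg (by omega), if_neg (show ¬ (a ≤ t ∧ t - a ≤ p + k') from fun h => h2 h.2)]
  · simp [h1]

theorem Lim.evH (H : Lim τ3 τ4) :
    Hterm τ4 (fun n => (fw 2 n : ℝ)) =
      ∑ t ∈ range 37, (if 1 ≤ t then (hco (t - 1) : ℝ) else 0) * eta τ4 t 0 0 := by
  have e0 : ∀ n : ℕ, ((X 2 - X 1) * (X 1 + X 2) ^ n : R3) = (-((1 : ℝ) / 2) ^ n) •
      (r4 * ((((1 : ℤ) : ℝ) • C4 + ((-1 : ℤ) : ℝ) • s4) ^ n *
        (((0 : ℤ) : ℝ) • C4 + ((0 : ℤ) : ℝ) • s4) ^ 0)) := by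
    intro n
    have e1 : (((1 : ℤ) : ℝ) • C4 + ((-1 : ℤ) : ℝ) • s4) = (2 : ℝ) • (X 1 + X 2) := by
      simp only [C4, s4]; push_cast; module
    rw [e1, smul_pow, pow_zero, mul_one, mul_smul_comm, smul_smul, neg_mul, ← mul_pow]
    simp [r4]; ring
  have e2 : ∀ t : ℕ, (if 1 ≤ t then (hco (t - 1) : ℝ) else 0) * eta τ4 t 0 0 =
      ∑ n ∈ range 36, (if t ≤ 1 + (n + 0) then
        ((co 1 (-1) 0 0 n 0 (1 + (n + 0) - t) * co 1 (-1) 0 0 n 0 (1 + (n + 0) - t) *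
          fw 4 (1 + (n + 0) - t) : ℤ) : ℝ) else 0) * eta τ4 t 0 0 /
          (4 ^ n * (4 * (fw 2 n : ℝ))) := by
    intro t
    by_cases ht : 1 ≤ t
    · rw [if_pos ht, hco, sumQ_eq]
      push_cast
      rw [sum_mul]
      refine sum_congr rfl fun n _ => ?_
      by_cases h : t - 1 ≤ n
      · have e1 : 1 + (n + 0) - t = n - (t - 1) := by omega
        rw [if_pos h, if_pos (by omega), e1]
        push_cast; ring
      · rw [if_neg h, if_neg (by omega)]; simp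
    · simp [ht, eta, hh]
  simp only [e2]
  rw [sum_comm, Hterm]
  refine sum_congr rfl fun n hn => ?_
  have hn := mem_range.1 hn
  rw [e0, map_smul, map_smul, LinearMap.smul_apply,
    H.i4.exp D4_s D4_r D4_r 1 (-1) 0 0 n 0 n 0 1 1 37 rfl (by omega), smul_smul, smul_eq_mul,
    mul_sum, sum_div]
  refine sum_congr rfl fun t _ => ?_
  have : (-((1 : ℝ) / 2) ^ n) * (-((1 : ℝ) / 2) ^ n) = (4 ^ n)⁻¹ := by
    rw [neg_mul_neg, ← mul_pow, ← inv_pow]; norm_num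
  rw [this]
  simp only [eta, hh, if_true]
  ring

theorem hh_eq (a t : ℕ) : hh a t = hv t (vec t a) := by
  unfold hh hv vec
  by_cases ha : a = 0
  · simp only [ha, if_true]
    by_cases ht : 1 ≤ t
    · rw [if_pos ht, sum_eq_single (t - 1)]
      · have e1 : t - 1 + 1 = t := by omega
        have e2 : t - (t - 1) = 1 := by omega
        simp [e1, e2, mul_comm]
      · intro s _ hs
        have : ¬ (s + 1 = t) := by omega
        simp [this]
      · intro h; exact absurd (mem_range.2 (by omega)) h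
    · have : t = 0 := by omega
      subst this; simp
  · simp only [ha, if_false]
    by_cases ht : a ≤ t
    · simp only [ht, if_true]
      have := expand s4 r4 1 (-1) 1 2 a (t - a)
      have e1 : a + (t - a) = t := by omega
      have e2 : (((1 : ℤ) : ℝ) • s4 + ((-1 : ℤ) : ℝ) • r4) = d4 := by
        simp only [s4, r4, d4]; push_cast; module
      have e3 : (((1 : ℤ) : ℝ) • s4 + ((2 : ℤ) : ℝ) • r4) = g4 := by
        simp only [s4, r4, g4]; push_cast; module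
      rw [e1, e2, e3] at this
      exact this
    · simp [ht]

theorem Lim.evRel (H : Lim τ3 τ4) (t : ℕ) (u : ℕ → ℤ)
    (h : altOK t (fun s => sumZ 13 fun a => u a * vec t a s) = true) :
    ∑ a ∈ range 13, ∑ b ∈ range 13, ((u a * u b : ℤ) : ℝ) * eta τ4 t a b = 0 := by
  have h1 := H.rel4 t _ h
  have e : hv t (fun s => sumZ 13 fun a => u a * vec t a s) =
      ∑ a ∈ range 13, (u a : ℝ) • hh a t := by
    simp only [hh_eq, hv, sumZ_eq, smul_sum, smul_smul]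
    rw [sum_comm]
    refine sum_congr rfl fun s _ => ?_
    push_cast
    rw [sum_smul]
  rw [e] at h1
  simp only [map_sum, map_smul, LinearMap.sum_apply, LinearMap.smul_apply, smul_eq_mul,
    mul_sum] at h1
  rw [← h1, sum_comm]
  refine sum_congr rfl fun a _ => sum_congr rfl fun b _ => ?_
  simp only [eta]; push_cast; ring

theorem Lim.eta_psd (H : Lim τ3 τ4) (t : ℕ) (x : ℕ → ℝ) :
    0 ≤ ∑ a ∈ range 13, ∑ b ∈ range 13, x a * x b * eta τ4 t a b := by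
  have h1 := H.pos4 (∑ a ∈ range 13, x a • hh a t)
  simp only [map_sum, map_smul, LinearMap.sum_apply, LinearMap.smul_apply, smul_eq_mul,
    mul_sum] at h1
  rw [sum_comm]
  refine h1.trans_eq (sum_congr rfl fun a _ => sum_congr rfl fun b _ => ?_)
  simp only [eta]; ring

end

end Vale.Agent.P359
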