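import Vale.Agent.P359.Phi

namespace Vale.Agent.P359

open Finset MvPolynomial

noncomputable section

variable {Q n : ℕ}

def KQ (Q : ℕ) : Fin (Q + 1) → Fin (Q + 1) → Fin (Q + 1) → Fin (Q + 1) → ℝ :=
  ker2 (2 * Q - 1) (bt Q) fun m => 1 / (2 * Nq (1 / Q) m)

theorem KQ_symm (a b c d : Fin (Q + 1)) : KQ Q a b c d = KQ Q b a d c := by
  simp only [KQ, ker2]
  exact sum_congr rfl fun m _ => by rw [bt_anti m a b, bt_anti m c d]; ring

theorem Nq_succ (q : ℝ) (m : ℕ) : Nq q (m + 1) = Nq q m * (((m : ℝ) + 1) * (2 - (m + 2) * q)) :=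
  prod_range_succ _ _

theorem Nq_zero (q : ℝ) : Nq q 0 = 1 := by simp [Nq]

theorem Nq_pos {m : ℕ} (hm : m < 2 * Q - 1) : 0 < Nq (1 / Q) m := by
  refine prod_pos fun i hi => mul_pos (by positivity) ?_
  have hi := mem_range.1 hi
  have h0 : (0 : ℝ) < Q := by exact_mod_cast (show 0 < Q by omega)
  have h1 : (i : ℝ) + 2 < 2 * Q := by exact_mod_cast (show i + 2 < 2 * Q by omega)
  rw [mul_one_div, sub_pos, div_lt_iff₀ h0]
  exact h1

theorem sum_zv (hQ : 0 < Q) (k : ℕ) (F : ℕ → ℝ) :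
    ∑ c : Fin (Q + 1), zv Q k c * F c = wt Q k * F k := by
  by_cases hk : k < Q + 1
  · rw [sum_eq_single ⟨k, hk⟩]
    · simp [zv]
    · intro b _ hb
      have : (b : ℕ) ≠ k := fun e => hb (Fin.ext e)
      simp [zv, this]
    · simp
  · rw [wt_big hQ (by omega), zero_mul]
    refine sum_eq_zero fun a _ => ?_
    have : (a : ℕ) ≠ k := by omega
    simp [zv, this]

theorem bt_zero (a c : Fin (Q + 1)) : bt Q 0 a c = zv Q 0 a * zv Q 1 c - zv Q 1 a * zv Q 0 c := by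
  simp only [bt, gam, zv]
  by_cases h : (a : ℕ) + c = 0 + 1
  · rcases Nat.eq_zero_or_pos a with h0 | h0
    · have : (c : ℕ) = 1 := by omega
      simp [h0, this, wt_zero, wt_one]
    · have h1 : (a : ℕ) = 1 := by omega
      have : (c : ℕ) = 0 := by omega
      simp [h1, this, wt_zero, wt_one]
  · rw [if_neg h]
    split_ifs <;> first | omega | simp

theorem bt_dot (hQ : 0 < Q) (m m' : ℕ) : ∑ a, ∑ b, bt Q m a b * bt Q m' a b =
    if m = m' then 2 * Nq (1 / Q) m else 0 := by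
  split_ifs with h
  · subst h
    induction m with
    | zero =>
      have e : ∀ a b : Fin (Q + 1), bt Q 0 a b * bt Q 0 a b =
          (zv Q 0 a * zv Q 0 a) * (zv Q 1 b * zv Q 1 b) + (zv Q 1 a * zv Q 1 a) *
          (zv Q 0 b * zv Q 0 b) - 2 * ((zv Q 0 a * zv Q 1 a) * (zv Q 0 b * zv Q 1 b)) := by
        intro a b; rw [bt_zero]; ring
      simp only [e, sum_sub_distrib, sum_add_distrib, ← mul_sum, ← sum_mul, zv_dot hQ]
      simp [mq, cq, Nq]; ring
    | succ m ih =>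
      have h1 := bt_raise (Q := Q) m
      have h2 := bt_lower hQ (m + 1)
      calc _ = ∑ c, ∑ d, (∑ a, bt Q m a d * tQ Q c a + ∑ b, bt Q m c b * tQ Q d b) *
            bt Q (m + 1) c d :=
            sum_congr rfl fun c _ => sum_congr rfl fun d _ => by
              rw [congrFun (congrFun h1 c) d]
        _ = ∑ c, ∑ d, bt Q m c d * (∑ a, bt Q (m + 1) a d * tQ Q a c +
            ∑ b, bt Q (m + 1) c b * tQ Q b d) := by
            simp only [add_mul, mul_add, sum_add_distrib, sum_mul, mul_sum]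
            congr 1
            · calc _ = ∑ c, ∑ a, ∑ d, bt Q m a d * tQ Q c a * bt Q (m + 1) c d :=
                    sum_congr rfl fun _ _ => sum_comm
                _ = _ := by
                    rw [sum_comm]
                    refine sum_congr rfl fun a _ => ?_
                    rw [sum_comm]
                    exact sum_congr rfl fun d _ => sum_congr rfl fun c _ => by ring
            · refine sum_congr rfl fun c _ => ?_
              rw [sum_comm]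
              exact sum_congr rfl fun d _ => sum_congr rfl fun c _ => by ring
        _ = ∑ c, ∑ d, (((m + 1 : ℕ) : ℝ) * (2 - (((m + 1 : ℕ) : ℝ) + 1) * (1 / Q))) *
            (bt Q m c d * bt Q m c d) :=
            sum_congr rfl fun c _ => sum_congr rfl fun d _ => by
              rw [congrFun (congrFun h2 c) d]; simp; ring
        _ = _ := by
            simp only [← mul_sum]
            rw [ih, Nq_succ]; push_cast; ring
  · refine sum_eq_zero fun a _ => sum_eq_zero fun b _ => ?_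
    simp only [bt, gam]
    split_ifs <;> first | omega | simp

theorem ann2_proj (hQ : 0 < Q) (ψ : SQ Q (n + 2)) :
    ann2 (bt Q 0) (op2 (KQ Q) 0 1 ψ) = ann2 (bt Q 0) ψ := by
  funext r
  rw [ann2_apply]
  simp only [KQ, op2_01, mul_sum]
  calc _ = ∑ a, ∑ m ∈ range (2 * Q - 1), ∑ b,
        bt Q 0 a b * (1 / (2 * Nq (1 / Q) m) * (bt Q m a b * ann2 (bt Q m) ψ r)) :=
        sum_congr rfl fun _ _ => sum_comm
    _ = ∑ m ∈ range (2 * Q - 1), (∑ a, ∑ b, bt Q 0 a b * bt Q m a b) *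
        (1 / (2 * Nq (1 / Q) m) * ann2 (bt Q m) ψ r) := by
        rw [sum_comm]
        refine sum_congr rfl fun m _ => ?_
        simp only [sum_mul]
        exact sum_congr rfl fun a _ => sum_congr rfl fun b _ => by ring
    _ = _ := by
        simp only [bt_dot hQ]
        rw [sum_eq_single 0]
        · simp [Nq_zero]
        · intro m _ hm; simp [Ne.symm hm]
        · intro h; exact absurd (mem_range.2 (by omega)) h

theorem mid_eval (hQ : 0 < Q) {ψ : SQ Q (n + 3)} (hψ : Anti ψ) :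
    ip (ann2 (bt Q 0) ψ) (ann2 (bt Q 0) (op2 (KQ Q) 1 2 ψ)) =
      ∑ m ∈ range (2 * Q - 1), 1 / (2 * Nq (1 / Q) m) *
        (((m : ℝ) - 1) * ip (Phi3 ψ (X 1 ^ m)) (Phi3 ψ (X 0 ^ m)) -
          ip (Phi3 ψ (X 1 ^ (m + 1))) (Phi3 ψ (X 0 ^ m * X 1))) := by
  rw [KQ, mid_term hψ]
  refine sum_congr rfl fun m _ => ?_
  congr 1
  have e1 : ∀ a, (fun e => ∑ c, bt Q 0 a c * bt Q m c e) =
      (zv Q 0 a * ((m : ℝ) - 1)) • zv Q m + (-zv Q 1 a) • zv Q (m + 1) := by
    intro a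
    funext e
    have h0 := sum_zv hQ 0 (fun c => gam m c e * (wt Q c * wt Q e))
    have h1 := sum_zv hQ 1 (fun c => gam m c e * (wt Q c * wt Q e))
    have g0 : gam m 0 e * wt Q e = zv Q (m + 1) e := by
      simp only [gam, zv, zero_add]
      split_ifs with h
      · rw [h, Nat.factorial_succ]; simp; field_simp
      · simp
    have g1 : gam m 1 e * wt Q e = ((m : ℝ) - 1) * zv Q m e := by
      simp only [gam, zv]
      by_cases h : (e : ℕ) = m
      · rw [if_pos (by omega), if_pos h, h]; simp; left; field_simp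
      · rw [if_neg (by omega), if_neg h]; simp
    simp only [wt_zero, wt_one, one_mul] at h0 h1
    simp only [bt_zero, sub_mul, sum_sub_distrib, mul_assoc, ← mul_sum, Pi.add_apply,
      Pi.smul_apply, smul_eq_mul]
    simp only [bt]
    rw [h0, h1, g0, g1]; ring
  have e2 : ∀ (f g : Fin (Q + 1) → ℝ) (B : SQ Q (n + 1)), ann (f + g) B = ann f B + ann g B := by
    intro f g B; funext r; simp [ann_apply, add_mul, sum_add_distrib]
  have e3 : ∀ (f : Fin (Q + 1) → ℝ) (B : SQ Q (n + 1)),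
      ∑ a, f a • ann (fun e => if e = a then 1 else 0) B = ann f B := by
    intro f B; funext r; simp [ann_apply]
  have p1 := Phi3_mono ψ 0 m
  have p2 := Phi3_mono ψ m 0
  have p3 := Phi3_mono ψ 0 (m + 1)
  have p4 := Phi3_mono ψ m 1
  simp only [pow_zero, one_mul, mul_one, pow_one] at p1 p2 p3 p4
  rw [p1, p2, p3, p4, ← e3 (zv Q 0), ← e3 (zv Q 1)]
  simp only [e1, e2, ann_smul, map_add, map_smul, map_sum, LinearMap.add_apply,
    LinearMap.smul_apply, smul_eq_mul, mul_sum, ← sum_sub_distrib]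
  exact sum_congr rfl fun a _ => by ring

structure Fam (Q n : ℕ) (E : ℝ) where
  d : ℕ
  v : Fin d → SQ Q (n + 4)
  M : Fin d → Fin d → ℝ
  anti : ∀ i, Anti (v i)
  eig : ∀ i, hamR (KQ Q) (v i) = E • v i
  up : ∀ i, Tup Q (v i) = ∑ j, M j i • v j
  dn : ∀ j, Tdn Q (v j) = ∑ i, M j i • v i
  ne : ∃ i, v i ≠ 0

variable {E : ℝ}

theorem Fam.trace (F : Fam Q n E) {m : ℕ} (A B : SQ Q (n + 4) → SQ Q m)
    (hA : ∀ c : Fin F.d → ℝ, A (∑ i, c i • F.v i) = ∑ i, c i • A (F.v i))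
    (hB : ∀ c : Fin F.d → ℝ, B (∑ i, c i • F.v i) = ∑ i, c i • B (F.v i)) :
    ∑ i, ip (A (Tdn Q (F.v i))) (B (F.v i)) = ∑ i, ip (A (F.v i)) (B (Tup Q (F.v i))) := by
  simp only [F.up, F.dn, hA, hB, map_sum, map_smul, LinearMap.sum_apply, LinearMap.smul_apply]
  rw [sum_comm]

theorem Phi3_sum {d m : ℕ} (c : Fin d → ℝ) (v : Fin d → SQ Q (m + 3)) (P : R2) :
    Phi3 (∑ i, c i • v i) P = ∑ i, c i • Phi3 (v i) P := by
  have : Phi3 (∑ i, c i • v i) = ∑ i, c i • Phi3 (v i) := ext2 fun a b => by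
    simp only [Phi3_mono, map_sum, map_smul, LinearMap.sum_apply, LinearMap.smul_apply]
  rw [this]; simp only [LinearMap.sum_apply, LinearMap.smul_apply]

theorem Phi4_sum {d m : ℕ} (c : Fin d → ℝ) (v : Fin d → SQ Q (m + 4)) (P : R3) :
    Phi4 (∑ i, c i • v i) P = ∑ i, c i • Phi4 (v i) P := by
  have : Phi4 (∑ i, c i • v i) = ∑ i, c i • Phi4 (v i) := ext3 fun a b c => by
    simp only [Phi4_mono, map_sum, map_smul, LinearMap.sum_apply, LinearMap.smul_apply]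
  rw [this]; simp only [LinearMap.sum_apply, LinearMap.smul_apply]

def Fam.T2 (F : Fam Q n E) (a : ℕ) : ℝ :=
  ∑ i, ip (ann2 (bt Q a) (F.v i)) (ann2 (bt Q a) (F.v i))

theorem Fam.T2_eq (F : Fam Q n E) (hQ : 0 < Q) (a : ℕ) : F.T2 a = Nq (1 / Q) a * F.T2 0 := by
  induction a with
  | zero => simp [Nq_zero]
  | succ a ih =>
    have h := F.trace (ann2 (bt Q a)) (ann2 (bt Q (a + 1)))
      (fun c => by simp only [map_sum, map_smul]) (fun c => by simp only [map_sum, map_smul])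
    simp only [ann2_dn, ann2_up hQ, map_add, map_smul, LinearMap.add_apply, T_adj, smul_eq_mul,
      sum_add_distrib, ← mul_sum, Nat.add_sub_cancel] at h
    have h2 : F.T2 (a + 1) = (((a + 1 : ℕ) : ℝ) * (2 - (((a + 1 : ℕ) : ℝ) + 1) * (1 / Q))) *
      F.T2 a := by unfold Fam.T2; linarith
    rw [h2, ih, Nq_succ]; push_cast; ring

theorem Fam.Z_pos (F : Fam Q n E) (hQ : 0 < Q) (hE : 0 < E) : 0 < F.T2 0 := by
  have h0 : 0 ≤ F.T2 0 := sum_nonneg fun i _ => ip_nonneg _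
  refine lt_of_le_of_ne h0 fun hz => ?_
  obtain ⟨i, hi⟩ := F.ne
  have h1 : ∀ a, ip (ann2 (bt Q a) (F.v i)) (ann2 (bt Q a) (F.v i)) = 0 := by
    intro a
    have := F.T2_eq hQ a
    rw [← hz, mul_zero] at this
    exact (sum_eq_zero_iff_of_nonneg (fun i _ => ip_nonneg _)).1 this i (mem_univ i)
  have h2 := ip_hamR_anti (F.anti i) (F.anti i) (KQ Q)
  rw [F.eig, KQ, ip_op2_01] at h2
  simp only [h1, mul_zero, sum_const_zero, map_smul, smul_eq_mul] at h2
  exact hi (ip_eq_zero ((mul_eq_zero.1 h2).resolve_left hE.ne'))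

def Fam.t3 (F : Fam Q n E) : R2 →ₗ[ℝ] R2 →ₗ[ℝ] ℝ :=
  (((n : ℝ) + 2) / F.T2 0) • ∑ i, ip.compl₁₂ (Phi3 (m := n + 1) (F.v i)) (Phi3 (m := n + 1) (F.v i))

def Fam.t4 (F : Fam Q n E) : R3 →ₗ[ℝ] R3 →ₗ[ℝ] ℝ :=
  (((n : ℝ) + 2) * (n + 1) / F.T2 0) • ∑ i, ip.compl₁₂ (Phi4 (F.v i)) (Phi4 (F.v i))

theorem Fam.t3_apply (F : Fam Q n E) (x y : R2) : F.t3 x y = (((n : ℝ) + 2) / F.T2 0) *
    ∑ i, ip (Phi3 (m := n + 1) (F.v i) x) (Phi3 (m := n + 1) (F.v i) y) := by
  simp [Fam.t3, LinearMap.sum_apply]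

theorem Fam.t4_apply (F : Fam Q n E) (x y : R3) : F.t4 x y = (((n : ℝ) + 2) * (n + 1) / F.T2 0) *
    ∑ i, ip (Phi4 (F.v i) x) (Phi4 (F.v i) y) := by
  simp [Fam.t4, LinearMap.sum_apply]

structure FinF (q E : ℝ) (M : ℕ) (τ3 : R2 →ₗ[ℝ] R2 →ₗ[ℝ] ℝ) (τ4 : R3 →ₗ[ℝ] R3 →ₗ[ℝ] ℝ) :
    Prop where
  symm3 : ∀ x y, τ3 x y = τ3 y x
  symm4 : ∀ x y, τ4 x y = τ4 y x
  pos3 : ∀ x, 0 ≤ τ3 x x
  pos4 : ∀ x, 0 ≤ τ4 x x
  inv3 : ∀ x y, τ3 (y3 * x) y = τ3 x (D3 y) - q * τ3 x (E3 y)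
  inv4 : ∀ x y, τ4 (C4 * x) y = τ4 x (D4 y) - q * τ4 x (E4 y)
  rel3 : ∀ l, l = 0 ∨ l = 1 ∨ l = 3 → τ3 (d3 ^ l) (d3 ^ l) = 0
  rel4 : ∀ t e, altOK t e = true → τ4 (hv t e) (hv t e) = 0
  pauli2 : ∀ a k : ℕ, τ3 (X 0 ^ a * X 1 ^ k) (X 0 ^ a * X 1 ^ k) ≤ mq q k * Nq q a
  pauli3 : ∀ K P c, 0 ≤ Pauli τ3 τ4 (mq q) K P c
  main : E = 1 - ∑ m ∈ range M, (τ3 (X 1 ^ (m + 1)) (X 0 ^ m * X 1) -
      ((m : ℝ) - 1) * τ3 (X 1 ^ m) (X 0 ^ m)) / Nq q m +
    ∑ m ∈ range M, τ4 ((X 2 - X 1) * (X 1 + X 2) ^ m) ((X 2 - X 1) * (X 1 + X 2) ^ m) /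
      (4 * Nq q m)

theorem Fam.finF (F : Fam Q n E) (hQ : 0 < Q) (hE : 0 < E) :
    FinF (1 / Q) E (2 * Q - 1) F.t3 F.t4 := by
  have hZ := F.Z_pos hQ hE
  refine ⟨fun x y => ?_, fun x y => ?_, fun x => ?_, fun x => ?_, fun x y => ?_, fun x y => ?_,
    fun l hl => ?_, fun t e he => ?_, fun a k => ?_, fun K P c => ?_, ?_⟩
  · simp only [F.t3_apply, ip_comm (Phi3 _ x)]
  · simp only [F.t4_apply, ip_comm (Phi4 _ x)]
  · rw [F.t3_apply]
    exact mul_nonneg (by positivity) (sum_nonneg fun i _ => ip_nonneg _)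
  · rw [F.t4_apply]
    exact mul_nonneg (by positivity) (sum_nonneg fun i _ => ip_nonneg _)
  · have h := F.trace (fun ψ => Phi3 (m := n + 1) ψ x) (fun ψ => Phi3 (m := n + 1) ψ y)
      (fun c => Phi3_sum c _ _) (fun c => Phi3_sum c _ _)
    simp only [Phi3_dn, Phi3_up hQ, map_add, map_sub, map_smul, LinearMap.add_apply, T_adj,
      smul_eq_mul, sum_add_distrib, sum_sub_distrib, ← mul_sum] at h
    simp only [F.t3_apply]
    linear_combination (((n : ℝ) + 2) / F.T2 0) * h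
  · have h := F.trace (fun ψ => Phi4 ψ x) (fun ψ => Phi4 ψ y)
      (fun c => Phi4_sum c _ _) (fun c => Phi4_sum c _ _)
    simp only [Phi4_dn, Phi4_up hQ, map_add, map_sub, map_smul, LinearMap.add_apply, T_adj,
      smul_eq_mul, sum_add_distrib, sum_sub_distrib, ← mul_sum] at h
    simp only [F.t4_apply]
    linear_combination (((n : ℝ) + 2) * (n + 1) / F.T2 0) * h
  · simp [F.t3_apply, Phi3_rel (F.anti _) l hl]
  · simp [F.t4_apply, Phi4_rel (F.anti _) t e he]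
  · have h : ∀ i, ((n : ℝ) + 2) * ip (ann (zv Q k) (ann2 (bt Q a) (F.v i)))
        (ann (zv Q k) (ann2 (bt Q a) (F.v i))) ≤
        mq (1 / Q) k * ip (ann2 (bt Q a) (F.v i)) (ann2 (bt Q a) (F.v i)) := by
      intro i
      have := pauli_ann (n := n + 1) 1 (fun _ => zv Q k) (fun _ => ann2 (bt Q a) (F.v i)) 0
        (fun _ => (F.anti i).ann2 _) Anti.zero
      simp only [sum_range_one, zv_dot hQ, if_true, map_zero, mul_zero, add_zero] at this
      push_cast at this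
      have h3 : (0 : ℝ) < (n : ℝ) + 1 + 2 := by positivity
      have := (mul_nonneg_iff_of_pos_left h3).1 this
      linarith
    have h2 := sum_le_sum fun i (_ : i ∈ univ) => h i
    rw [← mul_sum, ← mul_sum] at h2
    have h3 := F.T2_eq hQ a
    simp only [F.t3_apply, Phi3_mono]
    rw [div_mul_eq_mul_div, div_le_iff₀ hZ, mul_assoc, ← h3]
    exact h2
  · have h : ∀ i, 0 ≤ ((n : ℝ) + 2) * (∑ k ∈ range K, mq (1 / Q) k *
          ip (Phi3 (m := n + 1) (F.v i) (P k)) (Phi3 (m := n + 1) (F.v i) (P k)) -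
        (n + 1) * ∑ k ∈ range K, ∑ k' ∈ range K, ip (Phi4 (F.v i) (emb (P k) * X 2 ^ k'))
          (Phi4 (F.v i) (emb (P k') * X 2 ^ k))) +
        2 * ((n : ℝ) + 2) * (c * ∑ k ∈ range K, ip (Phi3 (m := n + 1) (F.v i) (P k))
          (Phi3 (m := n + 1) (F.v i) (X 1 ^ k))) +
        c ^ 2 * ip (ann2 (bt Q 0) (F.v i)) (ann2 (bt Q 0) (F.v i)) := by
      intro i
      have := pauli_ann (n := n) K (zv Q) (fun k => Phi3 (m := n + 1) (F.v i) (P k))
        (c • ann2 (bt Q 0) (F.v i)) (fun _ => Phi3_anti (F.anti i) _) (((F.anti i).ann2 _).smul c)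
      refine this.trans_eq ?_
      have p1 : ∀ k, Phi3 (m := n + 1) (F.v i) (X 1 ^ k) =
          ann (zv Q k) (ann2 (bt Q 0) (F.v i)) := fun k => by
        rw [← Phi3_mono]; simp
      simp only [zv_dot hQ, Phi4_emb, p1, map_smul, LinearMap.smul_apply, smul_eq_mul, ← mul_sum,
        ite_mul, zero_mul, sum_ite_eq, sq, mul_assoc]
      congr 4
      exact sum_congr rfl fun k hk => if_pos hk
    have h2 := mul_nonneg (le_of_lt (one_div_pos.2 hZ)) (sum_nonneg fun i (_ : i ∈ univ) => h i)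
    refine h2.trans_eq ?_
    simp only [Pauli, F.t3_apply, F.t4_apply, sum_add_distrib, sum_sub_distrib, ← mul_sum, mul_sub]
    have e1 : ∑ i, ∑ k ∈ range K, mq (1 / Q) k *
          ip (Phi3 (m := n + 1) (F.v i) (P k)) (Phi3 (m := n + 1) (F.v i) (P k)) =
        ∑ k ∈ range K, mq (1 / Q) k * ∑ i,
          ip (Phi3 (m := n + 1) (F.v i) (P k)) (Phi3 (m := n + 1) (F.v i) (P k)) := by
      rw [sum_comm]; simp only [mul_sum]
    have e2 : ∑ i, ∑ k ∈ range K, ∑ k' ∈ range K, ip (Phi4 (F.v i) (emb (P k) * X 2 ^ k'))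
          (Phi4 (F.v i) (emb (P k') * X 2 ^ k)) = ∑ k ∈ range K, ∑ k' ∈ range K, ∑ i,
          ip (Phi4 (F.v i) (emb (P k) * X 2 ^ k')) (Phi4 (F.v i) (emb (P k') * X 2 ^ k)) := by
      rw [sum_comm]; exact sum_congr rfl fun _ _ => sum_comm
    have e3 : ∀ k, mq (1 / Q) k * (((n : ℝ) + 2) / F.T2 0 * ∑ i,
          ip (Phi3 (m := n + 1) (F.v i) (P k)) (Phi3 (m := n + 1) (F.v i) (P k))) =
        ((n : ℝ) + 2) / F.T2 0 * (mq (1 / Q) k * ∑ i,
          ip (Phi3 (m := n + 1) (F.v i) (P k)) (Phi3 (m := n + 1) (F.v i) (P k))) :=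
      fun k => by ring
    rw [e1, e2, sum_comm (s := univ) (t := range K)]
    simp only [e3, ← mul_sum]
    have : ∑ i, ip (ann2 (bt Q 0) (F.v i)) (ann2 (bt Q 0) (F.v i)) = F.T2 0 := rfl
    rw [this]
    field_simp
  · have h : ∀ i, E * ip (ann2 (bt Q 0) (F.v i)) (ann2 (bt Q 0) (F.v i)) =
        ip (ann2 (bt Q 0) (F.v i)) (ann2 (bt Q 0) (F.v i)) -
        ∑ m ∈ range (2 * Q - 1), ((n : ℝ) + 2) *
          (ip (Phi3 (m := n + 1) (F.v i) (X 1 ^ (m + 1))) (Phi3 (m := n + 1) (F.v i) (X 0 ^ m * X 1))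
           - ((m : ℝ) - 1) * ip (Phi3 (m := n + 1) (F.v i) (X 1 ^ m))
            (Phi3 (m := n + 1) (F.v i) (X 0 ^ m))) / Nq (1 / Q) m +
        ∑ m ∈ range (2 * Q - 1), ((n : ℝ) + 2) * (n + 1) *
          ip (Phi4 (F.v i) ((X 2 - X 1) * (X 1 + X 2) ^ m))
            (Phi4 (F.v i) ((X 2 - X 1) * (X 1 + X 2) ^ m)) / (4 * Nq (1 / Q) m) := by
      intro i
      have h1 := local_id (n := n + 1) (F.anti i) (bt Q 0) (bt_anti 0) (KQ Q)
      rw [F.eig, ann2_proj hQ, mid_eval hQ (F.anti i), ip_hamR_anti ((F.anti i).ann2 _)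
        ((F.anti i).ann2 _), KQ, ip_op2_01, map_smul, map_smul, smul_eq_mul, mul_sum, mul_sum] at h1
      rw [h1, sub_eq_add_neg, ← sum_neg_distrib]
      congr 1
      · congr 1
        refine sum_congr rfl fun m _ => ?_
        push_cast; ring
      · refine sum_congr rfl fun m _ => ?_
        rw [Phi4_pair]; ring
    have h2 := sum_congr rfl fun i (_ : i ∈ univ) => h i
    rw [← mul_sum, sum_add_distrib, sum_sub_distrib, sum_comm, sum_comm (s := univ)] at h2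
    have : ∑ i, ip (ann2 (bt Q 0) (F.v i)) (ann2 (bt Q 0) (F.v i)) = F.T2 0 := rfl
    rw [this] at h2
    have h3 : E = (E * F.T2 0) / F.T2 0 := by field_simp
    refine h3.trans ?_
    rw [h2, add_div, sub_div, div_self hZ.ne', sum_div, sum_div]
    congr 1
    · congr 1
      refine sum_congr rfl fun m _ => ?_
      simp only [F.t3_apply, ← sum_div, ← mul_sum, sum_sub_distrib]
      ring
    · refine sum_congr rfl fun m _ => ?_
      simp only [F.t4_apply, ← sum_div, ← mul_sum]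
      ring

end

end Vale.Agent.P359
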