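import Vale.Agent.P359.Sos
import Vale.Agent.P359.ChkB
import Vale.Agent.P359.ChkC

namespace Vale.Agent.P359

open Finset MvPolynomial

noncomputable section

variable {τ3 : R2 →ₗ[ℝ] R2 →ₗ[ℝ] ℝ} {τ4 : R3 →ₗ[ℝ] R3 →ₗ[ℝ] ℝ}

theorem Lim.Wpos (H : Lim τ3 τ4) (t : ℕ) (ht : t < 37) :
    0 ≤ ∑ a ∈ range 13, ∑ b ∈ range 13, (W t a b : ℝ) * eta τ4 t a b := by
  have hc : chkW t = true := by
    by_cases h : t < 19
    · exact chkW_lo t (Nat.zero_le _) h
    · exact chkW_hi t (by omega) ht
  have h := psd_sound 13 _ hc (eta τ4 t) (H.eta_psd t)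
  have hr := chkR_all t (Nat.zero_le _) ht
  simp only [chkR, allTo_iff] at hr
  have hp : ∑ a ∈ range 13, ∑ b ∈ range 13, (pen t a b : ℝ) * eta τ4 t a b = 0 := by
    simp only [pen, sumQ_eq]
    calc _ = ∑ a ∈ range 13, ∑ i ∈ range (Rn t), ∑ b ∈ range 13,
          ((Ru t i a * Ru t i b : ℤ) : ℝ) * eta τ4 t a b / 2 ^ Re t i := by
          refine sum_congr rfl fun a _ => ?_
          rw [sum_comm]
          refine sum_congr rfl fun b _ => ?_
          push_cast
          rw [sum_mul]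
          exact sum_congr rfl fun i _ => by ring
      _ = 0 := by
          rw [sum_comm]
          refine sum_eq_zero fun i hi => ?_
          simp only [← sum_div]
          rw [H.evRel t (Ru t i) (hr i (mem_range.1 hi)), zero_div]
  push_cast at h
  simp only [add_mul, sum_add_distrib, hp, add_zero] at h
  exact h

theorem Lim.sosG_eval (H : Lim τ3 τ4) (w : ℕ) :
    ∑ a ∈ range 13, ∑ b ∈ range 13, (G w a b : ℝ) * Bw τ3 τ4 w a b =
      ∑ a ∈ range 13, (if valid w a then (G w a a : ℝ) * (oneI (a + 2 - w) : ℝ) else 0) * nu τ3 a -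
      ∑ t ∈ range 37, ∑ a ∈ range 13, ∑ b ∈ range 13, (if (valid w a ∧ valid w b) ∧ a ≤ t then
        (G w a b : ℝ) * (PTt (a + 2 - w) (b + 2 - w) (t - a) : ℝ) else 0) * eta τ4 t a b +
      (if w = 2 then ∑ a ∈ range 13, (if 1 ≤ a then 2 * (G 2 a 0 : ℝ) * (crossQ a : ℝ) else 0) *
        nu τ3 a + (G 2 0 0 : ℝ) else 0) := by
  simp only [Bw, mul_add, mul_sub, sum_add_distrib, sum_sub_distrib, add_assoc]
  congr 1
  · congr 1
    · refine sum_congr rfl fun a ha => ?_
      rw [sum_eq_single a]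
      · rw [H.one]; split_ifs <;> simp_all; ring
      · intro b _ hb
        rw [H.one, if_neg (fun h => hb h.2.symm), mul_zero]
      · intro h; exact absurd ha h
    · rw [sum_comm (s := range 37)]
      refine sum_congr rfl fun a ha => ?_
      rw [sum_comm (s := range 37)]
      refine sum_congr rfl fun b _ => ?_
      rw [H.exch w a b (mem_range.1 ha), mul_sum]
      refine sum_congr rfl fun t _ => ?_
      split_ifs
      · ring
      · simp
  · by_cases hw : w = 2
    · subst hw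
      rw [if_pos rfl]
      congr 1
      · refine sum_congr rfl fun a ha => ?_
        rw [sum_eq_single 0]
        · rw [H.cross a (mem_range.1 ha)]
          simp only [cw]
          split_ifs <;> simp_all; ring
        · intro b _ hb; simp [cw, hb]
        · simp
      · rw [sum_eq_single 0]
        · rw [sum_eq_single 0]
          · simp [cw]
          · intro b _ hb; simp [cw, hb]
          · simp
        · intro b _ hb; simp [cw, hb]
        · simp
    · simp [cw, hw]

theorem sum_cut (f : ℕ → ℝ) : ∑ l ∈ range 33, (if 1 ≤ l ∧ l ≤ 12 then f l else 0) =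
    ∑ a ∈ range 13, (if 1 ≤ a then f a else 0) := by
  simp [sum_range_succ]

theorem Lim.final (H : Lim τ3 τ4) :
    8 / 100 ≤ 1 - Aterm τ3 (fun n => (fw 2 n : ℝ)) + Hterm τ4 (fun n => (fw 2 n : ℝ)) := by
  have hc0 : (c0 : ℝ) ≤ 92 / 100 := by
    have := c0_le
    have h2 : ((c0 : ℚ) : ℝ) ≤ ((92 / 100 : ℚ) : ℝ) := by exact_mod_cast this
    push_cast at h2; exact h2
  have hc : (c0 : ℝ) = (G 2 0 0 : ℝ) + ∑ k ∈ range 33, (bq k : ℝ) * (k.factorial : ℝ) := by
    simp only [c0, sumQ_eq]; push_cast; rfl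
  -- pair Pauli bounds
  have hB : ∑ l ∈ range 33, (∑ k ∈ range 33, (bq k : ℝ) * (t3 0 k 0 k l : ℝ)) * nu τ3 l ≤
      ∑ k ∈ range 33, (bq k : ℝ) * (k.factorial : ℝ) := by
    simp only [sum_mul]
    rw [sum_comm]
    refine sum_le_sum fun k hk => ?_
    have h1 := H.ev3 0 k 0 k rfl (by have := mem_range.1 hk; omega)
    simp only [pow_zero, one_mul] at h1
    have h2 := H.pauli2 k
    have h3 : (0 : ℝ) ≤ (bq k : ℝ) := by
      have : (0 : ℚ) ≤ bq k := by unfold bq; positivity
      exact_mod_cast this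
    simp only [mul_assoc, ← mul_sum]
    rw [← h1]
    exact mul_le_mul_of_nonneg_left h2 h3
  -- slack bounds
  have hE : ∑ t ∈ range 37, ∑ a ∈ range 13, (if 1 ≤ a ∧ a ≤ t then (sd a (t - a) : ℝ) else 0) *
      eta τ4 t a a ≤ ∑ a ∈ range 13, (if 1 ≤ a then
        (∑ k ∈ range 25, (eq a k : ℝ) * (k.factorial : ℝ)) * nu τ3 a else 0) := by
    rw [sum_comm]
    refine sum_le_sum fun a ha => ?_
    by_cases h1 : 1 ≤ a
    · rw [if_pos h1, sum_mul]
      calc _ = ∑ k ∈ range 25, (eq a k : ℝ) * ∑ t ∈ range 37, (if a ≤ t ∧ t - a ≤ k then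
          ((co4 0 k (k - (t - a)) * co4 0 k (k - (t - a)) * fw 4 (k - (t - a)) : ℤ) : ℝ) / 16 ^ k
          else 0) * eta τ4 t a a := by
            simp only [mul_sum]
            rw [sum_comm (s := range 25)]
            refine sum_congr rfl fun t _ => ?_
            by_cases h2 : a ≤ t
            · simp only [h1, h2, true_and, if_true, sd, sumQ_eq]
              push_cast
              rw [sum_mul]
              refine sum_congr rfl fun k _ => ?_
              split_ifs
              · push_cast; ring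
              · simp
            · simp [h2]
        _ ≤ _ := by
            refine sum_le_sum fun k hk => ?_
            have h3 : (0 : ℝ) ≤ (eq a k : ℝ) := by
              have : (0 : ℚ) ≤ eq a k := by unfold eq fw; positivity
              exact_mod_cast this
            rw [mul_assoc]
            exact mul_le_mul_of_nonneg_left
              (H.sosE a k h1 (mem_range.1 ha) (mem_range.1 hk)) h3
    · simp [h1]
  -- the main squares
  have hG : 0 ≤ ∑ a ∈ range 13, (if 1 ≤ a then (∑ w ∈ range 15,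
        (if valid w a then (G w a a : ℝ) * (oneI (a + 2 - w) : ℝ) else 0)) * nu τ3 a else 0) -
      ∑ t ∈ range 37, ∑ a ∈ range 13, ∑ b ∈ range 13,
        (if (1 ≤ a ∧ 1 ≤ b) ∧ a ≤ t ∧ b ≤ t then (Wi t a b : ℝ) / 2 ^ 330 else 0) * eta τ4 t a b +
      (∑ a ∈ range 13, (if 1 ≤ a then 2 * (G 2 a 0 : ℝ) * (crossQ a : ℝ) * nu τ3 a else 0) +
        (G 2 0 0 : ℝ)) := by
    have h0 : 0 ≤ ∑ w ∈ range 15, ∑ a ∈ range 13, ∑ b ∈ range 13,
        (G w a b : ℝ) * Bw τ3 τ4 w a b :=
      sum_nonneg fun w hw => H.sosG w (mem_range.1 hw)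
    refine h0.trans_eq ?_
    simp only [H.sosG_eval, sum_add_distrib, sum_sub_distrib]
    congr 1
    · congr 1
      · rw [sum_comm]
        refine sum_congr rfl fun a _ => ?_
        by_cases h1 : 1 ≤ a
        · rw [if_pos h1, sum_mul]
        · have : ∀ w, ¬ valid w a := fun w h => h1 h.1
          simp [h1, this]
      · rw [sum_comm]
        refine sum_congr rfl fun t _ => ?_
        rw [sum_comm]
        refine sum_congr rfl fun a _ => ?_
        rw [sum_comm]
        refine sum_congr rfl fun b _ => ?_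
        by_cases h1 : (1 ≤ a ∧ 1 ≤ b) ∧ a ≤ t ∧ b ≤ t
        · rw [if_pos h1, Wi, sumZ_eq]
          push_cast
          rw [sum_div, sum_mul]
          refine sum_congr rfl fun w _ => ?_
          by_cases h2 : valid w a ∧ valid w b
          · rw [if_pos ⟨h2, h1.2.1⟩, if_pos h2]
            have : Int.mul (Gi w a b) (PTt (a + 2 - w) (b + 2 - w) (t - a)) =
              Gi w a b * PTt (a + 2 - w) (b + 2 - w) (t - a) := rfl
            rw [this]
            simp only [G]
            push_cast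
            ring
          · rw [if_neg (fun h => h2 h.1), if_neg h2]; simp
        · rw [if_neg h1, zero_mul]
          refine sum_eq_zero fun w _ => ?_
          split_ifs with h2
          · have h3 : ¬ b ≤ t := fun h => h1 ⟨⟨h2.1.1.1, h2.1.2.1⟩, h2.2, h⟩
            have h4 : b ≠ 0 := by have := h2.1.2.1; omega
            simp [eta, hh, h3, h4]
          · simp
    · rw [sum_ite_eq' (range 15) 2, if_pos (by simp)]
      congr 1
      refine sum_congr rfl fun a _ => ?_
      split_ifs <;> simp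
  -- one-body slacks
  have hS : 0 ≤ ∑ l ∈ range 33, (sl l : ℝ) * nu τ3 l := by
    refine sum_nonneg fun l hl => ?_
    have h1 := chkS_ok
    simp only [chkS, allTo_iff, Bool.or_eq_true, decide_eq_true_eq] at h1
    rcases h1 l (mem_range.1 hl) with h | h
    · rw [nu, H.rel3 l h, mul_zero]
    · exact mul_nonneg (by exact_mod_cast h) (H.pos3 _)
  have hS' : ∑ l ∈ range 33, (sl l : ℝ) * nu τ3 l = - ∑ l ∈ range 33, (aK l : ℝ) * nu τ3 l +
      ∑ l ∈ range 33, (∑ k ∈ range 33, (bq k : ℝ) * (t3 0 k 0 k l : ℝ)) * nu τ3 l -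
      (∑ a ∈ range 13, (if 1 ≤ a then (∑ w ∈ range 15,
        (if valid w a then (G w a a : ℝ) * (oneI (a + 2 - w) : ℝ) else 0)) * nu τ3 a else 0) +
      ∑ a ∈ range 13, (if 1 ≤ a then 2 * (G 2 a 0 : ℝ) * (crossQ a : ℝ) * nu τ3 a else 0) +
      ∑ a ∈ range 13, (if 1 ≤ a then
        (∑ k ∈ range 25, (eq a k : ℝ) * (k.factorial : ℝ)) * nu τ3 a else 0)) := by
    rw [← sum_cut, ← sum_cut, ← sum_cut, ← sum_add_distrib, ← sum_add_distrib, ← sum_neg_distrib,
      ← sum_add_distrib, ← sum_sub_distrib]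
    refine sum_congr rfl fun l _ => ?_
    simp only [sl, sumQ_eq]
    split_ifs
    · push_cast
      have : ∀ w, (((if valid w l then G w l l * (oneI (l + 2 - w) : ℚ) else 0 : ℚ)) : ℝ) =
          if valid w l then (G w l l : ℝ) * (oneI (l + 2 - w) : ℝ) else 0 := by
        intro w; split_ifs <;> simp
      simp only [this]
      ring
    · push_cast; ring
  have hW : 0 ≤ ∑ t ∈ range 37, ∑ a ∈ range 13, ∑ b ∈ range 13, (W t a b : ℝ) * eta τ4 t a b :=
    sum_nonneg fun t ht => H.Wpos t (mem_range.1 ht)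
  have hW' : ∑ t ∈ range 37, ∑ a ∈ range 13, ∑ b ∈ range 13, (W t a b : ℝ) * eta τ4 t a b =
      ∑ t ∈ range 37, (if 1 ≤ t then (hco (t - 1) : ℝ) else 0) * eta τ4 t 0 0 +
      ∑ t ∈ range 37, ∑ a ∈ range 13, ∑ b ∈ range 13,
        (if (1 ≤ a ∧ 1 ≤ b) ∧ a ≤ t ∧ b ≤ t then (Wi t a b : ℝ) / 2 ^ 330 else 0) * eta τ4 t a b +
      ∑ t ∈ range 37, ∑ a ∈ range 13, (if 1 ≤ a ∧ a ≤ t then (sd a (t - a) : ℝ) else 0) *
        eta τ4 t a a := by
    rw [← sum_add_distrib, ← sum_add_distrib]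
    refine sum_congr rfl fun t _ => ?_
    have e1 : (if 1 ≤ t then (hco (t - 1) : ℝ) else 0) * eta τ4 t 0 0 =
        ∑ a ∈ range 13, ∑ b ∈ range 13, (if a = 0 ∧ b = 0 ∧ 1 ≤ t then (hco (t - 1) : ℝ) else 0) *
          eta τ4 t a b := by
      rw [sum_eq_single 0]
      · rw [sum_eq_single 0]
        · simp
        · intro b _ hb; simp [hb]
        · simp
      · intro b _ hb; simp [hb]
      · simp
    have e2 : ∀ a ∈ range 13, (if 1 ≤ a ∧ a ≤ t then (sd a (t - a) : ℝ) else 0) * eta τ4 t a a =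
        ∑ b ∈ range 13, (if a = b ∧ 1 ≤ a ∧ a ≤ t then (sd a (t - a) : ℝ) else 0) *
          eta τ4 t a b := by
      intro a ha
      rw [sum_eq_single a]
      · simp
      · intro b _ hb; simp [Ne.symm hb]
      · intro h; exact absurd ha h
    rw [e1, sum_congr rfl e2, ← sum_add_distrib, ← sum_add_distrib]
    refine sum_congr rfl fun a _ => ?_
    rw [← sum_add_distrib, ← sum_add_distrib]
    refine sum_congr rfl fun b _ => ?_
    rw [← add_mul, ← add_mul]
    congr 1
    unfold W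
    by_cases h1 : a = 0 ∨ b = 0
    · have h2 : ¬ ((1 ≤ a ∧ 1 ≤ b) ∧ a ≤ t ∧ b ≤ t) := by omega
      have h3 : ¬ (a = b ∧ 1 ≤ a ∧ a ≤ t) := by omega
      rw [if_pos h1, if_neg h2, if_neg h3]
      split_ifs <;> simp
    · have h2 : ¬ (a = 0 ∧ b = 0 ∧ 1 ≤ t) := by omega
      rw [if_neg h1, if_neg h2]
      by_cases h3 : a ≤ t ∧ b ≤ t
      · rw [if_pos h3, if_pos (show (1 ≤ a ∧ 1 ≤ b) ∧ a ≤ t ∧ b ≤ t by omega)]
        by_cases h4 : a = b
        · rw [if_pos h4, if_pos (show a = b ∧ 1 ≤ a ∧ a ≤ t by omega)]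
          push_cast; ring
        · rw [if_neg h4, if_neg (show ¬ (a = b ∧ 1 ≤ a ∧ a ≤ t) by omega)]
          push_cast; ring
      · rw [if_neg h3, if_neg (show ¬ ((1 ≤ a ∧ 1 ≤ b) ∧ a ≤ t ∧ b ≤ t) by omega),
          if_neg (show ¬ (a = b ∧ 1 ≤ a ∧ a ≤ t) by omega)]
        simp
  rw [H.evA, H.evH]
  linarith

end

end Vale.Agent.P359
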