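import Vale.Agent.P359.Fam
import Vale.Agent.P359.Final

namespace Vale.Agent.P359

open Finset MvPolynomial Filter Topology

noncomputable section

variable {Q n : ℕ}

theorem Anti.up {ψ : SQ Q n} (h : Anti ψ) : Anti (Tup Q ψ) := h.one _

theorem Anti.dn {ψ : SQ Q n} (h : Anti ψ) : Anti (Tdn Q ψ) := h.one _

theorem ham_up (hQ : 0 < Q) {φ ψ : SQ Q (n + 2)} (hφ : Anti φ) (hψ : Anti ψ) :
    ip φ (hamR (KQ Q) (Tup Q ψ)) = ip (Tdn Q φ) (hamR (KQ Q) ψ) := by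
  rw [ip_hamR_anti hφ hψ.up, ip_hamR_anti hφ.dn hψ, KQ, ip_op2_01, ip_op2_01]
  congr 1
  simp only [ann2_up hQ, ann2_dn, map_add, map_smul, LinearMap.add_apply, T_adj, mul_add, sum_add_distrib,
    smul_eq_mul]
  congr 1
  obtain ⟨M, hM⟩ : ∃ M, 2 * Q - 1 = M + 1 := ⟨2 * Q - 2, by omega⟩
  rw [hM, sum_range_succ', sum_range_succ _ M, bt_top (M + 1) (by omega)]
  have z : ann2 (0 : Fin (Q + 1) → Fin (Q + 1) → ℝ) φ = 0 := by
    funext r; simp [ann2_apply]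
  simp only [z, map_zero, LinearMap.zero_apply, mul_zero, add_zero, Nat.cast_zero, zero_mul,
    Nat.add_sub_cancel]
  refine sum_congr rfl fun m hm => ?_
  have hm := mem_range.1 hm
  have h1 := Nq_pos (Q := Q) (m := m) (by omega)
  have h2 := Nq_pos (Q := Q) (m := m + 1) (by omega)
  rw [Nq_succ] at h2 ⊢
  have h3 : ((m : ℝ) + 1) * (2 - (m + 2) * (1 / Q)) ≠ 0 := by
    intro h; rw [h, mul_zero] at h2; exact lt_irrefl _ h2
  have h4 : (((m + 1 : ℕ) : ℝ) * (2 - (((m + 1 : ℕ) : ℝ) + 1) * (1 / Q))) =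
      ((m : ℝ) + 1) * (2 - (m + 2) * (1 / Q)) := by push_cast; ring
  rw [h4]
  generalize ((m : ℝ) + 1) * (2 - (m + 2) * (1 / Q)) = c at h3 ⊢
  field_simp

theorem ham_symm {φ ψ : SQ Q (n + 2)} (hφ : Anti φ) (hψ : Anti ψ) :
    ip φ (hamR (KQ Q) ψ) = ip (hamR (KQ Q) φ) ψ := by
  rw [ip_comm (hamR _ φ), ip_hamR_anti hφ hψ, ip_hamR_anti hψ hφ, KQ, ip_op2_01, ip_op2_01]
  simp only [ip_comm (ann2 _ φ)]

def eigSp (Q m : ℕ) (E : ℝ) : Submodule ℝ (EuclideanSpace ℝ (Fin m → Fin (Q + 1))) where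
  carrier := {ψ | Anti ψ.ofLp ∧ hamR (KQ Q) ψ.ofLp = E • ψ.ofLp}
  add_mem' := fun {a b} ha hb => ⟨ha.1.add hb.1, by
    rw [WithLp.ofLp_add, map_add, ha.2, hb.2, smul_add]⟩
  zero_mem' := ⟨Anti.zero, by simp⟩
  smul_mem' := fun c a ha => ⟨ha.1.smul c, by
    rw [WithLp.ofLp_smul, map_smul, ha.2, smul_comm]⟩

theorem inner_eq_ip {m : ℕ} (a b : EuclideanSpace ℝ (Fin m → Fin (Q + 1))) :
    inner ℝ a b = ip a.ofLp b.ofLp := by
  simp [PiLp.inner_apply, ip_apply, mul_comm]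

theorem exists_fam (hQ : 0 < Q) {E : ℝ} {ψ : SQ Q (n + 4)} (hψ : Anti ψ) (h0 : ψ ≠ 0)
    (he : hamR (KQ Q) ψ = E • ψ) : Nonempty (Fam Q n E) := by
  let V := eigSp Q (n + 4) E
  let b := stdOrthonormalBasis ℝ V
  let v : Fin (Module.finrank ℝ V) → SQ Q (n + 4) := fun i => (b i).1.ofLp
  have hexp : ∀ χ : SQ Q (n + 4), Anti χ → hamR (KQ Q) χ = E • χ →
      χ = ∑ j, ip (v j) χ • v j := by
    intro χ h1 h2
    have := b.sum_repr' (⟨WithLp.toLp 2 χ, h1, h2⟩ : V)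
    have h3 := congrArg (fun x : V => x.1.ofLp) this
    simp only [Submodule.coe_sum, Submodule.coe_smul, WithLp.ofLp_sum, WithLp.ofLp_smul,
      Submodule.coe_inner, inner_eq_ip] at h3
    exact h3.symm
  have hup : ∀ χ : SQ Q (n + 4), Anti χ → hamR (KQ Q) χ = E • χ →
      hamR (KQ Q) (Tup Q χ) = E • Tup Q χ := by
    intro χ h1 h2
    have key : ∀ w, Anti w → ip w (hamR (KQ Q) (Tup Q χ) - E • Tup Q χ) = 0 := by
      intro w hw
      rw [map_sub, ham_up hQ hw h1, h2, map_smul, map_smul, T_adj, sub_self]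
    exact sub_eq_zero.1 (ip_eq_zero (key _ ((h1.up.hamR KQ_symm).sub (h1.up.smul E))))
  have hdn : ∀ χ : SQ Q (n + 4), Anti χ → hamR (KQ Q) χ = E • χ →
      hamR (KQ Q) (Tdn Q χ) = E • Tdn Q χ := by
    intro χ h1 h2
    have key : ∀ w, Anti w → ip w (hamR (KQ Q) (Tdn Q χ) - E • Tdn Q χ) = 0 := by
      intro w hw
      rw [map_sub, ham_symm hw h1.dn, ip_comm (hamR _ w), ← ham_up hQ h1 hw, ham_symm h1 hw.up, h2,
        map_smul, map_smul, LinearMap.smul_apply, T_adj, ip_comm w, sub_self]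
    exact sub_eq_zero.1 (ip_eq_zero (key _ ((h1.dn.hamR KQ_symm).sub (h1.dn.smul E))))
  refine ⟨⟨_, v, fun j i => ip (v j) (Tup Q (v i)), fun i => (b i).2.1, fun i => (b i).2.2,
    fun i => hexp _ ((b i).2.1.up) (hup _ (b i).2.1 (b i).2.2), fun j => ?_, ?_⟩⟩
  · have := hexp _ ((b j).2.1.dn) (hdn _ (b j).2.1 (b j).2.2)
    refine this.trans (sum_congr rfl fun i _ => ?_)
    rw [T_adj, ip_comm]
  · by_contra hc
    push Not at hc
    exact h0 (by rw [hexp ψ hψ he]; simp [hc])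

theorem mq_succ (q : ℝ) (m : ℕ) : mq q (m + 1) = mq q m * cq q m := prod_range_succ _ _

theorem mq_nonneg (hQ : 0 < Q) (k : ℕ) : 0 ≤ mq (1 / Q) k := by
  rw [← wt_sq hQ]; exact mul_self_nonneg _

theorem mq_le1 (hQ : 0 < Q) (m : ℕ) (hm : m < 2 * Q - 1) :
    mq (1 / Q) (m + 1) ≤ ((m : ℝ) + 1) * (1 / 2) ^ m * Nq (1 / Q) m := by
  induction m with
  | zero => simp [mq, cq, Nq]
  | succ m ih =>
    have h1 := ih (by omega)
    have h2 := Nq_pos (Q := Q) (m := m) (by omega)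
    by_cases hk : Q < m + 1 + 1
    · rw [mq_big hQ hk]
      have := Nq_pos hm
      positivity
    · have h3 := cq_nonneg hQ (k := m + 1) (by omega)
      have hq : (0 : ℝ) ≤ 1 / Q := by positivity
      rw [mq_succ, Nq_succ]
      refine (mul_le_mul_of_nonneg_right h1 h3).trans ?_
      simp only [cq]
      push_cast
      have : ((m : ℝ) + 1 + 1) * (1 / 2) ^ (m + 1) *
          (Nq (1 / Q) m * (((m : ℝ) + 1) * (2 - (m + 2) * (1 / Q)))) -
          ((m : ℝ) + 1) * (1 / 2) ^ m * Nq (1 / Q) m *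
          (((m : ℝ) + 1 + 1) * (1 - (m + 1) * (1 / Q))) =
          ((m : ℝ) + 1 + 1) * (m + 1) * (1 / 2) ^ (m + 1) * Nq (1 / Q) m * (m * (1 / Q)) := by
        ring
      have h5 : 0 ≤ ((m : ℝ) + 1 + 1) * (m + 1) * (1 / 2) ^ (m + 1) * Nq (1 / Q) m *
          (m * (1 / Q)) := by positivity
      linarith

theorem mq_le2 (hQ : 3 ≤ Q) (m : ℕ) (h2 : 2 ≤ m) (hm : m < 2 * Q - 1) :
    mq (1 / Q) m ≤ 2 * (1 / 2) ^ m * Nq (1 / Q) m := by
  have hQ0 : 0 < Q := by omega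
  have hq : (0 : ℝ) ≤ 1 / Q := by positivity
  induction m, h2 using Nat.le_induction with
  | base =>
    have h3 : (1 : ℝ) / Q ≤ 1 / 3 :=
      one_div_le_one_div_of_le (by norm_num) (by exact_mod_cast hQ)
    simp only [mq, cq, Nq, prod_range_succ, prod_range_zero]
    push_cast
    nlinarith
  | succ m hm2 ih =>
    have h1 := ih (by omega)
    have h2 := Nq_pos (Q := Q) (m := m) (by omega)
    by_cases hk : Q < m + 1
    · rw [mq_big hQ0 hk]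
      have := Nq_pos hm
      positivity
    · have h3 := cq_nonneg hQ0 (k := m) (by omega)
      rw [mq_succ, Nq_succ]
      refine (mul_le_mul_of_nonneg_right h1 h3).trans ?_
      simp only [cq]
      have : 2 * (1 / 2) ^ (m + 1) *
          (Nq (1 / Q) m * (((m : ℝ) + 1) * (2 - (m + 2) * (1 / Q)))) -
          2 * (1 / 2) ^ m * Nq (1 / Q) m * (((m : ℝ) + 1) * (1 - m * (1 / Q))) =
          2 * (m + 1) * (1 / 2) ^ (m + 1) * Nq (1 / Q) m * ((m - 2) * (1 / Q)) := by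
        ring
      have h6 : (0 : ℝ) ≤ (m : ℝ) - 2 := by
        have : (2 : ℝ) ≤ m := by exact_mod_cast hm2
        linarith
      have h5 : 0 ≤ 2 * ((m : ℝ) + 1) * (1 / 2) ^ (m + 1) * Nq (1 / Q) m *
          ((m - 2) * (1 / Q)) := by positivity
      linarith

theorem geo_tail (M : ℕ) (hM : 26 ≤ M) : ∑ m ∈ Ico 26 M, 2 * (m : ℝ) * (5 / 7) ^ m ≤
    (7 * 26 + 35 / 2) * (5 / 7) ^ 26 - (7 * M + 35 / 2) * (5 / 7) ^ M := by
  induction M, hM using Nat.le_induction with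
  | base => simp
  | succ m hm ih =>
    rw [sum_Ico_succ_top hm]
    push_cast
    have : (7 * ((m : ℝ) + 1) + 35 / 2) * (5 / 7) ^ (m + 1) =
      (7 * m + 35 / 2) * (5 / 7) ^ m - 2 * m * (5 / 7) ^ m := by ring
    linarith

variable {τ3 : R2 →ₗ[ℝ] R2 →ₗ[ℝ] ℝ} {τ4 : R3 →ₗ[ℝ] R3 →ₗ[ℝ] ℝ} {E : ℝ}

theorem FinF.tail (H : FinF (1 / Q) E (2 * Q - 1) τ3 τ4) (hQ : 19 ≤ Q) :
    1 - Aterm τ3 (Nq (1 / Q)) + Hterm τ4 (Nq (1 / Q)) - 4 / 100 ≤ E := by
  have hQ0 : 0 < Q := by omega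
  have cs : ∀ x y, τ3 x y ^ 2 ≤ τ3 x x * τ3 y y := fun x y => by
    have := LinearMap.BilinForm.apply_mul_apply_le_of_forall_zero_le τ3 H.pos3 x y
    rw [← H.symm3 x y, ← sq] at this
    exact this
  have hA : ∀ m ∈ Ico 26 (2 * Q - 1), (τ3 (X 1 ^ (m + 1)) (X 0 ^ m * X 1) -
      ((m : ℝ) - 1) * τ3 (X 1 ^ m) (X 0 ^ m)) / Nq (1 / Q) m ≤ 2 * (m : ℝ) * (5 / 7) ^ m := by
    intro m hm
    obtain ⟨h26, hm⟩ := mem_Ico.1 hm
    have hN := Nq_pos hm
    have hm' : (26 : ℝ) ≤ m := by exact_mod_cast h26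
    have p1 := H.pauli2 0 (m + 1)
    have p2 := H.pauli2 m 1
    have p3 := H.pauli2 0 m
    have p4 := H.pauli2 m 0
    have m0 : mq (1 / Q) 0 = 1 := by simp [mq]
    have m1 : mq (1 / Q) 1 = 1 := by simp [mq, cq]
    simp only [pow_zero, one_mul, mul_one, pow_one, Nq_zero, m0, m1] at p1 p2 p3 p4
    have hr : ((1 : ℝ) / 2) ^ m ≤ ((5 / 7) ^ m) ^ 2 := by
      rw [← pow_mul, mul_comm, pow_mul]
      exact pow_le_pow_left₀ (by norm_num) (by norm_num) m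
    have hr0 : (0 : ℝ) ≤ (1 / 2) ^ m := by positivity
    have b1 : τ3 (X 1 ^ (m + 1)) (X 0 ^ m * X 1) ≤ m / 2 * (5 / 7) ^ m * Nq (1 / Q) m := by
      refine (le_abs_self _).trans (abs_le_of_sq_le_sq ?_ (by positivity))
      calc _ ≤ _ := cs _ _
        _ ≤ (((m : ℝ) + 1) * (1 / 2) ^ m * Nq (1 / Q) m) * Nq (1 / Q) m :=
            mul_le_mul (p1.trans (mq_le1 hQ0 m hm)) p2 (H.pos3 _) (by positivity)
        _ ≤ (((m : ℝ) / 2) ^ 2 * ((5 / 7) ^ m) ^ 2 * Nq (1 / Q) m) * Nq (1 / Q) m := by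
            gcongr
            nlinarith
        _ = _ := by ring
    have b2 : -τ3 (X 1 ^ m) (X 0 ^ m) ≤ 3 / 2 * (5 / 7) ^ m * Nq (1 / Q) m := by
      refine (neg_le_abs _).trans (abs_le_of_sq_le_sq ?_ (by positivity))
      calc _ ≤ _ := cs _ _
        _ ≤ (2 * (1 / 2) ^ m * Nq (1 / Q) m) * Nq (1 / Q) m :=
            mul_le_mul (p3.trans (mq_le2 (by omega) m (by omega) hm)) p4 (H.pos3 _)
              (by positivity)
        _ ≤ (((3 : ℝ) / 2) ^ 2 * ((5 / 7) ^ m) ^ 2 * Nq (1 / Q) m) * Nq (1 / Q) m := by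
            gcongr
            norm_num
        _ = _ := by ring
    rw [div_le_iff₀ hN]
    have b3 := mul_le_mul_of_nonneg_left b2 (show (0 : ℝ) ≤ m - 1 by linarith)
    have b4 : 0 ≤ (5 / 7 : ℝ) ^ m * Nq (1 / Q) m := by positivity
    nlinarith
  have h1 := (sum_le_sum hA).trans (geo_tail (2 * Q - 1) (by omega))
  have h2 : (0 : ℝ) ≤ (7 * ((2 * Q - 1 : ℕ) : ℝ) + 35 / 2) * (5 / 7) ^ (2 * Q - 1) := by positivity
  have h3 : ((7 : ℝ) * 26 + 35 / 2) * (5 / 7) ^ 26 ≤ 4 / 100 := by norm_num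
  have h4 : Hterm τ4 (Nq (1 / Q)) ≤ ∑ m ∈ range (2 * Q - 1),
      τ4 ((X 2 - X 1) * (X 1 + X 2) ^ m) ((X 2 - X 1) * (X 1 + X 2) ^ m) / (4 * Nq (1 / Q) m) :=
    sum_le_sum_of_subset_of_nonneg (range_subset_range.2 (by omega)) fun m hm _ =>
      div_nonneg (H.pos4 _) (by have := Nq_pos (mem_range.1 hm); positivity)
  have h5 := H.main
  rw [← sum_range_add_sum_Ico _ (show 26 ≤ 2 * Q - 1 by omega)] at h5
  unfold Aterm
  linarith

theorem FinF.diag4 {q : ℝ} {M : ℕ} (H : FinF q E M τ3 τ4) (P : R2) (k : ℕ) :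
    τ4 (emb P * X 2 ^ k) (emb P * X 2 ^ k) ≤ mq q k * τ3 P P := by
  have h := H.pauli3 (k + 1) (fun j => if j = k then P else 0) 0
  have e1 : ∑ j ∈ range (k + 1), mq q j * τ3 (if j = k then P else 0)
      (if j = k then P else 0) = mq q k * τ3 P P := by
    rw [sum_eq_single k]
    · simp
    · intro j _ hj; simp [hj]
    · simp
  have e2 : ∑ j ∈ range (k + 1), ∑ j' ∈ range (k + 1),
      τ4 (emb (if j = k then P else 0) * X 2 ^ j') (emb (if j' = k then P else 0) * X 2 ^ j) =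
      τ4 (emb P * X 2 ^ k) (emb P * X 2 ^ k) := by
    rw [sum_eq_single k]
    · rw [sum_eq_single k]
      · simp
      · intro j _ hj; simp [hj]
      · simp
    · intro j _ hj; simp [hj]
    · simp
  simp only [Pauli, e1, e2] at h
  linarith

end

end Vale.Agent.P359
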