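import Vale.Agent.P359.Ann

namespace Vale.Agent.P359

open Finset Function Equiv

noncomputable section

variable {α : Type} {n : ℕ} [Fintype α]

def op2 (K : α → α → α → α → ℝ) (i j : Fin n) : St α n →ₗ[ℝ] St α n where
  toFun ψ x := ∑ c, ∑ d, K (x i) (x j) c d * ψ (update (update x i c) j d)
  map_add' _ _ := by funext r; simp [mul_add, sum_add_distrib]
  map_smul' _ _ := by funext r; simp [mul_sum, mul_left_comm]

theorem op2_apply (K : α → α → α → α → ℝ) (i j : Fin n) (ψ : St α n) (x : Fin n → α) :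
    op2 K i j ψ x = ∑ c, ∑ d, K (x i) (x j) c d * ψ (update (update x i c) j d) := rfl

def hamR (K : α → α → α → α → ℝ) : St α n →ₗ[ℝ] St α n :=
  ∑ i, ∑ j, if i < j then op2 K i j else 0

theorem hamR_eq (K : α → α → α → α → ℝ) (ψ : St α n) :
    hamR K ψ = ∑ i, ∑ j, if i < j then op2 K i j ψ else 0 := by
  simp only [hamR, LinearMap.sum_apply]
  exact sum_congr rfl fun i _ => sum_congr rfl fun j _ => by split_ifs <;> simp

theorem ip_hamR (K : α → α → α → α → ℝ) (φ ψ : St α n) :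
    ip φ (hamR K ψ) = ∑ i, ∑ j, if i < j then ip φ (op2 K i j ψ) else 0 := by
  simp only [hamR_eq, map_sum]
  exact sum_congr rfl fun i _ => sum_congr rfl fun j _ => by split_ifs <;> simp

theorem hamR_apply (K : α → α → α → α → ℝ) (ψ : St α n) (x : Fin n → α) :
    hamR K ψ x = ∑ i, ∑ j, if i < j then op2 K i j ψ x else 0 := by
  simp only [hamR_eq, Finset.sum_apply]
  exact sum_congr rfl fun i _ => sum_congr rfl fun j _ => by split_ifs <;> simp

theorem Anti.op2_perm {ψ : St α n} (h : Anti ψ) (K : α → α → α → α → ℝ) (σ : Perm (Fin n))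
    (i j : Fin n) (x : Fin n → α) :
    op2 K i j ψ (x ∘ σ) = ((Perm.sign σ : ℤ) : ℝ) * op2 K (σ i) (σ j) ψ x := by
  simp only [op2_apply, mul_sum]
  refine sum_congr rfl fun c _ => sum_congr rfl fun d _ => ?_
  have : update (update (x ∘ σ) i c) j d = update (update x (σ i) c) (σ j) d ∘ σ := by
    rw [update_comp_equiv, update_comp_equiv]; simp
  rw [this, h.perm]; simp; ring

theorem op2_symm {K : α → α → α → α → ℝ} (hK : ∀ a b c d, K a b c d = K b a d c) {i j : Fin n}
    (hij : i ≠ j) (ψ : St α n) : op2 K j i ψ = op2 K i j ψ := by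
  funext x
  simp only [op2_apply]
  rw [sum_comm]
  refine sum_congr rfl fun c _ => sum_congr rfl fun d _ => ?_
  rw [hK, update_comm hij.symm]

theorem sum_lt_two (f : Fin n → Fin n → ℝ) (hf : ∀ i j, i ≠ j → f j i = f i j) :
    2 * ∑ i, ∑ j, (if i < j then f i j else 0) = ∑ i, ∑ j, if i ≠ j then f i j else 0 := by
  rw [two_mul]
  nth_rewrite 2 [sum_comm]
  rw [← sum_add_distrib]
  refine sum_congr rfl fun i _ => ?_
  rw [← sum_add_distrib]
  refine sum_congr rfl fun j _ => ?_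
  rcases lt_trichotomy i j with h | h | h
  · simp [h, h.ne, not_lt.2 h.le]
  · simp [h]
  · simp [h, h.ne', not_lt.2 h.le, hf _ _ h.ne]

theorem sum_lt_perm (f : Fin n → Fin n → ℝ) (hf : ∀ i j, i ≠ j → f j i = f i j)
    (σ : Perm (Fin n)) : ∑ i, ∑ j, (if i < j then f (σ i) (σ j) else 0) =
      ∑ i, ∑ j, (if i < j then f i j else 0) := by
  have h1 := sum_lt_two f hf
  have h2 := sum_lt_two (fun i j => f (σ i) (σ j)) (fun i j h => hf _ _ (σ.injective.ne h))
  have h3 : ∑ i, ∑ j, (if i ≠ j then f (σ i) (σ j) else 0) =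
      ∑ i, ∑ j, if i ≠ j then f i j else 0 :=
    Fintype.sum_equiv σ _ _ fun i => Fintype.sum_equiv σ _ _ fun j => by simp
  linarith

theorem Anti.hamR {ψ : St α n} (h : Anti ψ) {K : α → α → α → α → ℝ}
    (hK : ∀ a b c d, K a b c d = K b a d c) : Anti (hamR K ψ) := by
  intro i j hij x
  simp only [hamR_apply, h.op2_perm]
  rw [← sum_lt_perm (fun i j => op2 K i j ψ x) (fun i j h => by rw [op2_symm hK h]) (swap i j),
    ← sum_neg_distrib]
  refine sum_congr rfl fun a _ => ?_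
  rw [← sum_neg_distrib]
  refine sum_congr rfl fun b _ => ?_
  split_ifs <;> simp [Perm.sign_swap hij]

theorem ip_op2_perm {Z ψ : St α n} (h : Anti ψ) (K : α → α → α → α → ℝ) (σ : Perm (Fin n))
    (hZ : ∀ x, Z (x ∘ σ) = ((Perm.sign σ : ℤ) : ℝ) * Z x) (i j : Fin n) :
    ip Z (op2 K (σ i) (σ j) ψ) = ip Z (op2 K i j ψ) := by
  simp only [ip_apply]
  rw [← sum_perm σ (fun x => Z x * op2 K i j ψ x)]
  refine sum_congr rfl fun x _ => ?_
  rw [hZ, h.op2_perm]
  have : ((Perm.sign σ : ℤ) : ℝ) * ((Perm.sign σ : ℤ) : ℝ) = 1 := by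
    rw [← Int.cast_mul, ← Units.val_mul, Int.units_mul_self]; simp
  linear_combination (-(Z x * op2 K (σ i) (σ j) ψ x)) * this

theorem exists_perm01 (i j : Fin (n + 2)) (hij : i ≠ j) :
    ∃ σ : Perm (Fin (n + 2)), σ 0 = i ∧ σ 1 = j := by
  refine ⟨swap 0 i * swap 1 (swap 0 i j), ?_, by simp⟩
  have h1 : (0 : Fin (n + 2)) ≠ swap 0 i j := by
    intro e
    have := congrArg (swap 0 i) e
    simp at this
    exact hij this
  rw [Perm.mul_apply, swap_apply_of_ne_of_ne (by simp) h1, swap_apply_left]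

theorem sum_lt_succ (f : Fin (n + 1) → Fin (n + 1) → ℝ) :
    ∑ i, ∑ j, (if i < j then f i j else 0) =
      ∑ j : Fin n, f 0 j.succ + ∑ i : Fin n, ∑ j : Fin n, if i < j then f i.succ j.succ else 0 := by
  simp [Fin.sum_univ_succ]

theorem sum_lt_const (c : ℝ) :
    ∑ i : Fin n, ∑ j : Fin n, (if i < j then c else 0) = (n : ℝ) * (n - 1) / 2 * c := by
  induction n with
  | zero => simp
  | succ n ih => rw [sum_lt_succ (fun _ _ => c), ih]; simp; ring

theorem ip_hamR_anti {φ ψ : St α (n + 2)} (hφ : Anti φ) (hψ : Anti ψ)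
    (K : α → α → α → α → ℝ) :
    ip φ (hamR K ψ) = ((n : ℝ) + 2) * (n + 1) / 2 * ip φ (op2 K 0 1 ψ) := by
  have := sum_lt_const (n := n + 2) (ip φ (op2 K 0 1 ψ))
  push_cast at this
  rw [ip_hamR, show ((n : ℝ) + 1) = n + 2 - 1 by ring, ← this]
  refine sum_congr rfl fun i _ => sum_congr rfl fun j _ => ?_
  split_ifs with h
  · obtain ⟨σ, h0, h1⟩ := exists_perm01 i j h.ne
    rw [← ip_op2_perm hψ K σ (hφ.perm σ) 0 1, h0, h1]
  · rfl

def ker2 (M : ℕ) (b : ℕ → α → α → ℝ) (w : ℕ → ℝ) (a a' c d : α) : ℝ :=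
  ∑ m ∈ range M, w m * (b m a a' * b m c d)

theorem op2_01 (M : ℕ) (b : ℕ → α → α → ℝ) (w : ℕ → ℝ) (ψ : St α (n + 2)) (a a' : α)
    (r : Fin n → α) : op2 (ker2 M b w) 0 1 ψ (cs a (cs a' r)) =
      ∑ m ∈ range M, w m * (b m a a' * ann2 (b m) ψ r) := by
  simp only [op2_apply, ker2, ann2_apply, sum_mul, mul_sum, cs_zero, cs_one, upd_cs_zero,
    upd_cs_one]
  calc _ = ∑ c, ∑ m ∈ range M, ∑ d, w m * (b m a a' * b m c d) * ψ (cs c (cs d r)) :=
        sum_congr rfl fun _ _ => sum_comm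
    _ = _ := by
        rw [sum_comm]
        exact sum_congr rfl fun m _ => sum_congr rfl fun c _ => sum_congr rfl fun d _ => by ring

theorem ip_op2_01 (M : ℕ) (b : ℕ → α → α → ℝ) (w : ℕ → ℝ) (φ ψ : St α (n + 2)) :
    ip φ (op2 (ker2 M b w) 0 1 ψ) =
      ∑ m ∈ range M, w m * ip (ann2 (b m) φ) (ann2 (b m) ψ) := by
  simp only [ip_apply, sum_cs (n := n + 1), sum_cs (n := n), op2_01]
  calc _ = ∑ a, ∑ a', ∑ m ∈ range M, ∑ r, φ (cs a (cs a' r)) *
          (w m * (b m a a' * ann2 (b m) ψ r)) := by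
        refine sum_congr rfl fun a _ => sum_congr rfl fun a' _ => ?_
        rw [sum_comm]; simp only [mul_sum]
    _ = ∑ a, ∑ m ∈ range M, ∑ r, ∑ a', φ (cs a (cs a' r)) *
          (w m * (b m a a' * ann2 (b m) ψ r)) := by
        refine sum_congr rfl fun a _ => ?_
        rw [sum_comm]
        exact sum_congr rfl fun m _ => sum_comm
    _ = _ := by
        rw [sum_comm]
        refine sum_congr rfl fun m _ => ?_
        rw [sum_comm, mul_sum]
        refine sum_congr rfl fun r _ => ?_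
        rw [ann2_apply (b m) φ, sum_mul, mul_sum]
        refine sum_congr rfl fun a _ => ?_
        rw [sum_mul, mul_sum]
        exact sum_congr rfl fun a' _ => by ring

def lift2 (φ : α → α → ℝ) (B : St α n) : St α (n + 2) :=
  fun x => φ (x 0) (x 1) * B (Fin.tail (Fin.tail x))

omit [Fintype α] in
theorem lift2_cs (φ : α → α → ℝ) (B : St α n) (a b : α) (r : Fin n → α) :
    lift2 φ B (cs a (cs b r)) = φ a b * B r := by
  simp [lift2, cs]

theorem ip_lift2 (φ : α → α → ℝ) (B : St α n) (χ : St α (n + 2)) :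
    ip (lift2 φ B) χ = ip B (ann2 φ χ) := by
  simp only [ip_apply, sum_cs (n := n + 1), sum_cs (n := n), lift2_cs, ann2_apply, mul_sum]
  calc _ = ∑ a, ∑ r, ∑ b, φ a b * B r * χ (cs a (cs b r)) := sum_congr rfl fun _ _ => sum_comm
    _ = _ := by
      rw [sum_comm]
      exact sum_congr rfl fun r _ => sum_congr rfl fun a _ => sum_congr rfl fun b _ => by ring

theorem ann2_op2 (φ : α → α → ℝ) (K : α → α → α → α → ℝ) (i j : Fin n) (ψ : St α (n + 2)) :
    ann2 φ (op2 K i.succ.succ j.succ.succ ψ) = op2 K i j (ann2 φ ψ) := by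
  funext r
  simp only [ann2_apply, op2_apply, cs_succ, upd_cs_succ, mul_sum]
  calc _ = ∑ a, ∑ c, ∑ d, ∑ b,
        φ a b * (K (r i) (r j) c d * ψ (cs a (cs b (update (update r i c) j d)))) := by
        refine sum_congr rfl fun a _ => ?_
        rw [sum_comm]
        exact sum_congr rfl fun c _ => sum_comm
    _ = _ := by
        rw [sum_comm]
        refine sum_congr rfl fun c _ => ?_
        rw [sum_comm]
        exact sum_congr rfl fun d _ => sum_congr rfl fun a _ => sum_congr rfl fun b _ => by ring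

omit [Fintype α] in
theorem all_cs2 {P : (Fin (n + 2) → α) → Prop} (h : ∀ a b r, P (cs a (cs b r))) (x) : P x := by
  have : x = cs (x 0) (cs (x 1) (Fin.tail (Fin.tail x))) := by
    funext k
    refine Fin.cases rfl (fun k => Fin.cases rfl (fun k => ?_) k) k
    simp [Fin.tail]
  rw [this]; exact h _ _ _

theorem local_id {ψ : St α (n + 3)} (hψ : Anti ψ) (φ : α → α → ℝ) (hφ : ∀ a b, φ b a = -φ a b)
    (K : α → α → α → α → ℝ) :
    ip (ann2 φ ψ) (ann2 φ (hamR K ψ)) = ip (ann2 φ ψ) (ann2 φ (op2 K 0 1 ψ)) +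
      2 * ((n : ℝ) + 1) * ip (ann2 φ ψ) (ann2 φ (op2 K 1 2 ψ)) +
      ip (ann2 φ ψ) (hamR K (ann2 φ ψ)) := by
  set B := ann2 φ ψ with hB
  have hBa : Anti B := hψ.ann2 φ
  have h1 : ∀ j : Fin (n + 1), ip (lift2 φ B) (op2 K (Fin.succ 0) j.succ.succ ψ) =
      ip B (ann2 φ (op2 K 1 2 ψ)) := by
    intro j
    rw [← ip_lift2]
    by_cases hj : j = 0
    · subst hj; rfl
    · have := ip_op2_perm (Z := lift2 φ B) hψ K (swap (0 : Fin (n + 1)).succ.succ j.succ.succ)
        (by
          refine all_cs2 fun a b r => ?_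
          rw [cs_swap_succ, cs_swap_succ, lift2_cs, lift2_cs, hBa _ _ (Ne.symm hj),
            Perm.sign_swap (fun e => hj (Fin.succ_injective _ (Fin.succ_injective _ e)).symm)]
          simp) 1 2
      rw [swap_apply_of_ne_of_ne (Fin.succ_succ_ne_one _).symm (Fin.succ_succ_ne_one _).symm,
        show (2 : Fin (n + 3)) = (0 : Fin (n + 1)).succ.succ from rfl, swap_apply_left] at this
      exact this
  have h0 : ∀ j : Fin (n + 1), ip (lift2 φ B) (op2 K 0 j.succ.succ ψ) =
      ip B (ann2 φ (op2 K 1 2 ψ)) := by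
    intro j
    rw [← h1 j]
    have := ip_op2_perm (Z := lift2 φ B) hψ K (swap 0 1)
        (by
          refine all_cs2 fun a b r => ?_
          rw [cs_swap01, lift2_cs, lift2_cs, hφ, Perm.sign_swap (by simp)]
          simp) 0 j.succ.succ
    rw [swap_apply_left, swap_apply_of_ne_of_ne (Fin.succ_ne_zero _) (Fin.succ_succ_ne_one _)]
      at this
    exact this.symm
  rw [← ip_lift2, ip_hamR, sum_lt_succ (fun i j => ip (lift2 φ B) (op2 K i j ψ)),
    sum_lt_succ (fun i j => ip (lift2 φ B) (op2 K i.succ j.succ ψ)), Fin.sum_univ_succ, ip_hamR]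
  simp only [h0, h1, ip_lift2 φ B (op2 K (Fin.succ (Fin.succ _)) _ ψ), ann2_op2, ← hB]
  rw [ip_lift2]
  simp
  ring

theorem mid_term {ψ : St α (n + 3)} (hψ : Anti ψ) (φ : α → α → ℝ) (B : St α (n + 1))
    (M : ℕ) (b : ℕ → α → α → ℝ) (w : ℕ → ℝ) [DecidableEq α] :
    ip B (ann2 φ (op2 (ker2 M b w) 1 2 ψ)) = ∑ m ∈ range M, w m * ∑ a,
      ip (ann (fun e => ∑ c, φ a c * b m c e) B)
        (ann (fun e => if e = a then 1 else 0) (ann2 (b m) ψ)) := by
  have e1 : ∀ a c e (r : Fin n → α), op2 (ker2 M b w) 1 2 ψ (cs a (cs c (cs e r))) =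
      ∑ m ∈ range M, w m * (b m c e * ann2 (b m) ψ (cs a r)) := by
    intro a c e r
    rw [← op2_01]
    simp only [op2_apply]
    refine sum_congr rfl fun u _ => sum_congr rfl fun v _ => ?_
    rw [show (2 : Fin (n + 3)) = Fin.succ 1 from rfl]
    simp only [cs_one, cs_succ, upd_cs_one, upd_cs_succ, cs_zero, upd_cs_zero]
    rw [hψ.sw01 u a, (hψ.slice u).sw01 v a r, neg_neg]
  simp only [ip_apply, sum_cs (n := n), ann2_apply φ, e1, ann_apply, mul_sum, sum_mul, ite_mul,
    one_mul, zero_mul, sum_ite_eq', mem_univ, if_true]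
  calc _ = ∑ e, ∑ r, ∑ m ∈ range M, ∑ a, ∑ c,
        B (cs e r) * (φ a c * (w m * (b m c e * ann2 (b m) ψ (cs a r)))) := by
        refine sum_congr rfl fun e _ => sum_congr rfl fun r _ => ?_
        rw [sum_comm (s := range M)]
        exact sum_congr rfl fun a _ => sum_comm
    _ = ∑ e, ∑ m ∈ range M, ∑ a, ∑ r, ∑ c,
        B (cs e r) * (φ a c * (w m * (b m c e * ann2 (b m) ψ (cs a r)))) := by
        refine sum_congr rfl fun e _ => ?_
        rw [sum_comm]
        exact sum_congr rfl fun m _ => sum_comm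
    _ = _ := by
        rw [sum_comm]
        refine sum_congr rfl fun m _ => ?_
        rw [sum_comm]
        refine sum_congr rfl fun a _ => ?_
        rw [sum_comm]
        exact sum_congr rfl fun r _ => sum_congr rfl fun e _ => sum_congr rfl fun c _ => by ring

end

end Vale.Agent.P359
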