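import Vale.Agent.P359.Fam

namespace Vale.Agent.P359

open Finset MvPolynomial Equiv

noncomputable section

variable {N Q : ℕ}

def sb (i j : Fin N) : MvPolynomial (Fin N) ℝ →ₐ[ℝ] MvPolynomial (Fin N) ℝ :=
  rename fun k => if k = j then i else k

theorem dvd_sub_sb (i j : Fin N) (g : MvPolynomial (Fin N) ℝ) : X i - X j ∣ g - sb i j g := by
  induction g using MvPolynomial.induction_on with
  | C a => simp [sb]
  | add p q hp hq =>
    rw [map_add, add_sub_add_comm]; exact dvd_add hp hq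
  | mul_X p k hp =>
    have e : p * X k - sb i j (p * X k) = (p - sb i j p) * X k + sb i j p * (X k - sb i j (X k)) := by
      rw [map_mul]; ring
    rw [e]
    refine dvd_add (hp.mul_right _) (Dvd.dvd.mul_left ?_ _)
    simp only [sb, rename_X]
    split_ifs with h
    · rw [h, ← neg_sub (X i)]; exact (dvd_refl (X i - X j : MvPolynomial (Fin N) ℝ)).neg_right
    · simp

theorem sb_lin (i j : Fin N) : sb i j (X i - X j) = 0 := by simp [sb]

theorem dvd_iff_sb (i j : Fin N) (g : MvPolynomial (Fin N) ℝ) : X i - X j ∣ g ↔ sb i j g = 0 := by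
  constructor
  · rintro ⟨h, rfl⟩; rw [map_mul, sb_lin, zero_mul]
  · intro h; simpa [h] using dvd_sub_sb i j g

theorem lin_ne {i j : Fin N} (h : i ≠ j) : (X i - X j : MvPolynomial (Fin N) ℝ) ≠ 0 :=
  sub_ne_zero.2 fun e => h (X_injective e)

theorem lin_prime {i j : Fin N} (h : i ≠ j) : Prime (X i - X j : MvPolynomial (Fin N) ℝ) := by
  refine ⟨lin_ne h, fun hu => ?_, fun a b hab => ?_⟩
  · have := hu.map (sb i j)
    rw [sb_lin] at this
    exact not_isUnit_zero this
  · simp only [dvd_iff_sb, map_mul] at hab ⊢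
    exact mul_eq_zero.1 hab

theorem cube_dvd {i j : Fin N} (h : i ≠ j) (f : MvPolynomial (Fin N) ℝ)
    (h1 : rename (swap i j) f = -f) (h2 : sb i j (pderiv i f - pderiv j f) = 0) :
    (X i - X j) ^ 3 ∣ f := by
  have anti : ∀ g : MvPolynomial (Fin N) ℝ, rename (swap i j) g = -g → X i - X j ∣ g := by
    intro g hg
    have e : sb i j (rename (swap i j) g) = sb i j g := by
      simp only [sb, rename_rename]
      congr 2
      funext k
      by_cases hi : k = i
      · subst hi; simp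
      · by_cases hj : k = j
        · subst hj; simp
        · simp [swap_apply_of_ne_of_ne hi hj]
    rw [hg, map_neg] at e
    rw [dvd_iff_sb]
    have : (2 : ℝ) • sb i j g = 0 := by rw [two_smul]; linear_combination -e
    exact (smul_eq_zero.1 this).resolve_left (by norm_num)
  obtain ⟨g, rfl⟩ := anti f h1
  have hg : X i - X j ∣ g := by
    have e : pderiv i ((X i - X j) * g) - pderiv j ((X i - X j) * g) =
        (2 : ℝ) • g + (X i - X j) * (pderiv i g - pderiv j g) := by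
      simp [pderiv_X, h, h.symm, two_smul]; ring
    rw [e, map_add, map_mul, sb_lin, zero_mul, add_zero, map_smul] at h2
    rw [dvd_iff_sb]
    exact (smul_eq_zero.1 h2).resolve_left (by norm_num)
  obtain ⟨k, rfl⟩ := hg
  have hk : rename (swap i j) k = -k := by
    simp only [map_mul, map_sub, rename_X, swap_apply_left, swap_apply_right] at h1
    refine mul_left_cancel₀ (mul_ne_zero (lin_ne h) (lin_ne h)) ?_
    linear_combination h1
  obtain ⟨l, rfl⟩ := anti k hk
  exact ⟨l, by ring⟩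

def vdm (N : ℕ) : MvPolynomial (Fin N) ℝ := ∏ i, ∏ j ∈ Ioi i, (X i - X j) ^ 3

theorem vdm_ne : vdm N ≠ 0 :=
  prod_ne_zero_iff.2 fun _ _ => prod_ne_zero_iff.2 fun _ hj =>
    pow_ne_zero _ (lin_ne (mem_Ioi.1 hj).ne)

theorem vdm_dvd (f : MvPolynomial (Fin N) ℝ) (h : ∀ i j, i ≠ j → (X i - X j) ^ 3 ∣ f) :
    vdm N ∣ f := by
  rw [vdm, prod_sigma']
  refine Finset.prod_dvd_of_isRelPrime ?_ fun p hp => h _ _ (mem_Ioi.1 (mem_sigma.1 hp).2).ne
  rintro ⟨i, j⟩ hp ⟨k, l⟩ hq hne
  have hij : i < j := mem_Ioi.1 (mem_sigma.1 (mem_coe.1 hp)).2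
  have hkl : k < l := mem_Ioi.1 (mem_sigma.1 (mem_coe.1 hq)).2
  refine IsRelPrime.pow ((lin_prime hij.ne).irreducible.isRelPrime_iff_not_dvd.2 ?_)
  rw [dvd_iff_sb]
  simp only [sb, map_sub, rename_X]
  refine lin_ne ?_
  have hne' : ¬ (i = k ∧ j = l) := fun e => hne (by obtain ⟨rfl, rfl⟩ := e; rfl)
  split_ifs <;> omega

theorem pair_count (i : Fin N) :
    ∑ a : Fin N, ∑ b ∈ Ioi a, ((if a = i then 1 else 0) + (if b = i then 1 else 0)) = N - 1 := by
  simp only [sum_add_distrib]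
  have h1 : ∑ a : Fin N, ∑ _b ∈ Ioi a, (if a = i then 1 else 0) = N - 1 - i := by
    rw [sum_eq_single i]
    · simp
    · intro b _ hb; simp [hb]
    · simp
  have h2 : ∑ a : Fin N, ∑ b ∈ Ioi a, (if b = i then 1 else 0) = (i : ℕ) := by
    simp only [sum_ite_eq', mem_Ioi]
    rw [← sum_filter]
    have : univ.filter (fun a : Fin N => a < i) = Iio i := by ext; simp
    simp [this]
  rw [h1, h2]; omega

theorem deg_lin {a b : Fin N} (h : a ≠ b) (i : Fin N) :
    degreeOf i (X a - X b : MvPolynomial (Fin N) ℝ) =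
      (if a = i then 1 else 0) + (if b = i then 1 else 0) := by
  by_cases ha : a = i
  · subst ha
    rw [sub_eq_add_neg, degreeOf_add_eq_of_degreeOf_lt]
    · simp [h.symm]
    · simp [degreeOf_neg, degreeOf_X_of_ne h]
  · by_cases hb : b = i
    · subst hb
      rw [sub_eq_neg_add, degreeOf_add_eq_of_degreeOf_lt]
      · simp [h, degreeOf_neg]
      · simp [degreeOf_neg, degreeOf_X_of_ne h.symm]
    · have := degreeOf_sub_le i (X a : MvPolynomial (Fin N) ℝ) (X b)
      rw [degreeOf_X_of_ne (Ne.symm ha), degreeOf_X_of_ne (Ne.symm hb)] at this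
      simpa [ha, hb] using this

theorem deg_vdm (i : Fin N) : degreeOf i (vdm N) = 3 * (N - 1) := by
  rw [vdm, degreeOf_prod_eq _ _ fun _ _ => prod_ne_zero_iff.2 fun _ hj =>
    pow_ne_zero _ (lin_ne (mem_Ioi.1 hj).ne), ← pair_count i, mul_sum]
  refine sum_congr rfl fun a _ => ?_
  rw [degreeOf_prod_eq _ _ fun _ hj => pow_ne_zero _ (lin_ne (mem_Ioi.1 hj).ne), mul_sum]
  refine sum_congr rfl fun b hb => ?_
  rw [degreeOf_pow_eq _ _ _ (lin_ne (mem_Ioi.1 hb).ne), deg_lin (mem_Ioi.1 hb).ne]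

theorem eq_smul_vdm (f : MvPolynomial (Fin N) ℝ) (h : ∀ i j, i ≠ j → (X i - X j) ^ 3 ∣ f)
    (hd : ∀ i, degreeOf i f ≤ 3 * (N - 1)) : ∃ c : ℝ, f = c • vdm N := by
  obtain ⟨g, rfl⟩ := vdm_dvd f h
  by_cases hg : g = 0
  · exact ⟨0, by simp [hg]⟩
  · have h0 : ∀ i, degreeOf i g = 0 := fun i => by
      have := hd i
      rw [degreeOf_mul_eq vdm_ne hg, deg_vdm] at this
      omega
    have h1 : g.totalDegree = 0 := by
      rw [totalDegree_eq_zero_iff]
      intro m hm i
      have := monomial_le_degreeOf i hm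
      rw [h0] at this
      omega
    refine ⟨coeff 0 g, ?_⟩
    conv_lhs => rw [totalDegree_eq_zero_iff_eq_C.1 h1]
    rw [mul_comm, smul_eq_C_mul]

def sq (Q k : ℕ) : ℝ := √((Q.choose k : ℕ) : ℝ)

theorem wt_eq (hQ : 0 < Q) (k : ℕ) : wt Q k = (k.factorial : ℝ) * sq Q k / √Q ^ k := by
  have hQ' : (0 : ℝ) < Q := by positivity
  have h1 : mq (1 / Q) k = (k.factorial : ℝ) * (Q.descFactorial k : ℝ) / Q ^ k := by
    induction k with
    | zero => simp [mq]
    | succ k ih =>
      rw [mq, prod_range_succ, ← mq, ih, Nat.descFactorial_succ, Nat.factorial_succ]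
      by_cases hk : k ≤ Q
      · push_cast [hk]
        simp only [cq]
        field_simp
        ring
      · rw [Nat.descFactorial_of_lt (by omega)]; simp
  have h2 : 0 ≤ wt Q k := prod_nonneg fun _ _ => Real.sqrt_nonneg _
  have h3 : 0 ≤ (k.factorial : ℝ) * sq Q k / √Q ^ k := by unfold sq; positivity
  refine (mul_self_inj_of_nonneg h2 h3).1 ?_
  rw [wt_sq hQ, h1, Nat.descFactorial_eq_factorial_mul_choose, div_mul_div_comm, ← mul_pow,
    Real.mul_self_sqrt hQ'.le, mul_mul_mul_comm, sq, Real.mul_self_sqrt (by positivity)]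
  push_cast; ring

def toF (x : Fin N → Fin (Q + 1)) : Fin N →₀ ℕ := Finsupp.equivFunOnFinite.symm fun i => (x i : ℕ)

def polyOf (ψ : SQ Q N) : MvPolynomial (Fin N) ℝ :=
  ∑ x, (ψ x * ∏ i, sq Q (x i)) • ∏ i, X i ^ (x i : ℕ)

theorem coeff_polyOf (ψ : SQ Q N) (y : Fin N → Fin (Q + 1)) :
    coeff (toF y) (polyOf ψ) = ψ y * ∏ i, sq Q (y i) := by
  have e : ∀ x : Fin N → Fin (Q + 1), (∏ i, X i ^ (x i : ℕ) : MvPolynomial (Fin N) ℝ) =
      monomial (toF x) 1 := fun x => (mono_prod (toF x)).symm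
  simp only [polyOf, e, coeff_sum, coeff_smul, coeff_monomial]
  rw [sum_eq_single y]
  · simp
  · intro x _ hx
    have : toF x ≠ toF y := fun h => hx (funext fun i => Fin.ext (DFunLike.congr_fun h i))
    simp [this]
  · simp

theorem deg_polyOf (ψ : SQ Q N) (i : Fin N) : degreeOf i (polyOf ψ) ≤ Q := by
  refine (degreeOf_sum_le _ _ _).trans (Finset.sup_le fun x _ => ?_)
  rw [show (∏ i, X i ^ (x i : ℕ) : MvPolynomial (Fin N) ℝ) = monomial (toF x) 1 from
    (mono_prod (toF x)).symm, smul_monomial]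
  by_cases h : ((ψ x * ∏ i, sq Q (x i)) • (1 : ℝ)) = 0
  · rw [h]; simp
  · rw [degreeOf_monomial_eq _ _ h]
    exact Nat.lt_succ_iff.1 (x i).2

theorem rename_polyOf {ψ : SQ Q N} (h : Anti ψ) (σ : Perm (Fin N)) :
    rename σ (polyOf ψ) = ((Perm.sign σ : ℤ) : ℝ) • polyOf ψ := by
  simp only [polyOf, map_sum, map_smul, map_prod, map_pow, rename_X, smul_sum]
  symm
  refine Fintype.sum_equiv (Equiv.arrowCongr σ.symm (Equiv.refl _)) _ _ fun x => ?_
  have e : (Equiv.arrowCongr σ.symm (Equiv.refl _)) x = x ∘ σ := rfl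
  rw [e, h.perm, smul_smul, ← mul_assoc]
  simp only [Function.comp_apply]
  rw [Equiv.prod_comp σ (fun i => sq Q (x i)), Equiv.prod_comp σ (fun i => X i ^ (x i : ℕ))]

theorem sum_cs' {α M : Type} [Fintype α] [AddCommMonoid M] {n : ℕ}
    (F : (Fin (n + 1) → α) → M) : ∑ x, F x = ∑ a, ∑ r, F (cs a r) := by
  rw [← Fintype.sum_prod_type']
  exact (Fintype.sum_equiv (Fin.consEquiv fun _ => α) _ _ (fun _ => rfl)).symm

theorem sb_polyOf {n : ℕ} (hQ : 0 < Q) {ψ : SQ Q (n + 2)} (h : ∀ m, ann2 (bt Q m) ψ = 0) :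
    sb 0 1 (pderiv 0 (polyOf ψ) - pderiv 1 (polyOf ψ)) = 0 := by
  have h1 : ∀ (m : ℕ) (r : Fin n → Fin (Q + 1)), ∑ a : Fin (Q + 1), ∑ b : Fin (Q + 1),
      (if (a : ℕ) + b = m + 1 then ((a : ℝ) - b) * (sq Q a * sq Q b * ψ (cs a (cs b r)))
        else 0) = 0 := by
    intro m r
    have h2 := congrFun (h m) r
    rw [ann2_apply] at h2
    have hs : (0 : ℝ) < √Q := Real.sqrt_pos.2 (by positivity)
    have h3 : ∀ a b : Fin (Q + 1), bt Q m a b * ψ (cs a (cs b r)) =
        (-(m.factorial : ℝ) / √Q ^ (m + 1)) * (if (a : ℕ) + b = m + 1 then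
          ((a : ℝ) - b) * (sq Q a * sq Q b * ψ (cs a (cs b r))) else 0) := by
      intro a b
      simp only [bt, gam, wt_eq hQ]
      split_ifs with e
      · rw [← e, pow_add]; field_simp; ring
      · simp
    simp only [h3, ← mul_sum, Pi.zero_apply] at h2
    refine (mul_eq_zero.1 h2).resolve_left (div_ne_zero ?_ (by positivity))
    exact neg_ne_zero.2 (by positivity)
  let R : (Fin n → Fin (Q + 1)) → MvPolynomial (Fin (n + 2)) ℝ :=
    fun r => ∏ i, X i.succ.succ ^ (r i : ℕ)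
  have hR0 : ∀ r, pderiv 0 (R r) = 0 := fun r => by
    refine pderiv_eq_zero_of_notMem_vars fun hm => ?_
    obtain ⟨i, _, hi⟩ := mem_biUnion.1 (vars_prod _ hm)
    have := vars_pow _ _ hi
    rw [vars_X, mem_singleton] at this
    exact Fin.succ_ne_zero _ this.symm
  have hR1 : ∀ r, pderiv 1 (R r) = 0 := fun r => by
    refine pderiv_eq_zero_of_notMem_vars fun hm => ?_
    obtain ⟨i, _, hi⟩ := mem_biUnion.1 (vars_prod _ hm)
    have := vars_pow _ _ hi
    rw [vars_X, mem_singleton] at this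
    exact Fin.succ_succ_ne_one _ this.symm
  have hm : ∀ (a b : ℕ) r, a + b ≤ 2 * Q → sb 0 1 (pderiv 0 (X 0 ^ a * (X 1 ^ b * R r)) -
      pderiv 1 (X 0 ^ a * (X 1 ^ b * R r))) = ∑ m ∈ range (2 * Q),
        (if a + b = m + 1 then (a : ℝ) - b else 0) • (X 0 ^ m * sb 0 1 (R r)) := by
    intro a b r hab
    have s0 : sb (0 : Fin (n + 2)) 1 (X 0) = X 0 := by simp [sb]
    have s1 : sb (0 : Fin (n + 2)) 1 (X 1) = X 0 := by simp [sb]
    have hs : ∑ m ∈ range (2 * Q), (if a + b = m + 1 then (a : ℝ) - b else 0) •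
        (X 0 ^ m * sb 0 1 (R r)) = ((a : ℝ) - b) • (X 0 ^ (a + b - 1) * sb 0 1 (R r)) := by
      rcases Nat.eq_zero_or_pos (a + b) with h0 | h0
      · have ha : a = 0 := by omega
        have hb : b = 0 := by omega
        simp [ha, hb]
      · rw [sum_eq_single (a + b - 1)]
        · rw [if_pos (by omega)]
        · intro m _ hm; rw [if_neg (by omega), zero_smul]
        · intro h; exact absurd (mem_range.2 (by omega)) h
    rw [hs]
    simp [Derivation.leibniz_pow, hR0, hR1, pderiv_X, s0, s1, Algebra.smul_def]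
    rcases a with _ | a <;> rcases b with _ | b
    · simp
    · simp; ring
    · simp; ring
    · have : a + 1 + (b + 1) - 1 = a + b + 1 := by omega
      simp only [this, Nat.add_sub_cancel]
      ring
  have e : polyOf ψ = ∑ a : Fin (Q + 1), ∑ b : Fin (Q + 1), ∑ r,
      (sq Q a * sq Q b * ψ (cs a (cs b r)) * ∏ i, sq Q (r i)) •
        (X 0 ^ (a : ℕ) * (X 1 ^ (b : ℕ) * R r)) := by
    rw [polyOf, sum_cs']
    refine sum_congr rfl fun a _ => ?_
    rw [sum_cs']
    refine sum_congr rfl fun b _ => sum_congr rfl fun r _ => ?_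
    simp only [Fin.prod_univ_succ, cs_zero, cs_succ, R, Fin.succ_zero_eq_one]
    congr 1; ring
  rw [e]
  simp only [map_sum, Derivation.map_smul, ← sum_sub_distrib, ← smul_sub, map_smul]
  have e2 : ∀ a b : Fin (Q + 1), (a : ℕ) + b ≤ 2 * Q := fun a b => by omega
  simp only [fun (a b : Fin (Q + 1)) r => hm a b r (e2 a b), smul_sum, smul_smul]
  calc _ = ∑ a : Fin (Q + 1), ∑ r, ∑ m ∈ range (2 * Q), ∑ b : Fin (Q + 1),
        ((sq Q a * sq Q b * ψ (cs a (cs b r)) * ∏ i, sq Q (r i)) *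
          if (a : ℕ) + b = m + 1 then (a : ℝ) - b else 0) • (X 0 ^ m * sb 0 1 (R r)) := by
        refine sum_congr rfl fun a _ => ?_
        rw [sum_comm]
        exact sum_congr rfl fun r _ => sum_comm
    _ = ∑ r, ∑ m ∈ range (2 * Q), ∑ a : Fin (Q + 1), ∑ b : Fin (Q + 1),
        ((sq Q a * sq Q b * ψ (cs a (cs b r)) * ∏ i, sq Q (r i)) *
          if (a : ℕ) + b = m + 1 then (a : ℝ) - b else 0) • (X 0 ^ m * sb 0 1 (R r)) := by
        rw [sum_comm]
        exact sum_congr rfl fun r _ => sum_comm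
    _ = 0 := by
        refine sum_eq_zero fun r _ => sum_eq_zero fun m _ => ?_
        simp only [← sum_smul]
        have : ∑ a : Fin (Q + 1), ∑ b : Fin (Q + 1),
            ((sq Q a * sq Q b * ψ (cs a (cs b r)) * ∏ i, sq Q (r i)) *
            if (a : ℕ) + b = m + 1 then (a : ℝ) - b else 0) = (∏ i, sq Q (r i)) *
            ∑ a : Fin (Q + 1), ∑ b : Fin (Q + 1), (if (a : ℕ) + b = m + 1 then
              ((a : ℝ) - b) * (sq Q a * sq Q b * ψ (cs a (cs b r))) else 0) := by
          simp only [mul_sum]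
          refine sum_congr rfl fun a _ => sum_congr rfl fun b _ => ?_
          split_ifs
          · ring
          · simp
        rw [this, h1, mul_zero, zero_smul]

theorem sq_pos (k : Fin (Q + 1)) : 0 < sq Q k :=
  Real.sqrt_pos.2 (by exact_mod_cast Nat.choose_pos (Nat.lt_succ_iff.1 k.2))

def lauR (Q N : ℕ) : SQ Q N := fun x => coeff (toF x) (vdm N) / ∏ i, sq Q (x i)

theorem kernel {n : ℕ} (hQ : Q = 3 * (n + 2 - 1)) {ψ : SQ Q (n + 2)} (hψ : Anti ψ)
    (h0 : hamR (KQ Q) ψ = 0) : ∃ c : ℝ, ψ = c • lauR Q (n + 2) := by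
  have hQ0 : 0 < Q := by omega
  have h1 := ip_hamR_anti hψ hψ (KQ Q)
  rw [h0, map_zero, KQ, ip_op2_01] at h1
  have h2 := (mul_eq_zero.1 h1.symm).resolve_left (by positivity)
  have h3 : ∀ m, ann2 (bt Q m) ψ = 0 := by
    intro m
    by_cases hm : m < 2 * Q - 1
    · have := (sum_eq_zero_iff_of_nonneg (fun m hm => mul_nonneg
        (by have := Nq_pos (mem_range.1 hm); positivity) (ip_nonneg _))).1 h2 m (mem_range.2 hm)
      refine ip_eq_zero ((mul_eq_zero.1 this).resolve_left ?_)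
      have := Nq_pos hm
      positivity
    · rw [bt_top m (by omega)]
      funext r; simp [ann2_apply]
  have h4 : (X 0 - X 1) ^ 3 ∣ polyOf ψ := cube_dvd (by simp) _ (by
    rw [rename_polyOf hψ, Perm.sign_swap (by simp)]; simp) (sb_polyOf hQ0 h3)
  obtain ⟨c, hc⟩ := eq_smul_vdm (polyOf ψ) (fun i j hij => by
    obtain ⟨σ, e0, e1⟩ := exists_perm01 i j hij
    have := map_dvd (rename σ : MvPolynomial (Fin (n + 2)) ℝ →ₐ[ℝ] _) h4
    rw [rename_polyOf hψ] at this
    simp only [map_pow, map_sub, rename_X, e0, e1] at this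
    rcases Int.units_eq_one_or (Perm.sign σ) with h | h
    · simpa [h] using this
    · simpa [h] using this) (fun i => hQ ▸ deg_polyOf ψ i)
  refine ⟨c, funext fun x => ?_⟩
  have h5 := coeff_polyOf ψ x
  rw [hc, coeff_smul] at h5
  have h6 : 0 < ∏ i, sq Q (x i) := prod_pos fun i _ => sq_pos _
  simp only [lauR, Pi.smul_apply, smul_eq_mul] at h5 ⊢
  field_simp
  exact h5.symm

end

end Vale.Agent.P359
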