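import Vale.Agent.P359.Alg

namespace Vale.Agent.P359

open Finset MvPolynomial

noncomputable section

abbrev R2 := MvPolynomial (Fin 2) ℝ
abbrev R3 := MvPolynomial (Fin 3) ℝ

def emb : R2 →ₐ[ℝ] R3 := rename Fin.castSucc

def D3 : Derivation ℝ R2 R2 := (2 : ℝ) • pderiv 0 + pderiv 1
def D4 : Derivation ℝ R3 R3 := (2 : ℝ) • pderiv 0 + pderiv 1 + pderiv 2

def y3 : R2 := X 0 + X 1
def d3 : R2 := X 0 - (2 : ℝ) • X 1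
def C4 : R3 := X 0 + X 1 + X 2
def d4 : R3 := X 0 - (2 : ℝ) • X 1
def y4 : R3 := X 0 + X 1
def g4 : R3 := X 0 + X 1 - (3 : ℝ) • X 2
def s4 : R3 := X 0 - X 1 - X 2
def r4 : R3 := X 1 - X 2

def hv (t : ℕ) (e : ℕ → ℤ) : R3 :=
  ∑ s ∈ range (t + 1), ((e s : ℤ) : ℝ) • (s4 ^ s * r4 ^ (t - s))

def Pauli (τ3 : R2 →ₗ[ℝ] R2 →ₗ[ℝ] ℝ) (τ4 : R3 →ₗ[ℝ] R3 →ₗ[ℝ] ℝ) (m : ℕ → ℝ)
    (K : ℕ) (P : ℕ → R2) (c : ℝ) : ℝ :=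
  ∑ k ∈ range K, m k * τ3 (P k) (P k) -
    ∑ k ∈ range K, ∑ k' ∈ range K, τ4 (emb (P k) * X 2 ^ k') (emb (P k') * X 2 ^ k) +
    2 * c * ∑ k ∈ range K, τ3 (P k) (X 1 ^ k) + c ^ 2

structure Lim (τ3 : R2 →ₗ[ℝ] R2 →ₗ[ℝ] ℝ) (τ4 : R3 →ₗ[ℝ] R3 →ₗ[ℝ] ℝ) : Prop where
  i3 : Inv τ3 D3 y3 3
  i4 : Inv τ4 D4 C4 4
  pos3 : ∀ x, 0 ≤ τ3 x x
  pos4 : ∀ x, 0 ≤ τ4 x x
  rel3 : ∀ l, l = 0 ∨ l = 1 ∨ l = 3 → τ3 (d3 ^ l) (d3 ^ l) = 0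
  rel4 : ∀ t e, altOK t e = true → τ4 (hv t e) (hv t e) = 0
  pauli2 : ∀ k : ℕ, τ3 (X 1 ^ k) (X 1 ^ k) ≤ (k.factorial : ℝ)
  pauli3 : ∀ K P c, 0 ≤ Pauli τ3 τ4 (fun k => (k.factorial : ℝ)) K P c

def Aterm (τ3 : R2 →ₗ[ℝ] R2 →ₗ[ℝ] ℝ) (N : ℕ → ℝ) : ℝ :=
  ∑ n ∈ range 26, (τ3 (X 1 ^ (n + 1)) (X 0 ^ n * X 1) -
    ((n : ℝ) - 1) * τ3 (X 1 ^ n) (X 0 ^ n)) / N n

def Hterm (τ4 : R3 →ₗ[ℝ] R3 →ₗ[ℝ] ℝ) (N : ℕ → ℝ) : ℝ :=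
  ∑ n ∈ range 36, τ4 ((X 2 - X 1) * (X 1 + X 2) ^ n) ((X 2 - X 1) * (X 1 + X 2) ^ n) / (4 * N n)

theorem D3_y : D3 y3 = ((3 : ℕ) : ℝ) • (1 : R2) := by
  simp [D3, y3, pderiv_X]; module

theorem D4_C : D4 C4 = ((4 : ℕ) : ℝ) • (1 : R3) := by
  simp [D4, C4, pderiv_X]; module

theorem D3_d : D3 d3 = 0 := by simp [D3, d3, pderiv_X]
theorem D4_d : D4 d4 = 0 := by simp [D4, d4, pderiv_X]
theorem D4_g : D4 g4 = 0 := by simp [D4, g4, pderiv_X]; module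
theorem D4_s : D4 s4 = 0 := by simp [D4, s4, pderiv_X]; module
theorem D4_r : D4 r4 = 0 := by simp [D4, r4, pderiv_X]

theorem emb_d : emb d3 = d4 := by simp [emb, d3, d4]
theorem emb_y : emb y3 = y4 := by simp [emb, y3, y4]

section
variable {A : Type} [CommRing A] [Algebra ℝ A]

theorem Inv.exp {τ : A →ₗ[ℝ] A →ₗ[ℝ] ℝ} {D : Derivation ℝ A A} {C : A} {κ : ℕ}
    (H : Inv τ D C κ) {y h h' : A} (hy : D y = 0) (hh : D h = 0) (hh' : D h' = 0)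
    (a b a' b' : ℤ) (p k p' k' l l' T : ℕ) (e : l' + (p' + k') = l + (p + k))
    (hT : l + (p + k) < T) :
    τ (h * (((a : ℝ) • C + (b : ℝ) • y) ^ p * ((a' : ℝ) • C + (b' : ℝ) • y) ^ k))
      (h' * (((a : ℝ) • C + (b : ℝ) • y) ^ p' * ((a' : ℝ) • C + (b' : ℝ) • y) ^ k')) =
      ∑ t ∈ range T, (if t ≤ l + (p + k) then
        ((co a b a' b' p k (l + (p + k) - t) * co a b a' b' p' k' (l + (p + k) - t) *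
          fw κ (l + (p + k) - t) : ℤ) : ℝ) else 0) *
        τ (if l ≤ t then h * y ^ (t - l) else 0) (if l' ≤ t then h' * y ^ (t - l') else 0) := by
  have k1 : ∀ (u : A) (i : ℕ), D u = 0 → ∀ t, D (if i ≤ t then u * y ^ (t - i) else 0) = 0 := by
    intro u i hu t
    split_ifs
    · simp [Derivation.leibniz_pow, hu, hy]
    · simp
  rw [expand' C y h a b a' b' p k l T hT, expand' C y h' a b a' b' p' k' l' T (by omega), e,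
    H.sum _ _ (k1 h l hh) (k1 h' l' hh')]
  push_cast
  rfl

end

end

end Vale.Agent.P359
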