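import Vale.Agent.P359.Gap

namespace Vale.Agent.P359

open Finset MvPolynomial Filter Topology

noncomputable section

theorem conv_of_bdd (U : Ultrafilter ℕ) (f : ℕ → ℝ) (B : ℝ) (h : ∀ᶠ N in U, |f N| ≤ B) :
    ∃ l, Tendsto f U (𝓝 l) := by
  have hc : IsCompact (Set.Icc (-B) B) := isCompact_Icc
  obtain ⟨l, _, hl⟩ := hc.ultrafilter_le_nhds (U.map f) (by
    rw [le_principal_iff]
    exact h.mono fun N hN => abs_le.1 hN)
  exact ⟨l, hl⟩

theorem exists_limit {r : ℕ} (U : Ultrafilter ℕ)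
    (τ : ℕ → MvPolynomial (Fin r) ℝ →ₗ[ℝ] MvPolynomial (Fin r) ℝ →ₗ[ℝ] ℝ)
    (hs : ∀ᶠ N in U, (∀ x y, τ N x y = τ N y x) ∧ ∀ x, 0 ≤ τ N x x)
    (hb : ∀ m : Fin r → ℕ, ∃ B, ∀ᶠ N in U, τ N (∏ i, X i ^ m i) (∏ i, X i ^ m i) ≤ B) :
    ∃ τ' : MvPolynomial (Fin r) ℝ →ₗ[ℝ] MvPolynomial (Fin r) ℝ →ₗ[ℝ] ℝ,
      ∀ x y, Tendsto (fun N => τ N x y) U (𝓝 (τ' x y)) := by
  have h1 : ∀ m m' : Fin r → ℕ, ∃ l,
      Tendsto (fun N => τ N (∏ i, X i ^ m i) (∏ i, X i ^ m' i)) U (𝓝 l) := by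
    intro m m'
    obtain ⟨B, hB⟩ := hb m
    obtain ⟨B', hB'⟩ := hb m'
    refine conv_of_bdd U _ (B + B') ?_
    filter_upwards [hs, hB, hB'] with N h1 h2 h3
    generalize (∏ i, X i ^ m i : MvPolynomial (Fin r) ℝ) = x at h2 ⊢
    generalize (∏ i, X i ^ m' i : MvPolynomial (Fin r) ℝ) = y at h3 ⊢
    have a1 := h1.2 (x + y)
    have a2 := h1.2 (x - y)
    have a3 := h1.2 x
    have a4 := h1.2 y
    simp only [map_add, map_sub, LinearMap.add_apply, LinearMap.sub_apply, h1.1 y x] at a1 a2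
    rw [abs_le]; constructor <;> linarith
  choose l hl using h1
  refine ⟨linF fun m => linF fun m' => l m m', fun x y => ?_⟩
  have mono : ∀ (u : Fin r →₀ ℕ) (a : ℝ),
      (monomial u a : MvPolynomial (Fin r) ℝ) = a • ∏ i, X i ^ u i := fun u a => by
    rw [← mono_prod, smul_monomial]; simp
  induction x using MvPolynomial.induction_on' with
  | monomial u a =>
    induction y using MvPolynomial.induction_on' with
    | monomial v b =>
      simp only [mono, map_smul, LinearMap.smul_apply, linF_prod, smul_eq_mul]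
      exact ((hl u v).const_mul a).const_mul b
    | add p q hp hq => simp only [map_add]; exact hp.add hq
  | add p q hp hq => simp only [map_add, LinearMap.add_apply]; exact hp.add hq

theorem mq_tendsto {U : Filter ℕ} {q : ℕ → ℝ} (hq : Tendsto q U (𝓝 0)) (k : ℕ) :
    Tendsto (fun N => mq (q N) k) U (𝓝 (k.factorial : ℝ)) := by
  have hc : Continuous fun x => mq x k := by unfold mq cq; fun_prop
  have h0 : mq 0 k = (k.factorial : ℝ) := by
    simp only [mq, cq, mul_zero, sub_zero, mul_one]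
    rw [← prod_range_add_one_eq_factorial]; push_cast; rfl
  rw [← h0]
  exact (hc.tendsto 0).comp hq

theorem Nq_tendsto {U : Filter ℕ} {q : ℕ → ℝ} (hq : Tendsto q U (𝓝 0)) (k : ℕ) :
    Tendsto (fun N => Nq (q N) k) U (𝓝 (fw 2 k : ℝ)) := by
  have hc : Continuous fun x => Nq x k := by unfold Nq; fun_prop
  have h0 : Nq 0 k = (fw 2 k : ℝ) := by
    induction k with
    | zero => simp [Nq, fw]
    | succ k ih => rw [Nq_succ, fw_succ, ih (by unfold Nq; fun_prop)]; push_cast; ring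
  rw [← h0]
  exact (hc.tendsto 0).comp hq

theorem gap_forms : ∃ Q0 : ℕ, ∀ Q, Q0 ≤ Q → ∀ (E : ℝ) τ3 τ4,
    FinF (1 / Q) E (2 * Q - 1) τ3 τ4 → 3 / 100 ≤ E := by
  by_contra hcon
  let P : ℕ → Prop := fun Q => ∃ (E : ℝ) (τ3 : R2 →ₗ[ℝ] R2 →ₗ[ℝ] ℝ) (τ4 : R3 →ₗ[ℝ] R3 →ₗ[ℝ] ℝ),
    FinF (1 / Q) E (2 * Q - 1) τ3 τ4 ∧ E < 3 / 100
  have hP : ∃ᶠ Q in atTop, P Q := by
    rw [frequently_atTop]
    intro a
    by_contra h
    push Not at h
    exact hcon ⟨a, fun Q hQ E τ3 τ4 hF => not_lt.1 fun hE => h Q hQ ⟨E, τ3, τ4, hF, hE⟩⟩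
  have : (atTop ⊓ 𝓟 {Q | P Q}).NeBot := frequently_iff_neBot.1 hP
  let U : Ultrafilter ℕ := Ultrafilter.of (atTop ⊓ 𝓟 {Q | P Q})
  have hU : (U : Filter ℕ) ≤ atTop ⊓ 𝓟 {Q | P Q} := Ultrafilter.of_le _
  have hU1 : (U : Filter ℕ) ≤ atTop := hU.trans inf_le_left
  have hU2 : ∀ᶠ Q in U, P Q := le_principal_iff.1 (hU.trans inf_le_right)
  have hch : ∀ Q : ℕ, ∃ (E : ℝ) (τ3 : R2 →ₗ[ℝ] R2 →ₗ[ℝ] ℝ) (τ4 : R3 →ₗ[ℝ] R3 →ₗ[ℝ] ℝ),
      P Q → FinF (1 / Q) E (2 * Q - 1) τ3 τ4 ∧ E < 3 / 100 := by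
    intro Q
    by_cases h : P Q
    · obtain ⟨E, τ3, τ4, h'⟩ := h
      exact ⟨E, τ3, τ4, fun _ => h'⟩
    · exact ⟨0, 0, 0, fun h' => absurd h' h⟩
  choose E τ3 τ4 hF using hch
  have hF' : ∀ᶠ Q in U, FinF (1 / (Q : ℕ)) (E Q) (2 * Q - 1) (τ3 Q) (τ4 Q) :=
    hU2.mono fun Q h => (hF Q h).1
  have hE : ∀ᶠ Q in U, E Q < 3 / 100 := hU2.mono fun Q h => (hF Q h).2
  have hq : Tendsto (fun Q : ℕ => (1 : ℝ) / Q) U (𝓝 0) :=
    tendsto_one_div_atTop_nhds_zero_nat.mono_left hU1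
  have hpos : ∀ᶠ Q : ℕ in U, 19 ≤ Q := hU1 (eventually_ge_atTop 19)
  obtain ⟨σ3, h3⟩ := exists_limit U τ3 (hF'.mono fun Q h => ⟨h.symm3, h.pos3⟩) (fun m => by
    have := ((mq_tendsto hq (m 1)).mul (Nq_tendsto hq (m 0))).eventually
      (eventually_le_nhds (lt_add_one _))
    refine ⟨((m 1).factorial : ℝ) * (fw 2 (m 0) : ℝ) + 1, ?_⟩
    filter_upwards [this, hF'] with Q h1 h2
    rw [Fin.prod_univ_two]
    exact (h2.pauli2 _ _).trans h1)
  obtain ⟨σ4, h4⟩ := exists_limit U τ4 (hF'.mono fun Q h => ⟨h.symm4, h.pos4⟩) (fun m => by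
    have := ((mq_tendsto hq (m 2)).mul ((mq_tendsto hq (m 1)).mul
      (Nq_tendsto hq (m 0)))).eventually (eventually_le_nhds (lt_add_one _))
    refine ⟨((m 2).factorial : ℝ) * (((m 1).factorial : ℝ) * (fw 2 (m 0) : ℝ)) + 1, ?_⟩
    filter_upwards [this, hF', hpos] with Q h1 h2 hQ
    rw [Fin.prod_univ_three]
    have e : (X 0 ^ m 0 * X 1 ^ m 1 : R3) = emb (X 0 ^ m 0 * X 1 ^ m 1) := by simp [emb]
    rw [e]
    exact ((h2.diag4 _ _).trans (mul_le_mul_of_nonneg_left (h2.pauli2 _ _)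
      (mq_nonneg (by omega) _))).trans h1)
  have hL : Lim σ3 σ4 := by
    refine ⟨⟨fun x y => ?_, fun x y => ?_, D3_y⟩, ⟨fun x y => ?_, fun x y => ?_, D4_C⟩,
      fun x => ?_, fun x => ?_, fun l hl => ?_, fun t e he => ?_, fun k => ?_, fun K P c => ?_⟩
    · exact tendsto_nhds_unique_of_eventuallyEq (h3 x y) (h3 y x)
        (hF'.mono fun Q h => h.symm3 x y)
    · have := (h3 x (D3 y)).sub (hq.mul (h3 x (E3 y)))
      rw [zero_mul, sub_zero] at this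
      exact tendsto_nhds_unique_of_eventuallyEq (h3 _ y) this (hF'.mono fun Q h => h.inv3 x y)
    · exact tendsto_nhds_unique_of_eventuallyEq (h4 x y) (h4 y x)
        (hF'.mono fun Q h => h.symm4 x y)
    · have := (h4 x (D4 y)).sub (hq.mul (h4 x (E4 y)))
      rw [zero_mul, sub_zero] at this
      exact tendsto_nhds_unique_of_eventuallyEq (h4 _ y) this (hF'.mono fun Q h => h.inv4 x y)
    · exact ge_of_tendsto (h3 x x) (hF'.mono fun Q h => h.pos3 x)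
    · exact ge_of_tendsto (h4 x x) (hF'.mono fun Q h => h.pos4 x)
    · exact tendsto_nhds_unique_of_eventuallyEq (h3 _ _) tendsto_const_nhds
        (hF'.mono fun Q h => h.rel3 l hl)
    · exact tendsto_nhds_unique_of_eventuallyEq (h4 _ _) tendsto_const_nhds
        (hF'.mono fun Q h => h.rel4 t e he)
    · refine le_of_tendsto_of_tendsto (h3 _ _) (mq_tendsto hq k) (hF'.mono fun Q h => ?_)
      have := h.pauli2 0 k
      simpa [Nq_zero] using this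
    · refine ge_of_tendsto (f := fun Q : ℕ => Pauli (τ3 Q) (τ4 Q) (mq (1 / Q)) K P c) ?_
        (hF'.mono fun Q h => h.pauli3 K P c)
      unfold Pauli
      exact (((tendsto_finsetSum _ fun k _ => (mq_tendsto hq k).mul (h3 _ _)).sub
        (tendsto_finsetSum _ fun k _ => tendsto_finsetSum _ fun k' _ => h4 _ _)).add
        ((tendsto_finsetSum _ fun k _ => h3 _ _).const_mul _)).add_const _
  have hfw : ∀ k, (fw 2 k : ℝ) ≠ 0 := fun k => by
    have : 0 < fw 2 k := by unfold fw; positivity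
    exact_mod_cast this.ne'
  have hA : Tendsto (fun Q : ℕ => Aterm (τ3 Q) (Nq (1 / Q))) U
      (𝓝 (Aterm σ3 fun n => (fw 2 n : ℝ))) := by
    unfold Aterm
    exact tendsto_finsetSum _ fun k _ =>
      ((h3 _ _).sub ((h3 _ _).const_mul _)).div (Nq_tendsto hq k) (hfw k)
  have hH : Tendsto (fun Q : ℕ => Hterm (τ4 Q) (Nq (1 / Q))) U
      (𝓝 (Hterm σ4 fun n => (fw 2 n : ℝ))) := by
    unfold Hterm
    exact tendsto_finsetSum _ fun k _ =>
      (h4 _ _).div ((Nq_tendsto hq k).const_mul _) (mul_ne_zero (by norm_num) (hfw k))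
  have h5 := le_of_tendsto ((hA.const_sub 1).add hH) (b := 7 / 100) (by
    filter_upwards [hF', hE, hpos] with Q h1 h2 hQ
    have := h1.tail hQ
    linarith)
  have h6 := hL.final
  linarith

theorem gap_eig : ∃ Q0 : ℕ, ∀ Q, Q0 ≤ Q → ∀ (n : ℕ) (E : ℝ) (ψ : SQ Q (n + 4)), Anti ψ → ψ ≠ 0 →
    hamR (KQ Q) ψ = E • ψ → 0 < E → 3 / 100 ≤ E := by
  obtain ⟨Q0, h⟩ := gap_forms
  refine ⟨max Q0 1, fun Q hQ n E ψ h1 h2 h3 hE => ?_⟩
  have hQ0 : 0 < Q := lt_of_lt_of_le Nat.one_pos ((le_max_right _ _).trans hQ)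
  obtain ⟨F⟩ := exists_fam hQ0 h1 h2 h3
  exact h Q ((le_max_left _ _).trans hQ) E _ _ (F.finF hQ0 hE)

end

end Vale.Agent.P359
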