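import Vale.Agent.P359.Spect
import Vale.Agent.P359.Defs

namespace Vale.Agent.P359

open Finset MvPolynomial
open scoped InnerProductSpace

noncomputable section

variable {Q N : ℕ}

def bC (Q n : ℕ) : Pair Q := WithLp.toLp 2 fun p => ((bt Q n p.1 p.2 : ℝ) : ℂ)

theorem raise_eq (hQ : 0 < Q) (k l : Orb Q) : raise Q k l = ((√Q * tQ Q k l : ℝ) : ℂ) := by
  unfold raise tQ
  split_ifs
  · congr 1
    rw [← Real.sqrt_mul (by positivity)]
    congr 1
    have : (Q : ℝ) ≠ 0 := by positivity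
    simp only [cq]; field_simp
  · simp

theorem iter_eq (hQ : 0 < Q) (n : ℕ) :
    (pairRaise Q)^[n] (lowest Q) = (((√Q : ℝ) : ℂ) ^ n) • bC Q n := by
  induction n with
  | zero =>
    ext p
    simp only [Function.iterate_zero, id, lowest, bC, bt_zero, zv, wt_zero, wt_one, pow_zero,
      one_smul]
    split_ifs <;> first | omega | simp_all
  | succ n ih =>
    rw [Function.iterate_succ_apply', ih]
    ext p
    have h := congrFun (congrFun (bt_raise (Q := Q) n) p.1) p.2
    simp only [pairRaise, bC, raise_eq hQ, PiLp.smul_apply, smul_eq_mul]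
    rw [← h]
    push_cast
    simp only [mul_add, mul_sum]
    congr 1 <;> exact sum_congr rfl fun _ _ => by ring

theorem bC_mem (hQ : 0 < Q) (n : ℕ) : bC Q n ∈ spinSub Q := by
  have h : (pairRaise Q)^[n] (lowest Q) ∈ spinSub Q := Submodule.subset_span ⟨n, rfl⟩
  rw [iter_eq hQ] at h
  have h0 : (((√Q : ℝ) : ℂ) ^ n) ≠ 0 :=
    pow_ne_zero _ (by exact_mod_cast (Real.sqrt_pos.2 (by positivity)).ne')
  exact (Submodule.smul_mem_iff _ h0).1 h

theorem inner_bC (n : ℕ) (φ : Pair Q) :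
    ⟪bC Q n, φ⟫_ℂ = ∑ c, ∑ d, ((bt Q n c d : ℝ) : ℂ) * φ (c, d) := by
  simp [PiLp.inner_apply, bC, Fintype.sum_prod_type, mul_comm]

theorem proj_eq (hQ : 0 < Q) (φ : Pair Q) (a b : Orb Q) :
    (spinSub Q).starProjection φ (a, b) = ∑ c, ∑ d, ((KQ Q a b c d : ℝ) : ℂ) * φ (c, d) := by
  let w : Pair Q := ∑ m ∈ range (2 * Q - 1),
    (((1 / (2 * Nq (1 / Q) m) : ℝ) : ℂ) * ⟪bC Q m, φ⟫_ℂ) • bC Q m
  have hbb : ∀ m m', ⟪bC Q m, bC Q m'⟫_ℂ = if m = m' then ((2 * Nq (1 / Q) m : ℝ) : ℂ) else 0 := by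
    intro m m'
    rw [inner_bC]
    have := bt_dot hQ m m'
    simp only [bC]
    split_ifs at this ⊢ <;> exact_mod_cast this
  have hw : (spinSub Q).starProjection φ = w := by
    refine Submodule.eq_starProjection_of_mem_of_inner_eq_zero
      (Submodule.sum_mem _ fun m _ => Submodule.smul_mem _ _ (bC_mem hQ m)) fun u hu => ?_
    rw [inner_eq_zero_symm]
    induction hu using Submodule.span_induction with
    | mem x hx =>
      obtain ⟨n, rfl⟩ := hx
      simp only
      rw [iter_eq hQ, inner_smul_left, inner_sub_right]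
      refine mul_eq_zero_of_right _ ?_
      by_cases hn : n < 2 * Q - 1
      · simp only [w, inner_sum, inner_smul_right, hbb]
        rw [sum_eq_single n]
        · have : ((Nq (1 / Q) n : ℝ) : ℂ) ≠ 0 := by exact_mod_cast (Nq_pos hn).ne'
          rw [if_pos rfl]
          push_cast
          field_simp
          simp
        · intro m _ hm; simp [Ne.symm hm]
        · intro h; exact absurd (mem_range.2 hn) h
      · have : bC Q n = 0 := by
          ext p; simp [bC, bt_top (Q := Q) n (by omega)]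
        simp [this]
    | zero => simp
    | add x y _ _ hx hy => rw [inner_add_left, hx, hy, add_zero]
    | smul c x _ hx => rw [inner_smul_left, hx, mul_zero]
  rw [hw]
  simp only [w, WithLp.ofLp_sum, WithLp.ofLp_smul, Finset.sum_apply, Pi.smul_apply, inner_bC,
    smul_eq_mul, KQ, ker2, mul_sum, sum_mul]
  push_cast
  simp only [sum_mul]
  rw [sum_comm]
  refine sum_congr rfl fun c _ => ?_
  rw [sum_comm]
  refine sum_congr rfl fun d _ => sum_congr rfl fun m _ => ?_
  simp only [bC]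
  ring

def reP (ψ : Tens Q N) : SQ Q N := fun x => (ψ x).re
def imP (ψ : Tens Q N) : SQ Q N := fun x => (ψ x).im

theorem sum_Ioi' {M : Type} [AddCommMonoid M] (i : Fin N) (f : Fin N → M) :
    ∑ j ∈ Ioi i, f j = ∑ j, if i < j then f j else 0 := by
  rw [← sum_filter]; congr 1; ext; simp

theorem ham_re (hQ : 0 < Q) (ψ : Tens Q N) : reP (ham ψ) = hamR (KQ Q) (reP ψ) := by
  funext x
  simp only [reP, ham, WithLp.ofLp_sum, Finset.sum_apply, Complex.re_sum, hamR_apply]
  refine sum_congr rfl fun i _ => ?_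
  rw [sum_Ioi']
  refine sum_congr rfl fun j _ => ?_
  split_ifs
  · simp [pairProj, orthProj, proj_eq hQ, op2_apply, reP]
  · rfl

theorem ham_im (hQ : 0 < Q) (ψ : Tens Q N) : imP (ham ψ) = hamR (KQ Q) (imP ψ) := by
  funext x
  simp only [imP, ham, WithLp.ofLp_sum, Finset.sum_apply, Complex.im_sum, hamR_apply]
  refine sum_congr rfl fun i _ => ?_
  rw [sum_Ioi']
  refine sum_congr rfl fun j _ => ?_
  split_ifs
  · simp [pairProj, orthProj, proj_eq hQ, op2_apply, imP]
  · rfl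

theorem re_inner (φ ψ : Tens Q N) :
    (⟪φ, ψ⟫_ℂ).re = ip (reP φ) (reP ψ) + ip (imP φ) (imP ψ) := by
  simp [PiLp.inner_apply, ip_apply, reP, imP, ← sum_add_distrib, mul_comm]

theorem IsAntisym.re {ψ : Tens Q N} (h : IsAntisym ψ) : Anti (reP ψ) := fun i j hij x => by
  simp [reP, h (Equiv.swap i j) x, Equiv.Perm.sign_swap hij]

theorem IsAntisym.im {ψ : Tens Q N} (h : IsAntisym ψ) : Anti (imP ψ) := fun i j hij x => by
  simp [imP, h (Equiv.swap i j) x, Equiv.Perm.sign_swap hij]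

def lpR (N : ℕ) : MvPolynomial (Fin N ⊕ Fin N) ℝ :=
  ∏ i, ∏ j ∈ Ioi i, (X (Sum.inl i) * X (Sum.inr j) - X (Sum.inl j) * X (Sum.inr i)) ^ 3

theorem lp_map : laughlinPoly N = map Complex.ofRealHom (lpR N) := by
  simp [laughlinPoly, lpR]

def dehom (N : ℕ) : MvPolynomial (Fin N ⊕ Fin N) ℝ →ₐ[ℝ] MvPolynomial (Fin N) ℝ :=
  aeval (Sum.elim X fun _ => 1)

theorem dehom_lp : dehom N (lpR N) = vdm N := by simp [dehom, lpR, vdm]

theorem lp_weight (i : Fin N) (m : Fin N ⊕ Fin N →₀ ℕ) (hm : m ∈ (lpR N).support) :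
    m (Sum.inl i) + m (Sum.inr i) = 3 * (N - 1) := by
  let w : Fin N ⊕ Fin N → ℕ := Sum.elim (fun a => if a = i then 1 else 0)
    (fun a => if a = i then 1 else 0)
  have h : IsWeightedHomogeneous w (lpR N) (∑ a : Fin N, ∑ b ∈ Ioi a,
      3 • ((if a = i then 1 else 0) + (if b = i then 1 else 0))) := by
    refine IsWeightedHomogeneous.prod _ _ _ fun a _ => IsWeightedHomogeneous.prod _ _ _ fun b _ =>
      IsWeightedHomogeneous.pow (IsWeightedHomogeneous.sub ?_ ?_) 3
    · exact (isWeightedHomogeneous_X ℝ w _).mul (isWeightedHomogeneous_X ℝ w _)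
    · rw [add_comm]
      exact (isWeightedHomogeneous_X ℝ w _).mul (isWeightedHomogeneous_X ℝ w _)
  have h2 := h (mem_support_iff.1 hm)
  simp only [smul_eq_mul, ← mul_sum, pair_count] at h2
  rw [← h2, Finsupp.weight_apply, Finsupp.sum_fintype _ _ (by simp), Fintype.sum_sum_type]
  simp [w]

theorem coeff_lp (x : Fin N → Fin (3 * (N - 1) + 1)) :
    coeff (Finsupp.equivFunOnFinite.symm
        (Sum.elim (fun i => (x i : ℕ)) (fun i => 3 * (N - 1) - (x i : ℕ)))) (lpR N) =
      coeff (toF x) (vdm N) := by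
  rw [← dehom_lp]
  conv_lhs => rw [(lpR N).as_sum]
  conv_rhs => rw [(lpR N).as_sum]
  rw [map_sum, coeff_sum, coeff_sum]
  refine sum_congr rfl fun m hm => ?_
  have e : dehom N (monomial m (coeff m (lpR N))) =
      monomial (Finsupp.equivFunOnFinite.symm fun i => m (Sum.inl i)) (coeff m (lpR N)) := by
    rw [dehom, aeval_monomial, Finsupp.prod_fintype _ _ (by simp), Fintype.prod_sum_type,
      monomial_eq, Finsupp.prod_fintype _ _ (by simp)]
    simp
  rw [e, coeff_monomial, coeff_monomial]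
  refine if_congr ⟨fun h => ?_, fun h => ?_⟩ rfl rfl
  · ext i; simp [h, toF]
  · ext s
    rcases s with i | i
    · simpa [toF] using DFunLike.congr_fun h i
    · have h1 : m (Sum.inl i) = x i := by simpa [toF] using DFunLike.congr_fun h i
      have h2 := lp_weight i m hm
      simp; omega

theorem laughlin_eq (x : Fin N → Fin (3 * (N - 1) + 1)) :
    laughlin N x = ((lauR (3 * (N - 1)) N x : ℝ) : ℂ) := by
  simp only [laughlin, lp_map, coeff_map, coeff_lp, lauR, sq]
  push_cast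
  rfl

theorem main_gap : ∃ N0 : ℕ, ∀ N, N0 ≤ N → ∀ ψ : Tens (3 * (N - 1)) N, IsAntisym ψ →
    3 / 100 * reInner ψ (lineCompl (laughlin N) ψ) ≤ reInner ψ (ham ψ) := by
  obtain ⟨N0, h⟩ := real_gap
  refine ⟨N0 + 4, fun N hN ψ hψ => ?_⟩
  obtain ⟨n, rfl⟩ : ∃ n, N = n + 4 := ⟨N - 4, by omega⟩
  obtain ⟨c1, h1⟩ := h n (by omega) _ hψ.re
  obtain ⟨c2, h2⟩ := h n (by omega) _ hψ.im
  have hQ : 0 < 3 * (n + 4 - 1) := by omega
  unfold reInner lineCompl
  rw [re_inner ψ (ham ψ), ham_re hQ, ham_im hQ]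
  let K := Submodule.span ℂ {laughlin (n + 4)}
  let u : Tens (3 * (n + 4 - 1)) (n + 4) := (⟨c1, c2⟩ : ℂ) • laughlin (n + 4)
  have hu : u ∈ K := Submodule.smul_mem _ _ (Submodule.subset_span rfl)
  have e1 : reP (ψ - u) = reP ψ - c1 • lauR _ _ := by
    funext x; simp [reP, u, laughlin_eq]
  have e2 : imP (ψ - u) = imP ψ - c2 • lauR _ _ := by
    funext x; simp [imP, u, laughlin_eq]
  have e3 : (⟪ψ, ψ - lineProj (laughlin (n + 4)) ψ⟫_ℂ).re ≤ (⟪ψ - u, ψ - u⟫_ℂ).re := by
    set p := lineProj (laughlin (n + 4)) ψ with hp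
    have hpK : p ∈ K := Submodule.starProjection_apply_mem _ _
    have ho : ∀ w ∈ K, ⟪w, ψ - p⟫_ℂ = 0 := fun w hw => by
      rw [inner_eq_zero_symm]
      exact Submodule.starProjection_inner_eq_zero ψ w hw
    have a1 : ⟪ψ, ψ - p⟫_ℂ = ⟪ψ - p, ψ - p⟫_ℂ := by rw [inner_sub_left, ho p hpK, sub_zero]
    have a2 : ψ - u = (ψ - p) + (p - u) := by abel
    have a3 := ho _ (K.sub_mem hpK hu)
    have a4 : ⟪ψ - p, p - u⟫_ℂ = 0 := inner_eq_zero_symm.1 a3
    rw [a1, a2, inner_add_left, inner_add_right, inner_add_right, a3, a4]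
    have a5 : 0 ≤ (⟪p - u, p - u⟫_ℂ).re := inner_self_nonneg (𝕜 := ℂ)
    simp only [add_zero, zero_add, Complex.add_re]
    linarith
  rw [re_inner (ψ - u), e1, e2] at e3
  linarith

end

end Vale.Agent.P359
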