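import Vale.Agent.P359.Ham

namespace Vale.Agent.P359

open Finset Function

noncomputable section

def cq (q : ℝ) (k : ℕ) : ℝ := ((k : ℝ) + 1) * (1 - k * q)

def mq (q : ℝ) (k : ℕ) : ℝ := ∏ i ∈ range k, cq q i

def Nq (q : ℝ) (n : ℕ) : ℝ := ∏ i ∈ range n, (((i : ℝ) + 1) * (2 - (i + 2) * q))

def wt (Q k : ℕ) : ℝ := ∏ i ∈ range k, √(cq (1 / Q) i)

def tQ (Q : ℕ) (a y : Fin (Q + 1)) : ℝ := if (a : ℕ) = y + 1 then √(cq (1 / Q) y) else 0

def zv (Q k : ℕ) (x : Fin (Q + 1)) : ℝ := if (x : ℕ) = k then wt Q k else 0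

def gam (n a b : ℕ) : ℝ :=
  if a + b = n + 1 then (n.factorial : ℝ) * ((b : ℝ) - a) / (a.factorial * b.factorial) else 0

def bt (Q n : ℕ) (a b : Fin (Q + 1)) : ℝ := gam n a b * (wt Q a * wt Q b)

variable {Q : ℕ}

theorem cq_top (hQ : 0 < Q) : cq (1 / Q) Q = 0 := by
  have : (Q : ℝ) ≠ 0 := by positivity
  simp [cq, this]

theorem cq_nonneg (hQ : 0 < Q) {k : ℕ} (hk : k ≤ Q) : 0 ≤ cq (1 / Q) k := by
  have h0 : (0 : ℝ) < Q := by positivity
  have h1 : (k : ℝ) ≤ Q := by exact_mod_cast hk
  have : (k : ℝ) * (1 / Q) ≤ 1 := by rw [mul_one_div, div_le_one h0]; exact h1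
  unfold cq
  exact mul_nonneg (by positivity) (by linarith)

theorem wt_succ (k : ℕ) : wt Q (k + 1) = wt Q k * √(cq (1 / Q) k) := prod_range_succ _ _

theorem wt_zero : wt Q 0 = 1 := by simp [wt]

theorem wt_one : wt Q 1 = 1 := by simp [wt, cq]

theorem wt_big (hQ : 0 < Q) {k : ℕ} (hk : Q < k) : wt Q k = 0 :=
  prod_eq_zero (mem_range.2 hk) (by rw [cq_top hQ, Real.sqrt_zero])

theorem mq_big (hQ : 0 < Q) {k : ℕ} (hk : Q < k) : mq (1 / Q) k = 0 :=
  prod_eq_zero (mem_range.2 hk) (cq_top hQ)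

theorem wt_sq (hQ : 0 < Q) (k : ℕ) : wt Q k * wt Q k = mq (1 / Q) k := by
  by_cases hk : Q < k
  · rw [wt_big hQ hk, mq_big hQ hk, mul_zero]
  · rw [wt, mq, ← prod_mul_distrib]
    exact prod_congr rfl fun i hi =>
      Real.mul_self_sqrt (cq_nonneg hQ (by have := mem_range.1 hi; omega))

theorem wt_succ_mul (hQ : 0 < Q) {k : ℕ} (hk : k ≤ Q) :
    wt Q (k + 1) * √(cq (1 / Q) k) = cq (1 / Q) k * wt Q k := by
  rw [wt_succ, mul_assoc, Real.mul_self_sqrt (cq_nonneg hQ hk), mul_comm]

theorem sum_lower (hQ : 0 < Q) (F : ℕ → ℝ) (y : Fin (Q + 1)) :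
    ∑ a : Fin (Q + 1), F a * tQ Q a y = F (y + 1) * √(cq (1 / Q) y) := by
  by_cases h : (y : ℕ) + 1 < Q + 1
  · rw [sum_eq_single ⟨y + 1, h⟩]
    · simp [tQ]
    · intro b _ hb
      have : (b : ℕ) ≠ y + 1 := fun e => hb (Fin.ext e)
      simp [tQ, this]
    · simp
  · have hy : (y : ℕ) = Q := by omega
    rw [hy, cq_top hQ, Real.sqrt_zero, mul_zero]
    refine sum_eq_zero fun a _ => ?_
    have : (a : ℕ) ≠ y + 1 := by omega
    simp [tQ, this]

theorem sum_raise (F : ℕ → ℝ) (y : Fin (Q + 1)) :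
    ∑ a : Fin (Q + 1), F a * tQ Q y a =
      if (y : ℕ) = 0 then 0 else F (y - 1) * √(cq (1 / Q) (y - 1)) := by
  split_ifs with h
  · refine sum_eq_zero fun a _ => ?_
    have : (y : ℕ) ≠ a + 1 := by omega
    simp [tQ, this]
  · rw [sum_eq_single ⟨y - 1, by omega⟩]
    · have : (y : ℕ) = y - 1 + 1 := by omega
      simp only [tQ]
      rw [if_pos this]
    · intro b _ hb
      have : (y : ℕ) ≠ b + 1 := fun e => hb (Fin.ext (by simp; omega))
      simp [tQ, this]
    · simp

theorem zv_lower (hQ : 0 < Q) (k : ℕ) : (fun y => ∑ a, zv Q k a * tQ Q a y) =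
    ((k : ℝ) * (1 - (k - 1) * (1 / Q))) • zv Q (k - 1) := by
  funext y
  have := sum_lower hQ (fun a => if a = k then wt Q k else 0) y
  simp only [zv, Pi.smul_apply, smul_eq_mul] at this ⊢
  rw [this]
  cases k with
  | zero => simp
  | succ k =>
    by_cases h : (y : ℕ) = k
    · rw [if_pos (by omega), Nat.add_sub_cancel, if_pos h, h, wt_succ_mul hQ (by omega)]
      simp [cq]
    · rw [if_neg (by omega), Nat.add_sub_cancel, if_neg h]; simp

theorem zv_raise (k : ℕ) : (fun y => ∑ a, zv Q k a * tQ Q y a) = zv Q (k + 1) := by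
  funext y
  have := sum_raise (fun a => if a = k then wt Q k else 0) y
  simp only [zv] at this ⊢
  rw [this]
  by_cases h : (y : ℕ) = k + 1
  · rw [if_neg (by omega), if_pos (by omega), if_pos h, wt_succ, h, Nat.add_sub_cancel]
  · rw [if_neg h]
    split_ifs with h1 h2
    · rfl
    · omega
    · simp

theorem zv_dot (hQ : 0 < Q) (k k' : ℕ) :
    ∑ a, zv Q k a * zv Q k' a = if k = k' then mq (1 / Q) k else 0 := by
  split_ifs with h
  · subst h
    by_cases hk : k < Q + 1
    · rw [sum_eq_single ⟨k, hk⟩]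
      · simp [zv, wt_sq hQ]
      · intro b _ hb
        have : (b : ℕ) ≠ k := fun e => hb (Fin.ext e)
        simp [zv, this]
      · simp
    · rw [mq_big hQ (by omega)]
      refine sum_eq_zero fun a _ => ?_
      have : (a : ℕ) ≠ k := by omega
      simp [zv, this]
  · refine sum_eq_zero fun a _ => ?_
    simp only [zv]
    split_ifs <;> first | omega | simp

theorem gam_anti (n a b : ℕ) : gam n b a = -gam n a b := by
  unfold gam
  rw [add_comm b a]
  split_ifs
  · ring
  · simp

theorem gam_pascal (n a b : ℕ) : gam (n + 1) a b =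
    (if a = 0 then 0 else gam n (a - 1) b) + (if b = 0 then 0 else gam n a (b - 1)) := by
  by_cases h : a + b = n + 1 + 1
  · have hr : (n : ℝ) = a + b - 2 := by
      have : (a : ℝ) + b = n + 1 + 1 := by exact_mod_cast h
      linarith
    rcases a with _ | a <;> rcases b with _ | b
    · omega
    · have : b = n + 1 := by omega
      subst this
      simp [gam, Nat.factorial_succ]
      field_simp
    · have : a = n + 1 := by omega
      subst this
      simp [gam, Nat.factorial_succ]
      field_simp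
      ring
    · simp only [gam, Nat.add_sub_cancel, Nat.succ_ne_zero, if_false]
      rw [if_pos h, if_pos (by omega), if_pos (by omega)]
      simp only [Nat.factorial_succ]
      push_cast at hr ⊢
      field_simp
      rw [hr]; ring
  · unfold gam
    rw [if_neg h]
    split_ifs <;> first | omega | simp

theorem gam_lower (q : ℝ) (n a b : ℕ) :
    cq q a * gam n (a + 1) b + cq q b * gam n a (b + 1) =
      ((n : ℝ) * (2 - (n + 1) * q)) * gam (n - 1) a b := by
  rcases n with _ | n
  · unfold gam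
    by_cases h : a + 1 + b = 0 + 1
    · have ha : a = 0 := by omega
      have hb : b = 0 := by omega
      subst ha hb; simp
    · rw [if_neg h, if_neg (by omega)]; simp
  · unfold gam
    by_cases h : a + b = n + 1
    · have hr : (n : ℝ) = a + b - 1 := by
        have : (a : ℝ) + b = n + 1 := by exact_mod_cast h
        linarith
      rw [if_pos (by omega), if_pos (by omega), Nat.add_sub_cancel, if_pos h]
      simp only [Nat.factorial_succ, cq]
      push_cast
      field_simp
      rw [hr]; ring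
    · rw [if_neg (by omega), if_neg (by omega), Nat.add_sub_cancel, if_neg h]; simp

theorem bt_anti (n : ℕ) (a b : Fin (Q + 1)) : bt Q n b a = -bt Q n a b := by
  simp only [bt]; rw [gam_anti]; ring

theorem bt_raise (n : ℕ) : (fun c d => ∑ a, bt Q n a d * tQ Q c a + ∑ b, bt Q n c b * tQ Q d b) =
    bt Q (n + 1) := by
  funext c d
  have h1 := sum_raise (fun a => gam n a d * (wt Q a * wt Q d)) c
  have h2 := sum_raise (fun b => gam n c b * (wt Q c * wt Q b)) d
  simp only [bt] at h1 h2 ⊢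
  rw [h1, h2, gam_pascal, add_mul]
  congr 1
  · split_ifs with h
    · simp
    · have : (c : ℕ) = c - 1 + 1 := by omega
      conv_rhs => rw [this, wt_succ]
      simp; ring
  · split_ifs with h
    · simp
    · have : (d : ℕ) = d - 1 + 1 := by omega
      conv_rhs => rw [this, wt_succ]
      simp; ring

theorem bt_lower (hQ : 0 < Q) (n : ℕ) :
    (fun c d => ∑ a, bt Q n a d * tQ Q a c + ∑ b, bt Q n c b * tQ Q b d) =
    ((n : ℝ) * (2 - (n + 1) * (1 / Q))) • bt Q (n - 1) := by
  funext c d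
  have h1 := sum_lower hQ (fun a => gam n a d * (wt Q a * wt Q d)) c
  have h2 := sum_lower hQ (fun b => gam n c b * (wt Q c * wt Q b)) d
  simp only [bt, Pi.smul_apply, smul_eq_mul] at h1 h2 ⊢
  have h3 := wt_succ_mul hQ (k := c) (by omega)
  have h4 := wt_succ_mul hQ (k := d) (by omega)
  rw [h1, h2, ← mul_assoc ((n : ℝ) * _), ← gam_lower]
  linear_combination gam n (c + 1) d * wt Q d * h3 + gam n c (d + 1) * wt Q c * h4

theorem bt_top (n : ℕ) (hn : 2 * Q ≤ n + 1) : bt Q n = 0 := by
  funext a b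
  simp only [bt, gam, Pi.zero_apply]
  split_ifs with h
  · have : (a : ℕ) = b := by omega
    simp [this]
  · simp

theorem poly_gam {A : Type} [CommRing A] [Algebra ℝ A] (x y : A) (n : ℕ) :
    (y - x) * (x + y) ^ n = ∑ p ∈ antidiagonal (n + 1), gam n p.1 p.2 • (x ^ p.1 * y ^ p.2) := by
  induction n with
  | zero => simp [Nat.sum_antidiagonal_succ, gam]; ring
  | succ n ih =>
    rw [pow_succ, ← mul_assoc, ih]
    simp only [gam_pascal, add_smul, sum_add_distrib]
    rw [Nat.sum_antidiagonal_succ (n := n + 1), Nat.sum_antidiagonal_succ' (n := n + 1), mul_add,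
      sum_mul, sum_mul]
    simp only [if_true, zero_smul, zero_add, Nat.succ_ne_zero, if_false, Nat.add_sub_cancel,
      smul_mul_assoc]
    congr 1
    · exact sum_congr rfl fun p _ => by congr 1; ring
    · exact sum_congr rfl fun p _ => by congr 1; ring

theorem ann2_bt {m : ℕ} (n : ℕ) (ψ : St (Fin (Q + 1)) (m + 2)) : ann2 (bt Q n) ψ =
    ∑ p ∈ antidiagonal (n + 1), gam n p.1 p.2 • ann (zv Q p.2) (ann (zv Q p.1) ψ) := by
  have e : ∀ a b, bt Q n a b =
      ∑ p ∈ antidiagonal (n + 1), gam n p.1 p.2 * (zv Q p.1 a * zv Q p.2 b) := by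
    intro a b
    rw [sum_eq_single ((a : ℕ), (b : ℕ))]
    · simp [bt, zv]
    · rintro ⟨i, j⟩ _ hp
      simp only [zv]
      split_ifs with h1 h2
      · exact absurd (by simp [h1, h2]) hp
      all_goals simp
    · intro h
      have : ¬ ((a : ℕ) + b = n + 1) := fun e => h (mem_antidiagonal.2 e)
      simp [gam, this]
  funext r
  simp only [ann2_apply, e, Finset.sum_apply, Pi.smul_apply, ann_apply, smul_eq_mul, sum_mul,
    mul_sum]
  calc _ = ∑ a, ∑ p ∈ antidiagonal (n + 1), ∑ b,
        gam n p.1 p.2 * (zv Q p.1 a * zv Q p.2 b) * ψ (cs a (cs b r)) :=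
        sum_congr rfl fun _ _ => sum_comm
    _ = _ := by
        rw [sum_comm]
        refine sum_congr rfl fun p _ => ?_
        rw [sum_comm]
        exact sum_congr rfl fun b _ => sum_congr rfl fun a _ => by ring

end

end Vale.Agent.P359
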