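import Vale.Agent.P359.Lim

namespace Vale.Agent.P359

open Finset MvPolynomial Equiv

noncomputable section

abbrev R4 := MvPolynomial (Fin 4) ℝ

def e3 (P : R2) : R3 := (X 1 - X 0) * aeval ![X 0 + X 1, X 2] P

def e4 (P : R3) : R4 := (X 1 - X 0) * aeval ![X 0 + X 1, X 2, X 3] P

theorem rel3_abs (Λ : R3 →ₗ[ℝ] ℝ) (h01 : ∀ P, Λ (rename (swap 0 1) P) = -Λ P)
    (h12 : ∀ P, Λ (rename (swap 1 2) P) = -Λ P) (l : ℕ) (hl : l = 0 ∨ l = 1 ∨ l = 3) :
    Λ (e3 (d3 ^ l)) = 0 := by
  have e : e3 (d3 ^ l) = (X 1 - X 0) * (X 0 + X 1 - 2 * X 2) ^ l := by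
    simp [e3, d3, Algebra.smul_def]; left; rfl
  have h1 := h12 (e3 (d3 ^ l))
  have h2 := h01 (rename (swap 1 2) (e3 (d3 ^ l)))
  have s1 : (swap (1 : Fin 3) 2) 0 = 0 := by decide
  have s2 : (swap (0 : Fin 3) 1) 2 = 2 := by decide
  have h3 : rename (swap (0 : Fin 3) 1) (rename (swap (1 : Fin 3) 2) (e3 (d3 ^ l))) =
      rename (swap (1 : Fin 3) 2) (e3 (d3 ^ l)) - e3 (d3 ^ l) := by
    rw [e]
    simp only [map_mul, map_sub, map_pow, map_add, rename_X, swap_apply_left, swap_apply_right, s1,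
      s2, map_ofNat]
    rcases hl with h | h | h <;> subst h <;> ring
  rw [h3, map_sub] at h2
  linarith

theorem alt_swap23 (t : ℕ) (e : ℕ → ℤ) (i j k : ℕ) : alt t e i k j = -alt t e i j k := by
  unfold alt; ring

theorem alt_swap12 (t : ℕ) (e : ℕ → ℤ) (i j k : ℕ) : alt t e j i k = -alt t e i j k := by
  unfold alt; ring

theorem alt_zero {t : ℕ} {e : ℕ → ℤ} (h : altOK t e = true) (i j k : ℕ) (hs : i + j + k = t + 1)
    (h1 : i % 2 = j % 2) (h2 : j % 2 = k % 2) : alt t e i j k = 0 := by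
  simp only [altOK, allTo_iff] at h
  have key : ∀ i j k, i + j + k = t + 1 → i % 2 = j % 2 → j % 2 = k % 2 → j < i → k < j →
      alt t e i j k = 0 := by
    intro i j k hs h1 h2 hij hjk
    have := h i (by omega) j hij
    have ek : t + 1 - i - j = k := by omega
    rw [ek, if_pos ⟨by omega, hjk, h1, h2⟩] at this
    exact of_decide_eq_true this
  have a1 := alt_swap23 t e
  have a2 := alt_swap12 t e
  rcases lt_trichotomy i j with hij | hij | hij
  · rcases lt_trichotomy j k with hjk | hjk | hjk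
    · have := key k j i (by omega) (by omega) (by omega) hjk hij
      linarith [a1 k j i, a2 i k j, a1 i j k]
    · subst hjk; linarith [a1 i j j]
    · rcases lt_trichotomy i k with hik | hik | hik
      · have := key j k i (by omega) (by omega) (by omega) hjk hik
        linarith [a1 j k i, a2 i j k]
      · subst hik; linarith [a1 j i i, a2 i j i]
      · have := key j i k (by omega) (by omega) (by omega) hij hik
        linarith [a2 i j k]
  · subst hij; linarith [a2 i i k]
  · rcases lt_trichotomy j k with hjk | hjk | hjk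
    · rcases lt_trichotomy i k with hik | hik | hik
      · have := key k i j (by omega) (by omega) (by omega) hik hij
        linarith [a2 i k j, a1 i j k]
      · subst hik; linarith [a1 j i i, a2 i j i]
      · have := key i k j (by omega) (by omega) (by omega) hik hjk
        linarith [a1 i j k]
    · subst hjk; linarith [a1 i j j]
    · exact key i j k hs h1 h2 hij hjk

def cube (T : ℕ) (f : ℕ → ℕ → ℕ → ℝ) : ℝ :=
  ∑ i ∈ range (T + 1), ∑ j ∈ range (T + 1), ∑ k ∈ range (T + 1),
    if i + j + k = T then f i j k else 0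

theorem cube23 (T : ℕ) (f : ℕ → ℕ → ℕ → ℝ) : cube T (fun i j k => f i k j) = cube T f := by
  unfold cube
  refine sum_congr rfl fun i _ => ?_
  rw [sum_comm]
  exact sum_congr rfl fun j _ => sum_congr rfl fun k _ => by rw [add_right_comm]

theorem cube12 (T : ℕ) (f : ℕ → ℕ → ℕ → ℝ) : cube T (fun i j k => f j i k) = cube T f := by
  unfold cube
  rw [sum_comm]
  exact sum_congr rfl fun i _ => sum_congr rfl fun j _ => sum_congr rfl fun k _ => by
    rw [add_comm j i]

theorem cube_neg (T : ℕ) (f : ℕ → ℕ → ℕ → ℝ) : cube T (fun i j k => -f i j k) = -cube T f := by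
  unfold cube
  simp only [← sum_neg_distrib]
  exact sum_congr rfl fun i _ => sum_congr rfl fun j _ => sum_congr rfl fun k _ => by
    split_ifs <;> simp

theorem cube_alt (t : ℕ) (e : ℕ → ℤ) (h : altOK t e = true) (χ : ℕ → ℕ → ℕ → ℝ)
    (h23 : ∀ i j k, χ i k j = -χ i j k) (h12 : ∀ i j k, χ j i k = -χ i j k)
    (hp : ∀ i j k, ¬ (i % 2 = j % 2 ∧ j % 2 = k % 2) → χ i j k = 0) :
    cube (t + 1) (fun i j k => (cc t e i k : ℝ) * χ i j k) = 0 := by
  have g23 : ∀ c : ℕ → ℕ → ℕ → ℝ, cube (t + 1) (fun i j k => c i k j * χ i j k) =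
      -cube (t + 1) (fun i j k => c i j k * χ i j k) := by
    intro c
    rw [← cube_neg, ← cube23]
    congr 1; funext i j k; rw [h23 i j k]; ring
  have g12 : ∀ c : ℕ → ℕ → ℕ → ℝ, cube (t + 1) (fun i j k => c j i k * χ i j k) =
      -cube (t + 1) (fun i j k => c i j k * χ i j k) := by
    intro c
    rw [← cube_neg, ← cube12]
    congr 1; funext i j k; rw [h12 i j k]; ring
  have a1 := g23 (fun i _ k => (cc t e i k : ℝ))
  have a2 := g12 (fun i _ k => (cc t e i k : ℝ))
  have a3 := g12 (fun i j _ => (cc t e i j : ℝ))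
  have a4 := g23 (fun _ j k => (cc t e j k : ℝ))
  have a5 := g23 (fun i j _ => (cc t e j i : ℝ))
  have a6 : cube (t + 1) (fun i j k => (alt t e i j k : ℝ) * χ i j k) = 0 := by
    unfold cube
    refine sum_eq_zero fun i _ => sum_eq_zero fun j _ => sum_eq_zero fun k _ => ?_
    split_ifs with hs
    · by_cases hq : i % 2 = j % 2 ∧ j % 2 = k % 2
      · simp [alt_zero h i j k hs hq.1 hq.2]
      · simp [hp i j k hq]
    · rfl
  have a7 : cube (t + 1) (fun i j k => (alt t e i j k : ℝ) * χ i j k) =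
      cube (t + 1) (fun i j k => (cc t e i k : ℝ) * χ i j k) -
      cube (t + 1) (fun i j k => (cc t e i j : ℝ) * χ i j k) -
      cube (t + 1) (fun i j k => (cc t e j k : ℝ) * χ i j k) +
      cube (t + 1) (fun i j k => (cc t e j i : ℝ) * χ i j k) +
      cube (t + 1) (fun i j k => (cc t e k j : ℝ) * χ i j k) -
      cube (t + 1) (fun i j k => (cc t e k i : ℝ) * χ i j k) := by
    unfold cube
    simp only [← sum_sub_distrib, ← sum_add_distrib]
    refine sum_congr rfl fun i _ => sum_congr rfl fun j _ => sum_congr rfl fun k _ => ?_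
    split_ifs
    · unfold alt; push_cast; ring
    · simp
  linarith

theorem rel4_abs (Λ : R4 →ₗ[ℝ] ℝ) (h01 : ∀ P, Λ (rename (swap 0 1) P) = -Λ P)
    (h12 : ∀ P, Λ (rename (swap 1 2) P) = -Λ P) (h23 : ∀ P, Λ (rename (swap 2 3) P) = -Λ P)
    (t : ℕ) (e : ℕ → ℤ) (h : altOK t e = true) : Λ (e4 (hv t e)) = 0 := by
  let A : R4 := X 0 + X 1 - X 2 - X 3
  let B : R4 := X 1 + X 2 - X 0 - X 3
  let C : R4 := X 1 + X 3 - X 0 - X 2
  let χ : ℕ → ℕ → ℕ → ℝ := fun i j k => Λ (A ^ i * B ^ j * C ^ k)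
  have s1 : (swap (2 : Fin 4) 3) 0 = 0 := by decide
  have s2 : (swap (2 : Fin 4) 3) 1 = 1 := by decide
  have s3 : (swap (0 : Fin 4) 1) 2 = 2 := by decide
  have s4' : (swap (0 : Fin 4) 1) 3 = 3 := by decide
  have s5 : (swap (1 : Fin 4) 2) 0 = 0 := by decide
  have s6 : (swap (1 : Fin 4) 2) 3 = 3 := by decide
  have neg : ∀ (P : R4) (i : ℕ), (-P) ^ i = ((-1 : ℝ) ^ i) • P ^ i := fun P i => by
    rw [← smul_pow, neg_one_smul]
  have c23 : ∀ i j k, χ i k j = -χ i j k := by
    intro i j k
    have := h23 (A ^ i * B ^ j * C ^ k)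
    have eA : rename (swap (2 : Fin 4) 3) A = A := by simp [A, s1, s2]; ring
    have eB : rename (swap (2 : Fin 4) 3) B = C := by simp [B, C, s1, s2]
    have eC : rename (swap (2 : Fin 4) 3) C = B := by simp [B, C, s1, s2]
    simp only [map_mul, map_pow, eA, eB, eC] at this
    rw [mul_right_comm] at this
    exact this
  have c01 : ∀ i j k, (-1 : ℝ) ^ (j + k) * χ i k j = -χ i j k := by
    intro i j k
    have := h01 (A ^ i * B ^ j * C ^ k)
    have eA : rename (swap (0 : Fin 4) 1) A = A := by simp [A, s3, s4']; ring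
    have eB : rename (swap (0 : Fin 4) 1) B = -C := by simp [B, C, s3, s4']; ring
    have eC : rename (swap (0 : Fin 4) 1) C = -B := by simp [B, C, s3, s4']; ring
    simp only [map_mul, map_pow, eA, eB, eC] at this
    rw [mul_right_comm, neg B, neg C] at this
    simp only [mul_smul_comm, smul_mul_assoc, map_smul, smul_eq_mul] at this
    rw [pow_add, mul_assoc]
    exact this
  have c13 : ∀ i j k, (-1 : ℝ) ^ (i + k) * χ k j i = -χ i j k := by
    intro i j k
    have := h12 (A ^ i * B ^ j * C ^ k)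
    have eA : rename (swap (1 : Fin 4) 2) A = -C := by simp [A, C, s5, s6]; ring
    have eB : rename (swap (1 : Fin 4) 2) B = B := by simp [B, s5, s6]; ring
    have eC : rename (swap (1 : Fin 4) 2) C = -A := by simp [A, C, s5, s6]; ring
    simp only [map_mul, map_pow, eA, eB, eC] at this
    rw [neg A, neg C] at this
    simp only [mul_smul_comm, smul_mul_assoc, map_smul, smul_eq_mul] at this
    rw [show C ^ i * B ^ j * A ^ k = A ^ k * B ^ j * C ^ i by ring] at this
    rw [add_comm i k, pow_add, mul_assoc]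
    exact this
  have p1 : ∀ i j k, j % 2 ≠ k % 2 → χ i j k = 0 := by
    intro i j k hjk
    have h1 := c01 i j k
    have h2 := c23 i j k
    rw [Odd.neg_one_pow (Nat.odd_iff.2 (by omega))] at h1
    linarith
  have hp : ∀ i j k, ¬ (i % 2 = j % 2 ∧ j % 2 = k % 2) → χ i j k = 0 := by
    intro i j k hq
    by_cases hjk : j % 2 = k % 2
    · have h1 := c13 i j k
      rw [p1 k j i (by omega)] at h1
      linarith
    · exact p1 i j k hjk
  have c13' : ∀ i j k, χ k j i = -χ i j k := by
    intro i j k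
    by_cases hq : i % 2 = j % 2 ∧ j % 2 = k % 2
    · have h1 := c13 i j k
      rw [Even.neg_one_pow (Nat.even_iff.2 (by omega))] at h1
      linarith
    · rw [hp i j k hq, hp k j i (by omega)]; simp
  have c12 : ∀ i j k, χ j i k = -χ i j k := by
    intro i j k
    linarith [c23 j k i, c13' i k j, c23 i j k]
  have h0 := cube_alt t e h χ c23 c12 hp
  have hm : ∀ s ∈ range (t + 1), (2 : ℝ) ^ (t + 1) * ((e s : ℝ) * Λ (e4 (s4 ^ s * r4 ^ (t - s)))) =
      ∑ j ∈ range (t + 1 + 1), ∑ k ∈ range (t + 1 + 1),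
        if s + j + k = t + 1 then (cc t e s k : ℝ) * χ s j k else 0 := by
    intro s hs
    have hs := mem_range.1 hs
    have x1 := expand C B 1 1 (-1) 1 1 (t - s)
    have y1 : (((1 : ℤ) : ℝ) • C + ((1 : ℤ) : ℝ) • B) = (2 : ℝ) • (X 1 - X 0) := by
      simp only [B, C]; push_cast; module
    have y2 : (((-1 : ℤ) : ℝ) • C + ((1 : ℤ) : ℝ) • B) = (2 : ℝ) • (X 2 - X 3) := by
      simp only [B, C]; push_cast; module
    have y3 : e4 (s4 ^ s * r4 ^ (t - s)) = A ^ s * ((X 1 - X 0) * (X 2 - X 3) ^ (t - s)) := by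
      simp [e4, s4, r4, A]; ring
    rw [y1, y2, smul_pow, smul_pow, smul_mul_smul_comm, ← pow_add, pow_one] at x1
    have y4 : (2 : ℝ) ^ (t + 1) = 2 ^ s * 2 ^ (1 + (t - s)) := by
      rw [← pow_add]; congr 1; omega
    have y5 : (2 : ℝ) ^ (1 + (t - s)) * Λ (e4 (s4 ^ s * r4 ^ (t - s))) =
        ∑ k ∈ range (1 + (t - s) + 1), (co 1 1 (-1) 1 1 (t - s) k : ℝ) *
          χ s (1 + (t - s) - k) k := by
      rw [y3, ← smul_eq_mul, ← map_smul, ← mul_smul_comm, x1, mul_sum, map_sum]
      refine sum_congr rfl fun k _ => ?_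
      rw [mul_smul_comm, map_smul, smul_eq_mul]
      congr 2; ring
    rw [y4, sum_comm]
    calc _ = (e s : ℝ) * 2 ^ s * (2 ^ (1 + (t - s)) * Λ (e4 (s4 ^ s * r4 ^ (t - s)))) := by ring
      _ = ∑ k ∈ range (1 + (t - s) + 1), (cc t e s k : ℝ) * χ s (1 + (t - s) - k) k := by
          rw [y5, mul_sum]
          refine sum_congr rfl fun k _ => ?_
          rw [cc, if_pos (by omega)]
          push_cast; ring
      _ = _ := by
          symm
          rw [← sum_subset (s₁ := range (1 + (t - s) + 1))]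
          · refine sum_congr rfl fun k hk => ?_
            have hk := mem_range.1 hk
            rw [sum_eq_single (1 + (t - s) - k)]
            · rw [if_pos (by omega)]
            · intro j _ hj; rw [if_neg (by omega)]
            · intro h; exact absurd (mem_range.2 (by omega)) h
          · exact range_subset_range.2 (by omega)
          · intro k _ hk
            have hk : ¬ k < 1 + (t - s) + 1 := fun h => hk (mem_range.2 h)
            exact sum_eq_zero fun j _ => if_neg (by omega)
  have h1 : (2 : ℝ) ^ (t + 1) * Λ (e4 (hv t e)) =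
      cube (t + 1) (fun i j k => (cc t e i k : ℝ) * χ i j k) := by
    have : e4 (hv t e) = ∑ s ∈ range (t + 1), (e s : ℝ) • e4 (s4 ^ s * r4 ^ (t - s)) := by
      simp only [e4, hv, map_sum, map_smul, mul_sum, mul_smul_comm]
    rw [this, map_sum, mul_sum, cube, sum_range_succ _ (t + 1)]
    simp only [map_smul, smul_eq_mul]
    rw [sum_congr rfl hm]
    have : ∀ k, cc t e (t + 1) k = 0 := fun k => by simp [cc]
    simp [this]
  rw [h0] at h1
  exact (mul_eq_zero.1 h1).resolve_left (by positivity)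

end

end Vale.Agent.P359
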