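import Vale.Agent.P359.One
import Vale.Agent.P359.Rel

namespace Vale.Agent.P359

open Finset MvPolynomial Equiv

noncomputable section

section
variable {M : Type} [AddCommGroup M] [Module ℝ M]

def linF {r : ℕ} (f : (Fin r → ℕ) → M) : MvPolynomial (Fin r) ℝ →ₗ[ℝ] M :=
  (basisMonomials (Fin r) ℝ).constr ℝ fun m => f m

theorem mono_prod {r : ℕ} (m : Fin r →₀ ℕ) :
    (monomial m 1 : MvPolynomial (Fin r) ℝ) = ∏ i, X i ^ m i := by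
  rw [monomial_eq, Finsupp.prod_fintype _ _ (by simp)]; simp

theorem linF_prod {r : ℕ} (f : (Fin r → ℕ) → M) (m : Fin r → ℕ) :
    linF f (∏ i, X i ^ m i) = f m := by
  have h := mono_prod (Finsupp.equivFunOnFinite.symm m)
  have h2 := (basisMonomials (Fin r) ℝ).constr_basis ℝ (fun m => f m)
    (Finsupp.equivFunOnFinite.symm m)
  simp only [Finsupp.equivFunOnFinite_symm_apply_apply] at h
  rw [← h]
  simpa [linF] using h2

theorem extF {r : ℕ} {F G : MvPolynomial (Fin r) ℝ →ₗ[ℝ] M}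
    (h : ∀ m : Fin r → ℕ, F (∏ i, X i ^ m i) = G (∏ i, X i ^ m i)) : F = G :=
  (basisMonomials (Fin r) ℝ).ext fun m => by
    simp only [coe_basisMonomials, mono_prod]; exact h m

def lin2 (f : ℕ → ℕ → M) : R2 →ₗ[ℝ] M := linF fun m => f (m 0) (m 1)
def lin3 (f : ℕ → ℕ → ℕ → M) : R3 →ₗ[ℝ] M := linF fun m => f (m 0) (m 1) (m 2)
def lin4 (f : ℕ → ℕ → ℕ → ℕ → M) : R4 →ₗ[ℝ] M := linF fun m => f (m 0) (m 1) (m 2) (m 3)

theorem lin2_mono (f : ℕ → ℕ → M) (a b : ℕ) : lin2 f (X 0 ^ a * X 1 ^ b) = f a b := by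
  have := linF_prod (fun m : Fin 2 → ℕ => f (m 0) (m 1)) ![a, b]
  rw [Fin.prod_univ_two] at this
  exact this

theorem lin3_mono (f : ℕ → ℕ → ℕ → M) (a b c : ℕ) :
    lin3 f (X 0 ^ a * X 1 ^ b * X 2 ^ c) = f a b c := by
  have := linF_prod (fun m : Fin 3 → ℕ => f (m 0) (m 1) (m 2)) ![a, b, c]
  rw [Fin.prod_univ_three] at this
  exact this

theorem lin4_mono (f : ℕ → ℕ → ℕ → ℕ → M) (a b c d : ℕ) :
    lin4 f (X 0 ^ a * X 1 ^ b * X 2 ^ c * X 3 ^ d) = f a b c d := by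
  have := linF_prod (fun m : Fin 4 → ℕ => f (m 0) (m 1) (m 2) (m 3)) ![a, b, c, d]
  rw [Fin.prod_univ_four] at this
  exact this

theorem ext2 {F G : R2 →ₗ[ℝ] M} (h : ∀ a b, F (X 0 ^ a * X 1 ^ b) = G (X 0 ^ a * X 1 ^ b)) :
    F = G := extF fun m => by rw [Fin.prod_univ_two]; exact h _ _

theorem ext3 {F G : R3 →ₗ[ℝ] M}
    (h : ∀ a b c, F (X 0 ^ a * X 1 ^ b * X 2 ^ c) = G (X 0 ^ a * X 1 ^ b * X 2 ^ c)) :
    F = G := extF fun m => by rw [Fin.prod_univ_three]; exact h _ _ _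

theorem ext4 {F G : R4 →ₗ[ℝ] M}
    (h : ∀ a b c d, F (X 0 ^ a * X 1 ^ b * X 2 ^ c * X 3 ^ d) =
      G (X 0 ^ a * X 1 ^ b * X 2 ^ c * X 3 ^ d)) :
    F = G := extF fun m => by rw [Fin.prod_univ_four]; exact h _ _ _ _

end

variable {Q m : ℕ}

abbrev SQ (Q m : ℕ) := St (Fin (Q + 1)) m

def Phi3 (ψ : SQ Q (m + 3)) : R2 →ₗ[ℝ] SQ Q m :=
  lin2 fun a b => ann (zv Q b) (ann2 (bt Q a) ψ)

def Phi4 (ψ : SQ Q (m + 4)) : R3 →ₗ[ℝ] SQ Q m :=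
  lin3 fun a b c => ann (zv Q c) (ann (zv Q b) (ann2 (bt Q a) ψ))

def Psi3 (ψ : SQ Q (m + 3)) : R3 →ₗ[ℝ] SQ Q m :=
  lin3 fun a b c => ann (zv Q c) (ann (zv Q b) (ann (zv Q a) ψ))

def Psi4 (ψ : SQ Q (m + 4)) : R4 →ₗ[ℝ] SQ Q m :=
  lin4 fun a b c d => ann (zv Q d) (ann (zv Q c) (ann (zv Q b) (ann (zv Q a) ψ)))

theorem Phi3_mono (ψ : SQ Q (m + 3)) (a b : ℕ) :
    Phi3 ψ (X 0 ^ a * X 1 ^ b) = ann (zv Q b) (ann2 (bt Q a) ψ) := lin2_mono _ a b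

theorem Phi4_mono (ψ : SQ Q (m + 4)) (a b c : ℕ) :
    Phi4 ψ (X 0 ^ a * X 1 ^ b * X 2 ^ c) = ann (zv Q c) (ann (zv Q b) (ann2 (bt Q a) ψ)) :=
  lin3_mono _ a b c

theorem Psi3_mono (ψ : SQ Q (m + 3)) (a b c : ℕ) :
    Psi3 ψ (X 0 ^ a * X 1 ^ b * X 2 ^ c) = ann (zv Q c) (ann (zv Q b) (ann (zv Q a) ψ)) :=
  lin3_mono _ a b c

theorem Psi4_mono (ψ : SQ Q (m + 4)) (a b c d : ℕ) :
    Psi4 ψ (X 0 ^ a * X 1 ^ b * X 2 ^ c * X 3 ^ d) =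
      ann (zv Q d) (ann (zv Q c) (ann (zv Q b) (ann (zv Q a) ψ))) :=
  lin4_mono _ a b c d

theorem Phi4_emb (ψ : SQ Q (m + 4)) (P : R2) (k : ℕ) :
    Phi4 ψ (emb P * X 2 ^ k) = ann (zv Q k) (Phi3 (m := m + 1) ψ P) := by
  have : (Phi4 ψ) ∘ₗ (LinearMap.mulRight ℝ (X 2 ^ k : R3)) ∘ₗ emb.toLinearMap =
      (ann (zv Q k)) ∘ₗ Phi3 (m := m + 1) ψ := ext2 fun a b => by
    simp only [LinearMap.comp_apply, AlgHom.toLinearMap_apply, LinearMap.mulRight_apply, emb,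
      map_mul, map_pow, rename_X, Phi3_mono]
    exact Phi4_mono ψ a b k
  exact LinearMap.congr_fun this P

theorem Phi3_anti {ψ : SQ Q (m + 3)} (h : Anti ψ) (P : R2) : Anti (Phi3 ψ P) := by
  induction P using MvPolynomial.induction_on' with
  | monomial u a =>
    have : (monomial u a : R2) = a • (X 0 ^ u 0 * X 1 ^ u 1) := by
      rw [← Fin.prod_univ_two (fun i => (X i : R2) ^ u i), ← mono_prod, smul_monomial]; simp
    rw [this, map_smul, Phi3_mono]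
    exact ((h.ann2 _).ann _).smul a
  | add p q hp hq => rw [map_add]; exact hp.add hq

theorem Phi3_eq (ψ : SQ Q (m + 3)) (P : R2) : Phi3 ψ P = Psi3 ψ (e3 P) := by
  have : Phi3 ψ = (Psi3 ψ) ∘ₗ (LinearMap.mulLeft ℝ (X 1 - X 0 : R3)) ∘ₗ
      (aeval ![X 0 + X 1, X 2] : R2 →ₐ[ℝ] R3).toLinearMap := ext2 fun a b => by
    simp only [LinearMap.comp_apply, AlgHom.toLinearMap_apply, LinearMap.mulLeft_apply,
      map_mul, map_pow, aeval_X, Phi3_mono, Matrix.cons_val_zero, Matrix.cons_val_one]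
    rw [← mul_assoc, poly_gam, sum_mul, map_sum, ann2_bt, map_sum]
    refine sum_congr rfl fun p _ => ?_
    rw [smul_mul_assoc, map_smul, map_smul, Psi3_mono]
  exact LinearMap.congr_fun this P

theorem Phi4_eq (ψ : SQ Q (m + 4)) (P : R3) : Phi4 ψ P = Psi4 ψ (e4 P) := by
  have : Phi4 ψ = (Psi4 ψ) ∘ₗ (LinearMap.mulLeft ℝ (X 1 - X 0 : R4)) ∘ₗ
      (aeval ![X 0 + X 1, X 2, X 3] : R3 →ₐ[ℝ] R4).toLinearMap := ext3 fun a b c => by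
    simp only [LinearMap.comp_apply, AlgHom.toLinearMap_apply, LinearMap.mulLeft_apply,
      map_mul, map_pow, aeval_X, Phi4_mono, Matrix.cons_val_zero, Matrix.cons_val_one,
      Matrix.cons_val]
    rw [← mul_assoc, ← mul_assoc, poly_gam, sum_mul, sum_mul, map_sum, ann2_bt, map_sum, map_sum]
    refine sum_congr rfl fun p _ => ?_
    rw [smul_mul_assoc, smul_mul_assoc, map_smul, map_smul, map_smul, Psi4_mono]
  exact LinearMap.congr_fun this P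

theorem Phi3_rel {ψ : SQ Q (m + 3)} (h : Anti ψ) (l : ℕ) (hl : l = 0 ∨ l = 1 ∨ l = 3) :
    Phi3 ψ (d3 ^ l) = 0 := by
  funext r
  rw [Phi3_eq]
  have s1 : (swap (1 : Fin 3) 2) 0 = 0 := by decide
  have s2 : (swap (0 : Fin 3) 1) 2 = 2 := by decide
  have h01 : (Psi3 ψ) ∘ₗ (rename (swap (0 : Fin 3) 1)).toLinearMap = -Psi3 ψ := ext3 fun a b c => by
    simp only [LinearMap.comp_apply, AlgHom.toLinearMap_apply, map_mul, map_pow, rename_X,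
      swap_apply_left, swap_apply_right, s2, LinearMap.neg_apply]
    rw [mul_comm (X 1 ^ a), Psi3_mono, Psi3_mono, h.ann_ann, map_neg]
  have h12 : (Psi3 ψ) ∘ₗ (rename (swap (1 : Fin 3) 2)).toLinearMap = -Psi3 ψ := ext3 fun a b c => by
    simp only [LinearMap.comp_apply, AlgHom.toLinearMap_apply, map_mul, map_pow, rename_X,
      swap_apply_left, swap_apply_right, s1, LinearMap.neg_apply]
    rw [mul_right_comm, Psi3_mono, Psi3_mono, (h.ann _).ann_ann]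
  exact rel3_abs ((LinearMap.proj r) ∘ₗ Psi3 ψ)
    (fun P => congrFun (LinearMap.congr_fun h01 P) r)
    (fun P => congrFun (LinearMap.congr_fun h12 P) r) l hl

theorem Phi4_rel {ψ : SQ Q (m + 4)} (h : Anti ψ) (t : ℕ) (e : ℕ → ℤ) (he : altOK t e = true) :
    Phi4 ψ (hv t e) = 0 := by
  funext r
  rw [Phi4_eq]
  have s1 : (swap (2 : Fin 4) 3) 0 = 0 := by decide
  have s2 : (swap (2 : Fin 4) 3) 1 = 1 := by decide
  have s3 : (swap (0 : Fin 4) 1) 2 = 2 := by decide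
  have s4' : (swap (0 : Fin 4) 1) 3 = 3 := by decide
  have s5 : (swap (1 : Fin 4) 2) 0 = 0 := by decide
  have s6 : (swap (1 : Fin 4) 2) 3 = 3 := by decide
  have h01 : (Psi4 ψ) ∘ₗ (rename (swap (0 : Fin 4) 1)).toLinearMap = -Psi4 ψ :=
    ext4 fun a b c d => by
    simp only [LinearMap.comp_apply, AlgHom.toLinearMap_apply, map_mul, map_pow, rename_X,
      swap_apply_left, swap_apply_right, s3, s4', LinearMap.neg_apply]
    rw [mul_comm (X 1 ^ a), Psi4_mono, Psi4_mono, h.ann_ann, map_neg, map_neg]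
  have h12 : (Psi4 ψ) ∘ₗ (rename (swap (1 : Fin 4) 2)).toLinearMap = -Psi4 ψ :=
    ext4 fun a b c d => by
    simp only [LinearMap.comp_apply, AlgHom.toLinearMap_apply, map_mul, map_pow, rename_X,
      swap_apply_left, swap_apply_right, s5, s6, LinearMap.neg_apply]
    rw [mul_right_comm (X 0 ^ a), Psi4_mono, Psi4_mono, (h.ann _).ann_ann, map_neg]
  have h23 : (Psi4 ψ) ∘ₗ (rename (swap (2 : Fin 4) 3)).toLinearMap = -Psi4 ψ :=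
    ext4 fun a b c d => by
    simp only [LinearMap.comp_apply, AlgHom.toLinearMap_apply, map_mul, map_pow, rename_X,
      swap_apply_left, swap_apply_right, s1, s2, LinearMap.neg_apply]
    rw [mul_right_comm, Psi4_mono, Psi4_mono, ((h.ann _).ann _).ann_ann]
  exact rel4_abs ((LinearMap.proj r) ∘ₗ Psi4 ψ)
    (fun P => congrFun (LinearMap.congr_fun h01 P) r)
    (fun P => congrFun (LinearMap.congr_fun h12 P) r)
    (fun P => congrFun (LinearMap.congr_fun h23 P) r) t e he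

theorem Phi4_pair (ψ : SQ Q (m + 4)) (n : ℕ) :
    Phi4 ψ ((X 2 - X 1) * (X 1 + X 2) ^ n) = ann2 (bt Q n) (ann2 (bt Q 0) ψ) := by
  rw [poly_gam, map_sum, ann2_bt n]
  refine sum_congr rfl fun p _ => ?_
  rw [map_smul, ← Phi4_mono]; simp

def Tup (Q : ℕ) {m : ℕ} : SQ Q m →ₗ[ℝ] SQ Q m := one (tQ Q)
def Tdn (Q : ℕ) {m : ℕ} : SQ Q m →ₗ[ℝ] SQ Q m := one (fun a b => tQ Q b a)

theorem T_adj (φ ψ : SQ Q m) : ip φ (Tup Q ψ) = ip (Tdn Q φ) ψ := one_adj _ _ _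

theorem ann_up (hQ : 0 < Q) (k : ℕ) (ψ : SQ Q (m + 1)) : ann (zv Q k) (Tup Q ψ) =
    ((k : ℝ) * (1 - (k - 1) * (1 / Q))) • ann (zv Q (k - 1)) ψ + Tup Q (ann (zv Q k) ψ) := by
  rw [Tup, ann_one, zv_lower hQ, ann_smul]; rfl

theorem ann_dn (k : ℕ) (ψ : SQ Q (m + 1)) : ann (zv Q k) (Tdn Q ψ) =
    ann (zv Q (k + 1)) ψ + Tdn Q (ann (zv Q k) ψ) := by
  rw [Tdn, ann_one, zv_raise]; rfl

theorem ann2_up (hQ : 0 < Q) (k : ℕ) (ψ : SQ Q (m + 2)) : ann2 (bt Q k) (Tup Q ψ) =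
    ((k : ℝ) * (2 - (k + 1) * (1 / Q))) • ann2 (bt Q (k - 1)) ψ + Tup Q (ann2 (bt Q k) ψ) := by
  rw [Tup, ann2_one, bt_lower hQ, ann2_smul]; rfl

theorem ann2_dn (k : ℕ) (ψ : SQ Q (m + 2)) : ann2 (bt Q k) (Tdn Q ψ) =
    ann2 (bt Q (k + 1)) ψ + Tdn Q (ann2 (bt Q k) ψ) := by
  rw [Tdn, ann2_one, bt_raise]; rfl

def E3 : R2 →ₗ[ℝ] R2 := lin2 fun a b => ((a : ℝ) * (a + 1)) • (X 0 ^ (a - 1) * X 1 ^ b) +
  ((b : ℝ) * (b - 1)) • (X 0 ^ a * X 1 ^ (b - 1))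

def E4 : R3 →ₗ[ℝ] R3 := lin3 fun a b c =>
  ((a : ℝ) * (a + 1)) • (X 0 ^ (a - 1) * X 1 ^ b * X 2 ^ c) +
  ((b : ℝ) * (b - 1)) • (X 0 ^ a * X 1 ^ (b - 1) * X 2 ^ c) +
  ((c : ℝ) * (c - 1)) • (X 0 ^ a * X 1 ^ b * X 2 ^ (c - 1))

theorem D3_mono (a b : ℕ) : D3 (X 0 ^ a * X 1 ^ b) = (2 * (a : ℝ)) • (X 0 ^ (a - 1) * X 1 ^ b) +
    (b : ℝ) • (X 0 ^ a * X 1 ^ (b - 1)) := by
  simp [D3, Derivation.leibniz_pow, pderiv_X, Algebra.smul_def]; ring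

theorem D4_mono (a b c : ℕ) : D4 (X 0 ^ a * X 1 ^ b * X 2 ^ c) =
    (2 * (a : ℝ)) • (X 0 ^ (a - 1) * X 1 ^ b * X 2 ^ c) +
    (b : ℝ) • (X 0 ^ a * X 1 ^ (b - 1) * X 2 ^ c) +
    (c : ℝ) • (X 0 ^ a * X 1 ^ b * X 2 ^ (c - 1)) := by
  simp [D4, Derivation.leibniz_pow, pderiv_X, Algebra.smul_def]; ring

theorem Phi3_dn (ψ : SQ Q (m + 3)) (P : R2) :
    Phi3 (Tdn Q ψ) P = Phi3 ψ (y3 * P) + Tdn Q (Phi3 ψ P) := by
  have : Phi3 (Tdn Q ψ) = (Phi3 ψ) ∘ₗ (LinearMap.mulLeft ℝ y3) + (Tdn Q) ∘ₗ Phi3 ψ :=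
    ext2 fun a b => by
    have e : y3 * (X 0 ^ a * X 1 ^ b) = X 0 ^ (a + 1) * X 1 ^ b + X 0 ^ a * X 1 ^ (b + 1) := by
      rw [y3]; ring
    simp only [LinearMap.comp_apply, LinearMap.mulLeft_apply, LinearMap.add_apply, e, map_add,
      Phi3_mono, ann2_dn, ann_dn, add_assoc]
  exact LinearMap.congr_fun this P

theorem Phi4_dn (ψ : SQ Q (m + 4)) (P : R3) :
    Phi4 (Tdn Q ψ) P = Phi4 ψ (C4 * P) + Tdn Q (Phi4 ψ P) := by
  have : Phi4 (Tdn Q ψ) = (Phi4 ψ) ∘ₗ (LinearMap.mulLeft ℝ C4) + (Tdn Q) ∘ₗ Phi4 ψ :=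
    ext3 fun a b c => by
    have e : C4 * (X 0 ^ a * X 1 ^ b * X 2 ^ c) = X 0 ^ (a + 1) * X 1 ^ b * X 2 ^ c +
        X 0 ^ a * X 1 ^ (b + 1) * X 2 ^ c + X 0 ^ a * X 1 ^ b * X 2 ^ (c + 1) := by
      rw [C4]; ring
    simp only [LinearMap.comp_apply, LinearMap.mulLeft_apply, LinearMap.add_apply, e, map_add,
      Phi4_mono, ann2_dn, ann_dn, add_assoc]
  exact LinearMap.congr_fun this P

theorem Phi3_up (hQ : 0 < Q) (ψ : SQ Q (m + 3)) (P : R2) :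
    Phi3 (Tup Q ψ) P = Phi3 ψ (D3 P - (1 / Q : ℝ) • E3 P) + Tup Q (Phi3 ψ P) := by
  have : Phi3 (Tup Q ψ) = (Phi3 ψ) ∘ₗ (D3.toLinearMap - (1 / Q : ℝ) • E3) + (Tup Q) ∘ₗ Phi3 ψ :=
    ext2 fun a b => by
    simp only [LinearMap.comp_apply, LinearMap.add_apply, LinearMap.sub_apply,
      LinearMap.smul_apply, Derivation.coeFn_coe, D3_mono, E3, lin2_mono, map_add, map_sub,
      map_smul, Phi3_mono, ann2_up hQ, ann_up hQ]
    module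
  exact LinearMap.congr_fun this P

theorem Phi4_up (hQ : 0 < Q) (ψ : SQ Q (m + 4)) (P : R3) :
    Phi4 (Tup Q ψ) P = Phi4 ψ (D4 P - (1 / Q : ℝ) • E4 P) + Tup Q (Phi4 ψ P) := by
  have : Phi4 (Tup Q ψ) = (Phi4 ψ) ∘ₗ (D4.toLinearMap - (1 / Q : ℝ) • E4) + (Tup Q) ∘ₗ Phi4 ψ :=
    ext3 fun a b c => by
    simp only [LinearMap.comp_apply, LinearMap.add_apply, LinearMap.sub_apply,
      LinearMap.smul_apply, Derivation.coeFn_coe, D4_mono, E4, lin3_mono, map_add, map_sub,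
      map_smul, Phi4_mono, ann2_up hQ, ann_up hQ]
    module
  exact LinearMap.congr_fun this P

end

end Vale.Agent.P359
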