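import Vale.Agent.P359.Ev
import Vale.Agent.P359.ChkA
import Vale.Agent.P359.ChkD

namespace Vale.Agent.P359

open Finset MvPolynomial

noncomputable section

variable {τ3 : R2 →ₗ[ℝ] R2 →ₗ[ℝ] ℝ} {τ4 : R3 →ₗ[ℝ] R3 →ₗ[ℝ] ℝ}

theorem PTf_eq (n n' r : ℕ) : PTf n n' r = PTs n n' r := by
  simp only [PTf, PTs, st_eq, sumZ_eq]
  refine sum_congr rfl fun p _ => sum_congr rfl fun p' _ => ?_
  by_cases h : r ≤ p + (p' + n')
  · have : Nat.ble r (Nat.add p (Nat.add p' n')) = true := by
      rw [Nat.ble_eq]; exact h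
    rw [this, if_pos h]; rfl
  · have : Nat.ble r (Nat.add p (Nat.add p' n')) = false := by
      rw [← Bool.not_eq_true, Nat.ble_eq]; exact h
    rw [this, if_neg h]; rfl

theorem PTt_eq (n n' r : ℕ) (hn : n < 13) (hn' : n' < 13) (hr : r < 37) :
    PTt n n' r = PTs n n' r := by
  have := chkPT_all n (Nat.zero_le _) hn
  simp only [chkPT, allTo_iff, decide_eq_true_eq] at this
  rw [← this n' hn' r hr, PTf_eq]

theorem sum_shift (n : ℕ) (hn : n ≤ 12) (f : ℕ → ℝ) :
    ∑ k ∈ range 19, (if n ≤ k ∧ k ≤ n + 6 then f k else 0) = ∑ p ∈ range 7, f (p + n) := by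
  interval_cases n <;> simp [sum_range_succ]

def cf (n p : ℕ) : ℝ := ((4 ^ n * 16 ^ p * om p : ℤ) : ℝ)

def Pw (w a k : ℕ) : R2 :=
  if valid w a then (if a + 2 - w ≤ k ∧ k ≤ a + 2 - w + 6 then
    cf (a + 2 - w) (k - (a + 2 - w)) • (d3 ^ a * y3 ^ (k - (a + 2 - w))) else 0) else 0

def cw (w a : ℕ) : ℝ := if w = 2 ∧ a = 0 then 1 else 0

def Bw (τ3 : R2 →ₗ[ℝ] R2 →ₗ[ℝ] ℝ) (τ4 : R3 →ₗ[ℝ] R3 →ₗ[ℝ] ℝ) (w a b : ℕ) : ℝ :=
  ∑ k ∈ range 19, (k.factorial : ℝ) * τ3 (Pw w a k) (Pw w b k) -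
    ∑ k ∈ range 19, ∑ k' ∈ range 19, τ4 (emb (Pw w a k) * X 2 ^ k') (emb (Pw w b k') * X 2 ^ k) +
    2 * cw w b * ∑ k ∈ range 19, τ3 (Pw w a k) (X 1 ^ k) + cw w a * cw w b

theorem bil_sum {A : Type} [AddCommGroup A] [Module ℝ A] (τ : A →ₗ[ℝ] A →ₗ[ℝ] ℝ) (s : Finset ℕ)
    (x : ℕ → ℝ) (u v : ℕ → A) :
    τ (∑ a ∈ s, x a • u a) (∑ b ∈ s, x b • v b) = ∑ a ∈ s, ∑ b ∈ s, x a * x b * τ (u a) (v b) := by
  simp only [map_sum, map_smul, LinearMap.sum_apply, LinearMap.smul_apply, smul_eq_mul, mul_sum]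
  rw [sum_comm]
  exact sum_congr rfl fun a _ => sum_congr rfl fun b _ => by ring

theorem Lim.Bw_psd (H : Lim τ3 τ4) (w : ℕ) (x : ℕ → ℝ) :
    0 ≤ ∑ a ∈ range 13, ∑ b ∈ range 13, x a * x b * Bw τ3 τ4 w a b := by
  refine (H.pauli3 19 (fun k => ∑ a ∈ range 13, x a • Pw w a k)
    (∑ a ∈ range 13, x a * cw w a)).trans_eq ?_
  simp only [Pauli, Bw, mul_add, mul_sub, sum_add_distrib, sum_sub_distrib]
  congr 1
  · congr 1
    · congr 1
      · simp only [bil_sum, mul_sum]
        rw [sum_comm]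
        refine sum_congr rfl fun a _ => ?_
        rw [sum_comm]
        exact sum_congr rfl fun b _ => sum_congr rfl fun k _ => by ring
      · simp only [map_sum emb, map_smul, sum_mul, smul_mul_assoc, bil_sum, mul_sum]
        calc _ = ∑ k ∈ range 19, ∑ a ∈ range 13, ∑ b ∈ range 13, ∑ k' ∈ range 19,
              x a * x b * τ4 (emb (Pw w a k) * X 2 ^ k') (emb (Pw w b k') * X 2 ^ k) := by
              refine sum_congr rfl fun k _ => ?_
              rw [sum_comm]
              exact sum_congr rfl fun a _ => sum_comm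
          _ = _ := by
              rw [sum_comm]
              exact sum_congr rfl fun a _ => sum_comm
    · simp only [map_sum, map_smul, LinearMap.sum_apply, LinearMap.smul_apply, smul_eq_mul]
      rw [sum_comm, mul_sum]
      refine sum_congr rfl fun a _ => ?_
      rw [← mul_sum, mul_sum (range 13), sum_mul]
      exact sum_congr rfl fun b _ => by ring
  · rw [sq, sum_mul_sum]
    exact sum_congr rfl fun a _ => sum_congr rfl fun b _ => by ring

theorem Lim.dy (H : Lim τ3 τ4) (a p b p' : ℕ) :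
    τ3 (d3 ^ a * y3 ^ p) (d3 ^ b * y3 ^ p') =
      if p = p' then (fw 3 p : ℝ) * τ3 (d3 ^ a) (d3 ^ b) else 0 := by
  have hd : ∀ a : ℕ, D3 (d3 ^ a) = 0 := fun a => by simp [Derivation.leibniz_pow, D3_d]
  rw [mul_comm (d3 ^ a), mul_comm (d3 ^ b), H.i3.pow (hd a) (hd b)]

theorem Lim.one (H : Lim τ3 τ4) (w a b : ℕ) :
    ∑ k ∈ range 19, (k.factorial : ℝ) * τ3 (Pw w a k) (Pw w b k) =
      if valid w a ∧ a = b then (oneI (a + 2 - w) : ℝ) * nu τ3 a else 0 := by
  by_cases ha : valid w a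
  · by_cases hab : a = b
    · subst hab
      rw [if_pos ⟨ha, rfl⟩, oneI, sumZ_eq]
      push_cast
      rw [sum_mul]
      have hn : a + 2 - w ≤ 12 := by unfold valid at ha; omega
      have := sum_shift (a + 2 - w) hn (fun k => (k.factorial : ℝ) *
        ((cf (a + 2 - w) (k - (a + 2 - w))) ^ 2 * fw 3 (k - (a + 2 - w))) * nu τ3 a)
      simp only [Nat.add_sub_cancel, cf] at this
      push_cast at this
      rw [← this]
      refine sum_congr rfl fun k _ => ?_
      simp only [Pw, if_pos ha]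
      split_ifs with h
      · simp only [map_smul, LinearMap.smul_apply, smul_eq_mul, H.dy, if_true, nu, cf]
        push_cast; ring
      · simp
    · rw [if_neg (fun h => hab h.2)]
      refine sum_eq_zero fun k _ => ?_
      simp only [Pw, if_pos ha]
      split_ifs with h1 h2 h3
      · have : ¬ (k - (a + 2 - w) = k - (b + 2 - w)) := by unfold valid at ha h2; omega
        simp [H.dy, this]
      all_goals simp
  · simp [Pw, ha]

theorem Lim.cross (H : Lim τ3 τ4) (a : ℕ) (ha13 : a < 13) :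
    ∑ k ∈ range 19, τ3 (Pw 2 a k) (X 1 ^ k) =
      if 1 ≤ a then (crossQ a : ℝ) * nu τ3 a else 0 := by
  by_cases ha : 1 ≤ a
  · have hv : valid 2 a := by unfold valid; omega
    rw [if_pos ha, crossQ, sumQ_eq]
    push_cast
    rw [sum_mul]
    have := sum_shift a (by omega) (fun k => cf a (k - a) *
      ((co3 0 k (k - a) : ℝ) * fw 3 (k - a)) / 3 ^ k * nu τ3 a)
    simp only [Nat.add_sub_cancel, cf] at this
    push_cast at this
    rw [← this]
    refine sum_congr rfl fun k _ => ?_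
    simp only [Pw, if_pos hv, Nat.add_sub_cancel]
    split_ifs with h
    · have e := mono3 0 k
      rw [pow_zero, one_mul, one_mul, expand] at e
      rw [e]
      simp only [map_smul, map_sum, LinearMap.smul_apply, smul_eq_mul, zero_add]
      rw [sum_eq_single (k - a)]
      · rw [mul_comm (y3 ^ (k - a)), H.dy, if_pos rfl]
        have : k - (k - a) = a := by omega
        simp only [this, nu, cf, co3]
        push_cast
        rw [one_div, inv_pow]
        ring
      · intro j _ hj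
        rw [mul_comm (y3 ^ j), H.dy, if_neg (Ne.symm hj)]; simp
      · intro h; exact absurd (mem_range.2 (by omega)) h
    · simp
  · have hv : ¬ valid 2 a := by unfold valid; omega
    simp [Pw, hv, ha]

theorem Lim.exch (H : Lim τ3 τ4) (w a b : ℕ) (ha13 : a < 13) :
    ∑ k ∈ range 19, ∑ k' ∈ range 19,
      τ4 (emb (Pw w a k) * X 2 ^ k') (emb (Pw w b k') * X 2 ^ k) =
      ∑ t ∈ range 37, (if (valid w a ∧ valid w b) ∧ a ≤ t then
        (PTt (a + 2 - w) (b + 2 - w) (t - a) : ℝ) else 0) * eta τ4 t a b := by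
  by_cases hv : valid w a ∧ valid w b
  · obtain ⟨ha, hb⟩ := hv
    have hn : a + 2 - w ≤ 12 := by unfold valid at ha; omega
    have hn' : b + 2 - w ≤ 12 := by unfold valid at hb; omega
    set n := a + 2 - w with hnd
    set n' := b + 2 - w with hnd'
    let F : ℕ → ℕ → ℝ := fun k k' => cf n (k - n) * cf n' (k' - n') *
      τ4 (d4 ^ a * (y4 ^ (k - n) * X 2 ^ k')) (d4 ^ b * (y4 ^ (k' - n') * X 2 ^ k))
    have e1 : ∀ k k', τ4 (emb (Pw w a k) * X 2 ^ k') (emb (Pw w b k') * X 2 ^ k) =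
        if n ≤ k ∧ k ≤ n + 6 then (if n' ≤ k' ∧ k' ≤ n' + 6 then F k k' else 0) else 0 := by
      intro k k'
      simp only [Pw, if_pos ha, if_pos hb, ← hnd, ← hnd']
      split_ifs
      · simp only [map_smul, map_mul, map_pow, emb_d, emb_y, smul_mul_assoc,
          LinearMap.smul_apply, smul_eq_mul, F, mul_assoc]
        ring
      all_goals simp
    have e2 : ∑ k ∈ range 19, ∑ k' ∈ range 19,
        τ4 (emb (Pw w a k) * X 2 ^ k') (emb (Pw w b k') * X 2 ^ k) =
        ∑ p ∈ range 7, ∑ p' ∈ range 7, F (p + n) (p' + n') := by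
      rw [← sum_shift n hn (fun k => ∑ p' ∈ range 7, F k (p' + n'))]
      refine sum_congr rfl fun k _ => ?_
      simp only [e1]
      split_ifs
      · exact sum_shift n' hn' (F k)
      · simp
    have e3 : ∀ t ∈ range 37, (if (valid w a ∧ valid w b) ∧ a ≤ t then
        (PTt n n' (t - a) : ℝ) else 0) * eta τ4 t a b = ∑ p ∈ range 7, ∑ p' ∈ range 7,
        (om p : ℝ) * om p' * ((if a ≤ t ∧ t - a ≤ p + (p' + n') then
        ((co4 p (p' + n') (p + (p' + n') - (t - a)) * co4 p' (p + n) (p + (p' + n') - (t - a)) *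
          fw 4 (p + (p' + n') - (t - a)) : ℤ) : ℝ) else 0) * eta τ4 t a b) := by
      intro t ht
      have ht := mem_range.1 ht
      by_cases h : a ≤ t
      · rw [if_pos ⟨⟨ha, hb⟩, h⟩, PTt_eq n n' (t - a) (by omega) (by omega) (by omega), PTs]
        simp only [sumZ_eq, h, true_and]
        push_cast
        simp only [sum_mul]
        refine sum_congr rfl fun p _ => sum_congr rfl fun p' _ => ?_
        split_ifs
        · ring
        · simp
      · simp [h]
    rw [e2, sum_congr rfl e3, sum_comm (s := range 37)]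
    refine sum_congr rfl fun p hp => ?_
    rw [sum_comm (s := range 37)]
    refine sum_congr rfl fun p' hp' => ?_
    have hp := mem_range.1 hp
    have hp' := mem_range.1 hp'
    simp only [F, Nat.add_sub_cancel]
    rw [H.ev4 a b p (p' + n') p' (p + n) ha.1 hb.1 (by unfold valid at ha hb; omega) (by omega),
      ← mul_sum, ← mul_assoc]
    congr 1
    simp only [cf]
    push_cast
    have : (16 : ℝ) = 4 ^ 2 := by norm_num
    rw [this, ← pow_mul, ← pow_mul, one_div, inv_pow]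
    field_simp
    ring
  · simp only [hv, false_and, if_false, zero_mul, sum_const_zero]
    refine sum_eq_zero fun k _ => sum_eq_zero fun k' _ => ?_
    rcases not_and_or.1 hv with h | h <;> simp [Pw, h]

theorem Lim.sosG (H : Lim τ3 τ4) (w : ℕ) (hw : w < 15) :
    0 ≤ ∑ a ∈ range 13, ∑ b ∈ range 13, (G w a b : ℝ) * Bw τ3 τ4 w a b := by
  have h := psd_sound 13 _ (chkG_all w (Nat.zero_le _) hw)
    (fun a b => (2 : ℝ) ^ Gx w a * 2 ^ Gx w b / 2 ^ 330 * Bw τ3 τ4 w a b) (fun x => by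
      have := H.Bw_psd w (fun a => x a * 2 ^ Gx w a / 2 ^ 165)
      refine this.trans_eq (sum_congr rfl fun a _ => sum_congr rfl fun b _ => ?_)
      have : (2 : ℝ) ^ 330 = 2 ^ 165 * 2 ^ 165 := by rw [← pow_add]
      rw [this]; field_simp)
  refine h.trans_eq (sum_congr rfl fun a _ => sum_congr rfl fun b _ => ?_)
  have : Gi w a b = Gm w a b * 2 ^ (Gx w a + Gx w b) := by
    unfold Gi
    rw [show Int.ofNat (Nat.pow 2 (Nat.add (Gx w a) (Gx w b))) =
      ((2 ^ (Gx w a + Gx w b) : ℕ) : ℤ) from rfl]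
    push_cast; rfl
  simp only [G, this]
  push_cast
  rw [pow_add]; ring

theorem Lim.sosE (H : Lim τ3 τ4) (a k : ℕ) (ha : 1 ≤ a) (ha13 : a < 13) (hk : k < 25) :
    ∑ t ∈ range 37, (if a ≤ t ∧ t - a ≤ k then
        ((co4 0 k (k - (t - a)) * co4 0 k (k - (t - a)) * fw 4 (k - (t - a)) : ℤ) : ℝ) / 16 ^ k
        else 0) * eta τ4 t a a ≤ (k.factorial : ℝ) * nu τ3 a := by
  have h := H.pauli3 (k + 1) (fun j => if j = k then d3 ^ a else 0) 0
  have e1 : ∑ j ∈ range (k + 1), (j.factorial : ℝ) * τ3 (if j = k then d3 ^ a else 0)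
      (if j = k then d3 ^ a else 0) = (k.factorial : ℝ) * nu τ3 a := by
    rw [sum_eq_single k]
    · simp [nu]
    · intro j _ hj; simp [hj]
    · simp
  have e2 : ∑ j ∈ range (k + 1), ∑ j' ∈ range (k + 1),
      τ4 (emb (if j = k then d3 ^ a else 0) * X 2 ^ j')
        (emb (if j' = k then d3 ^ a else 0) * X 2 ^ j) =
      τ4 (d4 ^ a * (y4 ^ 0 * X 2 ^ k)) (d4 ^ a * (y4 ^ 0 * X 2 ^ k)) := by
    rw [sum_eq_single k]
    · rw [sum_eq_single k]
      · simp [emb_d]
      · intro j _ hj; simp [hj]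
      · simp
    · intro j _ hj; simp [hj]
    · simp
  simp only [Pauli, e1, e2] at h
  rw [H.ev4 a a 0 k 0 k ha ha rfl (by omega), mul_sum] at h
  have e3 : ∀ t ∈ range 37, (if a ≤ t ∧ t - a ≤ k then
        ((co4 0 k (k - (t - a)) * co4 0 k (k - (t - a)) * fw 4 (k - (t - a)) : ℤ) : ℝ) / 16 ^ k
        else 0) * eta τ4 t a a = ((1 : ℝ) / 4) ^ (0 + k + (0 + k)) * ((if a ≤ t ∧ t - a ≤ 0 + k then
        ((co4 0 k (0 + k - (t - a)) * co4 0 k (0 + k - (t - a)) *
          fw 4 (0 + k - (t - a)) : ℤ) : ℝ) else 0) * eta τ4 t a a) := by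
    intro t _
    simp only [zero_add]
    split_ifs
    · have : ((1 : ℝ) / 4) ^ (k + k) = (16 ^ k)⁻¹ := by
        rw [pow_add, ← mul_pow, ← inv_pow]; norm_num
      rw [this]; ring
    · simp
  rw [sum_congr rfl e3]
  linarith

end

end Vale.Agent.P359
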