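import Mathlib

namespace Vale.Agent.P359

noncomputable section

def st {α : Type} (n : ℕ) (f : ℕ → α) : α := Nat.casesOn n (f 0) fun m => f m.succ

def nth {α : Type} (d : α) (l : List α) : ℕ → α :=
  List.rec (fun _ => d) (fun x _ ih n => Nat.casesOn n x ih) l

def mulLin (a b : ℤ) : List ℤ → ℤ → List ℤ
  | [], prev => [a * prev]
  | c :: cs, prev => (a * prev + b * c) :: mulLin a b cs c

def powLin (a b : ℤ) : ℕ → List ℤ → List ℤ
  | 0, l => l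
  | n + 1, l => mulLin a b (powLin a b n l) 0

def cl (a b a' b' : ℤ) (p k : ℕ) : List ℤ := powLin a' b' k (powLin a b p [1])

/-- coefficient of `x^j y^(p+k-j)` in `(a x + b y)^p (a' x + b' y)^k` -/
def co (a b a' b' : ℤ) (p k j : ℕ) : ℤ := nth 0 (cl a b a' b' p k) j

def sumZ (n : ℕ) (f : ℕ → ℤ) : ℤ := Nat.rec 0 (fun i acc => Int.add acc (f i)) n

def sumQ (n : ℕ) (f : ℕ → ℚ) : ℚ := Nat.rec 0 (fun i acc => acc + f i) n

def allTo (n : ℕ) (f : ℕ → Bool) : Bool := Nat.rec true (fun i acc => f i && acc) n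

def tab (n : ℕ) (f : ℕ → ℕ → ℚ) : List (List ℚ) :=
  (List.range n).map fun i => (List.range n).map fun j => f i j

def get2 (M : List (List ℚ)) (i j : ℕ) : ℚ := nth 0 (nth [] M i) j

def psdL : ℕ → List (List ℚ) → Bool
  | 0, _ => true
  | n + 1, M =>
    decide (0 ≤ get2 M 0 0) &&
    allTo n (fun j => decide (get2 M (j + 1) 0 = get2 M 0 (j + 1)) &&
      (decide (get2 M 0 0 ≠ 0) || decide (get2 M 0 (j + 1) = 0))) &&
    psdL n (tab n fun i j => cond (decide (get2 M 0 i.succ = 0) || decide (get2 M 0 j.succ = 0))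
      (get2 M i.succ j.succ)
      (get2 M i.succ j.succ - get2 M 0 i.succ * (get2 M 0 j.succ / get2 M 0 0)))

def psd (n : ℕ) (f : ℕ → ℕ → ℚ) : Bool := psdL n (tab n f)

def fw (κ j : ℕ) : ℤ := ((κ ^ j * j.factorial : ℕ) : ℤ)

def om (p : ℕ) : ℤ := nth 0 [8806025134080, 183458856960, 1911029760, 13271040, 69120, 288, 1] p

def co3 (m k j : ℕ) : ℤ := co 2 1 1 (-1) m k j

def co4 (p k j : ℕ) : ℤ := co 3 1 1 (-1) p k j

def PTs (n n' r : ℕ) : ℤ :=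
  sumZ 7 fun p => sumZ 7 fun p' =>
    if r ≤ p + (p' + n') then
      om p * om p' * (co4 p (p' + n') (p + (p' + n') - r) * co4 p' (p + n) (p + (p' + n') - r) *
        fw 4 (p + (p' + n') - r))
    else 0

def PTf (n n' r : ℕ) : ℤ :=
  sumZ 7 fun p => sumZ 7 fun p' => st (Nat.add p' n') fun k' =>
    cond (Nat.ble r (Nat.add p k'))
      (st (Nat.add p n) fun k => st (Nat.sub (Nat.add p k') r) fun j =>
        Int.mul (Int.mul (om p) (om p')) (Int.mul (Int.mul (co4 p k' j) (co4 p' k j)) (fw 4 j)))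
      0

def t3 (m k m' k' l : ℕ) : ℚ :=
  if l ≤ m + k then
    ((co3 m k (m + k - l) * co3 m' k' (m + k - l) * fw 3 (m + k - l) : ℤ) : ℚ) / 9 ^ (m + k)
  else 0

def aK (l : ℕ) : ℚ :=
  sumQ 26 fun n => (t3 0 (n + 1) n 1 l - ((n : ℚ) - 1) * t3 0 n n 0 l) / (fw 2 n : ℚ)

def oneI (n : ℕ) : ℤ :=
  sumZ 7 fun p => ((p + n).factorial : ℤ) * ((4 ^ n * 16 ^ p * om p) ^ 2 * fw 3 p)

def crossQ (a : ℕ) : ℚ :=
  sumQ 7 fun p => ((4 ^ a * 16 ^ p * om p * (co3 0 (p + a) p * fw 3 p) : ℤ) : ℚ) / 3 ^ (p + a)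

def hco (s : ℕ) : ℚ :=
  sumQ 36 fun n => if s ≤ n then
    ((co 1 (-1) 0 0 n 0 (n - s) * co 1 (-1) 0 0 n 0 (n - s) * fw 4 (n - s) : ℤ) : ℚ) /
      (4 ^ n * (4 * (fw 2 n : ℚ))) else 0

def valid (w a : ℕ) : Prop := 1 ≤ a ∧ w ≤ a + 2 ∧ a ≤ w + 10

instance validDec (w a : ℕ) : Decidable (valid w a) := by unfold valid; infer_instance

def vec (t a s : ℕ) : ℤ :=
  if a = 0 then (if s + 1 = t then 1 else 0) else if a ≤ t then co 1 (-1) 1 2 a (t - a) s else 0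

def cc (t : ℕ) (e : ℕ → ℤ) (i k : ℕ) : ℤ :=
  if i ≤ t then e i * 2 ^ i * co 1 1 (-1) 1 1 (t - i) k else 0

def alt (t : ℕ) (e : ℕ → ℤ) (i j k : ℕ) : ℤ :=
  cc t e i k - cc t e i j - cc t e j k + cc t e j i + cc t e k j - cc t e k i

def altOK (t : ℕ) (e : ℕ → ℤ) : Bool :=
  allTo (t + 2) fun i => allTo i fun j =>
    if i + j ≤ t + 1 ∧ t + 1 - i - j < j ∧ i % 2 = j % 2 ∧ j % 2 = (t + 1 - i - j) % 2 then
      decide (alt t e i j (t + 1 - i - j) = 0) else true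

end

end Vale.Agent.P359
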