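import Vale.Agent.P359.Limit
import Vale.Agent.P359.Ker

namespace Vale.Agent.P359

open Finset

noncomputable section

variable {Q n : ℕ}

def antiSp (Q m : ℕ) : Submodule ℝ (EuclideanSpace ℝ (Fin m → Fin (Q + 1))) where
  carrier := {ψ | Anti ψ.ofLp}
  add_mem' := fun {_ _} ha hb => ha.add hb
  zero_mem' := Anti.zero
  smul_mem' := fun c _ ha => ha.smul c

def hamA (Q m : ℕ) : antiSp Q m →ₗ[ℝ] antiSp Q m where
  toFun ψ := ⟨WithLp.toLp 2 (hamR (KQ Q) ψ.1.ofLp), Anti.hamR ψ.2 KQ_symm⟩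
  map_add' _ _ := Subtype.ext (by simp)
  map_smul' _ _ := Subtype.ext (by simp)

theorem ham_nonneg {ψ : SQ Q (n + 2)} (h : Anti ψ) : 0 ≤ ip ψ (hamR (KQ Q) ψ) := by
  rw [ip_hamR_anti h h, KQ, ip_op2_01]
  exact mul_nonneg (by positivity) (sum_nonneg fun m hm => mul_nonneg
    (by have := Nq_pos (mem_range.1 hm); positivity) (ip_nonneg _))

theorem spectral {δ : ℝ}
    (hgap : ∀ (E : ℝ) (ψ : SQ Q (n + 2)), Anti ψ → ψ ≠ 0 → hamR (KQ Q) ψ = E • ψ → 0 < E → δ ≤ E)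
    {ψ : SQ Q (n + 2)} (hψ : Anti ψ) : ∃ ψ0 : SQ Q (n + 2), Anti ψ0 ∧ hamR (KQ Q) ψ0 = 0 ∧
      δ * ip (ψ - ψ0) (ψ - ψ0) ≤ ip ψ (hamR (KQ Q) ψ) := by
  have hT : (hamA Q (n + 2)).IsSymmetric := fun a b => by
    simp only [Submodule.coe_inner, inner_eq_ip, hamA, LinearMap.coe_mk, AddHom.coe_mk]
    exact (ham_symm a.2 b.2).symm
  let b := hT.eigenvectorBasis rfl
  let ev := hT.eigenvalues rfl
  let v : Fin (Module.finrank ℝ (antiSp Q (n + 2))) → SQ Q (n + 2) := fun i => (b i).1.ofLp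
  have hv : ∀ i, hamR (KQ Q) (v i) = ev i • v i := fun i =>
    congrArg (fun x : antiSp Q (n + 2) => x.1.ofLp) (hT.apply_eigenvectorBasis rfl i)
  have ha : ∀ i, Anti (v i) := fun i => (b i).2
  have ho : ∀ i j, ip (v i) (v j) = if i = j then 1 else 0 := fun i j => by
    have := orthonormal_iff_ite.1 b.orthonormal i j
    rw [Submodule.coe_inner, inner_eq_ip] at this
    exact this
  have hev : ∀ i, ev i = 0 ∨ δ ≤ ev i := fun i => by
    have h1 := ham_nonneg (ha i)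
    rw [hv, map_smul, ho, if_pos rfl, smul_eq_mul, mul_one] at h1
    rcases h1.eq_or_lt with h | h
    · exact Or.inl h.symm
    · refine Or.inr (hgap _ _ (ha i) (fun h0 => ?_) (hv i) h)
      have := ho i i
      rw [h0] at this
      simp at this
  obtain ⟨c, hc⟩ : ∃ c : Fin (Module.finrank ℝ (antiSp Q (n + 2))) → ℝ, ψ = ∑ j, c j • v j := by
    have := b.sum_repr' (⟨WithLp.toLp 2 ψ, hψ⟩ : antiSp Q (n + 2))
    have h3 := congrArg (fun x : antiSp Q (n + 2) => x.1.ofLp) this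
    simp only [Submodule.coe_sum, Submodule.coe_smul, WithLp.ofLp_sum, WithLp.ofLp_smul] at h3
    exact ⟨_, h3.symm⟩
  have quad : ∀ x y : Fin (Module.finrank ℝ (antiSp Q (n + 2))) → ℝ,
      ip (∑ j, x j • v j) (∑ j, y j • v j) = ∑ j, x j * y j := fun x y => by
    simp only [map_sum, map_smul, LinearMap.sum_apply, LinearMap.smul_apply, ho, smul_eq_mul]
    simp [mul_comm]
  refine ⟨∑ j, (if ev j = 0 then c j else 0) • v j, ?_, ?_, ?_⟩
  · exact Finset.sum_induction _ Anti (fun _ _ => Anti.add) Anti.zero fun j _ => (ha j).smul _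
  · simp only [map_sum, map_smul, hv, smul_smul]
    refine sum_eq_zero fun j _ => ?_
    split_ifs with h <;> simp [h]
  · have e1 : ψ - ∑ j, (if ev j = 0 then c j else 0) • v j =
        ∑ j, (if ev j = 0 then 0 else c j) • v j := by
      rw [hc, ← sum_sub_distrib]
      refine sum_congr rfl fun j _ => ?_
      split_ifs <;> simp
    have e2 : hamR (KQ Q) ψ = ∑ j, (c j * ev j) • v j := by
      rw [hc]; simp only [map_sum, map_smul, hv, smul_smul]
    rw [e1, e2, quad]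
    conv_rhs => rw [hc, quad]
    rw [mul_sum]
    refine sum_le_sum fun j _ => ?_
    split_ifs with h
    · simp [h]
    · have := (hev j).resolve_left h
      nlinarith [mul_self_nonneg (c j)]

theorem real_gap : ∃ N0 : ℕ, ∀ n, N0 ≤ n → ∀ ψ : SQ (3 * (n + 4 - 1)) (n + 4), Anti ψ →
    ∃ c : ℝ, 3 / 100 * ip (ψ - c • lauR _ _) (ψ - c • lauR _ _) ≤ ip ψ (hamR (KQ _) ψ) := by
  obtain ⟨Q0, h⟩ := gap_eig
  refine ⟨Q0, fun n hn ψ hψ => ?_⟩
  obtain ⟨ψ0, h1, h2, h3⟩ := spectral (n := n + 2) (δ := 3 / 100)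
    (h (3 * (n + 4 - 1)) (by omega) n) hψ
  obtain ⟨c, hc⟩ := kernel (n := n + 2) rfl h1 h2
  exact ⟨c, hc ▸ h3⟩

end

end Vale.Agent.P359
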